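import Vale.Agent.P061.Tele

/-!
The weighted average of effective resistances over a hierarchy of partitions is small.
-/

namespace Vale.Agent.P061

open Finset Relation Matrix

set_option linter.unusedSectionVars false

variable {V E α X H : Type} [Fintype V] [DecidableEq V] [Fintype E] [DecidableEq E]
  [DecidableEq α] [NormedAddCommGroup X] [NormedSpace ℝ X] [NormedAddCommGroup H]
  [InnerProductSpace ℝ H]

/-- Difference of two unit vectors. -/
def dv (x y : V) : V → ℝ := Pi.single x 1 - Pi.single y 1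

theorem dot_dv (φ : V → ℝ) (x y : V) : φ ⬝ᵥ dv x y = φ x - φ y := by simp [dv]

theorem one_term {T : (V → ℝ) →ₗ[ℝ] H} {φ : E → V → ℝ} {μ : E → ℝ} (hμ : ∀ e, 0 ≤ μ e)
    (hc : ∀ z, ∑ e, μ e * (φ e ⬝ᵥ z) ^ 2 ≤ ‖T z‖ ^ 2) (e : E) (z : V → ℝ) :
    μ e * (φ e ⬝ᵥ z) ^ 2 ≤ ‖T z‖ ^ 2 :=
  (single_le_sum (f := fun e => μ e * (φ e ⬝ᵥ z) ^ 2)
    (fun e _ => mul_nonneg (hμ e) (sq_nonneg _)) (mem_univ e)).trans (hc z)

theorem res_term {T : (V → ℝ) →ₗ[ℝ] H} {φ : E → V → ℝ} {μ : E → ℝ} (hμ : ∀ e, 0 ≤ μ e)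
    (hc : ∀ z, ∑ e, μ e * (φ e ⬝ᵥ z) ^ 2 ≤ ‖T z‖ ^ 2) (e : E) (z : V → ℝ) {l B : ℝ} (hl : 0 < l)
    (hB : ‖T z‖ ^ 2 ≤ B) : μ e * (φ e ⬝ᵥ z) ≤ l / 2 * μ e + B / (2 * l) := by
  have h1 := (one_term hμ hc e z).trans hB
  have h2 := mul_nonneg (hμ e) (sq_nonneg (φ e ⬝ᵥ z - l))
  rw [← sub_le_iff_le_add', le_div_iff₀ (by positivity)]
  nlinarith

theorem low_rank {T : (V → ℝ) →ₗ[ℝ] H} {φ : E → V → ℝ} {μ : E → ℝ} (hμ : ∀ e, 0 ≤ μ e)
    (hc : ∀ z, ∑ e, μ e * (φ e ⬝ᵥ z) ^ 2 ≤ ‖T z‖ ^ 2) (C : Finset V) (A : Finset E)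
    (a b : E → V) (hab : ∀ e ∈ A, a e ∈ C ∧ b e ∈ C) {ρ l : ℝ} (hρ0 : 0 ≤ ρ)
    (hρ : ∀ e ∈ A, μ e ≤ ρ) (hl : 0 < l) : ∑ e ∈ A, μ e * (φ e ⬝ᵥ dv (a e) (b e)) ≤
      (∑ e ∈ A, ‖T (dv (a e) (b e))‖ ^ 2) / (2 * l) + l * ρ * C.card / 2 := by
  classical
  set G := C.image fun x => T (Pi.single x 1)
  set S := Submodule.span ℝ (G : Set H)
  have hr : Module.finrank ℝ S ≤ C.card := (finrank_span_finset_le_card G).trans card_image_le
  have hS : S ≤ LinearMap.range T := Submodule.span_le.2 fun y hy => by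
    obtain ⟨x, -, rfl⟩ := mem_image.1 (mem_coe.1 hy)
    exact LinearMap.mem_range_self _ _
  let B := stdOrthonormalBasis ℝ S
  have h1 : ∀ i, ∃ w, T w = (B i : H) := fun i => hS (B i).2
  choose w hw using h1
  have h2 : ∀ e ∈ A, μ e * (φ e ⬝ᵥ dv (a e) (b e)) ≤ ‖T (dv (a e) (b e))‖ ^ 2 / (2 * l) +
      l * ρ / 2 * ∑ i, μ e * (φ e ⬝ᵥ w i) ^ 2 := by
    intro e he
    have h3 : T (dv (a e) (b e)) ∈ S := by
      rw [dv, map_sub]
      exact S.sub_mem (Submodule.subset_span (mem_coe.2 (mem_image_of_mem _ (hab e he).1)))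
        (Submodule.subset_span (mem_coe.2 (mem_image_of_mem _ (hab e he).2)))
    set y : S := ⟨_, h3⟩
    set γ := fun i => inner ℝ (B i) y
    have h4 : ∑ i, γ i ^ 2 = ‖T (dv (a e) (b e))‖ ^ 2 := B.sum_sq_inner_right y
    have h5 : T (dv (a e) (b e) - ∑ i, γ i • w i) = 0 := by
      have := congrArg Subtype.val (B.sum_repr' y)
      simp only [AddSubmonoidClass.coe_finsetSum, SetLike.val_smul] at this
      rw [map_sub, map_sum]
      simp only [map_smul, hw]
      exact sub_eq_zero.2 this.symm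
    have h6 := one_term hμ hc e (dv (a e) (b e) - ∑ i, γ i • w i)
    rw [h5, norm_zero, dotProduct_sub, dotProduct_sum] at h6
    simp only [dotProduct_smul, smul_eq_mul] at h6
    have h7 : μ e * (φ e ⬝ᵥ dv (a e) (b e)) = ∑ i, μ e * (γ i * (φ e ⬝ᵥ w i)) := by
      rw [← mul_sum]
      rcases (hμ e).eq_or_lt with h | h
      · rw [← h, zero_mul, zero_mul]
      · have h8 : (φ e ⬝ᵥ dv (a e) (b e) - ∑ i, γ i * (φ e ⬝ᵥ w i)) ^ 2 ≤ 0 := by
          by_contra h9
          push Not at h9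
          nlinarith [mul_pos h h9]
        rw [sub_eq_zero.1 (pow_eq_zero_iff two_ne_zero |>.1 (le_antisymm h8 (sq_nonneg _)))]
    rw [h7, ← h4, sum_div, mul_sum, ← sum_add_distrib]
    refine sum_le_sum fun i _ => ?_
    have h8 := mul_le_mul_of_nonneg_right (hρ e he) (mul_nonneg (hμ e) (sq_nonneg (φ e ⬝ᵥ w i)))
    rw [← sub_le_iff_le_add, le_div_iff₀ (by positivity)]
    nlinarith [sq_nonneg (γ i - l * (μ e * (φ e ⬝ᵥ w i))), mul_le_mul_of_nonneg_left h8
      (sq_nonneg l)]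
  refine (sum_le_sum h2).trans ?_
  rw [sum_add_distrib, ← sum_div, ← mul_sum, sum_comm]
  have h3 : ∑ i, ∑ e ∈ A, μ e * (φ e ⬝ᵥ w i) ^ 2 ≤ C.card := by
    refine (sum_le_card_nsmul _ _ 1 fun i _ => ?_).trans ?_
    · refine (sum_le_sum_of_subset_of_nonneg (subset_univ A)
        fun e _ _ => mul_nonneg (hμ e) (sq_nonneg _)).trans ((hc _).trans ?_)
      rw [hw, ← Submodule.coe_norm, B.orthonormal.1 i, one_pow]
    · simpa using hr
  have := mul_le_mul_of_nonneg_left h3 (show 0 ≤ l * ρ / 2 by positivity)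
  linarith

open Classical in
/-- Darts of `A` within distance `β` of `x`. -/
noncomputable def darts (pos : V → X) (u v : E → V) (A : Finset E) (β : ℝ) (x : V) :
    Finset (E × Bool) :=
  (A ×ˢ univ).filter fun t => dist (pos x) (pos (if t.2 then u t.1 else v t.1)) < β

open Classical in
/-- Long edges with a sparse end. -/
noncomputable def bad (pos : V → X) (u v : E → V) (A : Finset E) (w β : ℝ) : Finset E :=
  A.filter fun e => β ≤ dist (pos (u e)) (pos (v e)) ∧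
    ¬ (w ≤ (darts pos u v A β (u e)).card ∧ w ≤ (darts pos u v A β (v e)).card)

theorem level_bound {T : (V → ℝ) →ₗ[ℝ] H} {φ : E → V → ℝ} {μ : E → ℝ} (hμ : ∀ e, 0 ≤ μ e)
    (hc : ∀ z, ∑ e, μ e * (φ e ⬝ᵥ z) ^ 2 ≤ ‖T z‖ ^ 2) {pos : V → X}
    (hd : ∀ x y, dist (pos x) (pos y) = ‖T (dv x y)‖ ^ 2) (u v : E → V)
    (hR : ∀ e, φ e ⬝ᵥ dv (u e) (v e) ≤ 1) (A : Finset E) {ρ l l' w β : ℝ} (hρ0 : 0 ≤ ρ)
    (hρ : ∀ e ∈ A, μ e ≤ ρ) (hl : 0 < l) (hl' : 0 < l') (hw : 0 < w) (hβ : 0 < β) :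
    ∑ e ∈ A, μ e * (φ e ⬝ᵥ dv (u e) (v e)) ≤ ρ * (bad pos u v A w β).card +
      (l / 2 * ∑ e ∈ A, μ e + A.card * (8 * β) / (2 * l)) +
      (5 * (∑ e ∈ A, dist (pos (u e)) (pos (v e))) / (2 * l') + l' * ρ * (A.card / w)) := by
  classical
  obtain ⟨C, hC1, hC2, hC3⟩ := exists_sep (univ.filter fun x => w ≤ (darts pos u v A β x).card)
    (fun x y => dist (pos x) (pos y) < 2 * β) (fun a b h => dist_comm (pos a) (pos b) ▸ h)
    fun a => by simpa using hβ
  have hC : (C.card : ℝ) ≤ 2 * (A.card / w) := by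
    have h1 : (C.biUnion (darts pos u v A β)).card ≤ A.card * 2 :=
      (card_le_card (biUnion_subset.2 fun x _ => filter_subset _ _)).trans (by simp)
    rw [card_biUnion fun x hx y hy hxy => disjoint_left.2 fun t h2 h3 => hxy (hC2 x hx y hy
      ((dist_triangle_right _ _ _).trans_lt
        (by linarith [(mem_filter.1 h2).2, (mem_filter.1 h3).2])))] at h1
    have h2 : C.card • w ≤ ∑ x ∈ C, ((darts pos u v A β x).card : ℝ) :=
      card_nsmul_le_sum _ _ _ fun x hx => (mem_filter.1 (hC1 hx)).2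
    have h3 : ∑ x ∈ C, ((darts pos u v A β x).card : ℝ) ≤ A.card * 2 := by exact_mod_cast h1
    rw [← mul_div_assoc, le_div_iff₀ hw, ← nsmul_eq_mul]
    linarith
  have hC4 : ∀ x, ∃ i, w ≤ (darts pos u v A β x).card → i ∈ C ∧ dist (pos i) (pos x) < 2 * β :=
    fun x => by
      by_cases h : w ≤ (darts pos u v A β x).card
      · obtain ⟨i, h1, h2⟩ := hC3 x (mem_filter.2 ⟨mem_univ _, h⟩)
        exact ⟨i, fun _ => ⟨h1, h2⟩⟩
      · exact ⟨x, fun h' => absurd h' h⟩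
  choose c hc' using hC4
  set A2 := A.filter fun e => β ≤ dist (pos (u e)) (pos (v e)) ∧
    w ≤ (darts pos u v A β (u e)).card ∧ w ≤ (darts pos u v A β (v e)).card
  have h1 : ∀ e ∈ A, μ e * (φ e ⬝ᵥ dv (u e) (v e)) ≤ (if e ∈ bad pos u v A w β then ρ else 0) +
      (l / 2 * μ e + 8 * β / (2 * l)) +
      if e ∈ A2 then μ e * (φ e ⬝ᵥ dv (c (u e)) (c (v e))) else 0 := by
    intro e he
    by_cases h2 : e ∈ A2
    · obtain ⟨-, -, h3, h4⟩ := mem_filter.1 h2
      have h5 := res_term hμ hc e (dv (u e) (c (u e)) - dv (v e) (c (v e))) hl (B := 8 * β) (by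
        have h5 := (hc' _ h3).2
        have h6 := (hc' _ h4).2
        rw [dist_comm, hd] at h5 h6
        rw [map_sub]
        have h7 := norm_sub_le (T (dv (u e) (c (u e)))) (T (dv (v e) (c (v e))))
        nlinarith [sq_nonneg (‖T (dv (u e) (c (u e)))‖ - ‖T (dv (v e) (c (v e)))‖),
          norm_nonneg (T (dv (u e) (c (u e))) - T (dv (v e) (c (v e))))])
      rw [if_pos h2]
      simp only [dotProduct_sub, dot_dv] at h5 ⊢
      split_ifs <;> linarith
    · rw [if_neg h2]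
      by_cases h3 : e ∈ bad pos u v A w β
      · rw [if_pos h3]
        have h4 := mul_le_mul_of_nonneg_left (hR e) (hμ e)
        have h5 : 0 ≤ l / 2 * μ e + 8 * β / (2 * l) := by have := hμ e; positivity
        linarith [hρ e he]
      · rw [if_neg h3]
        have h4 : dist (pos (u e)) (pos (v e)) < β := by
          by_contra h4
          push Not at h4
          exact h3 (mem_filter.2 ⟨he, h4, fun h5 => h2 (mem_filter.2 ⟨he, h4, h5⟩)⟩)
        have h5 := res_term hμ hc e (dv (u e) (v e)) hl (B := 8 * β) (by rw [← hd]; linarith)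
        linarith
  refine (sum_le_sum h1).trans ?_
  have hA2 : A ∩ A2 = A2 := inter_eq_right.2 (filter_subset _ _)
  have hbad : A ∩ bad pos u v A w β = bad pos u v A w β := inter_eq_right.2 (filter_subset _ _)
  rw [sum_add_distrib, sum_add_distrib, sum_add_distrib, sum_ite_mem, sum_ite_mem,
    hA2, hbad, ← mul_sum, sum_const, sum_const,
    nsmul_eq_mul, nsmul_eq_mul, mul_comm ρ, mul_div_assoc (A.card : ℝ)]
  refine add_le_add le_rfl ((low_rank hμ hc C A2 _ _ (fun e he => ⟨(hc' _ (mem_filter.1 he).2.2.1).1,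
    (hc' _ (mem_filter.1 he).2.2.2).1⟩) hρ0 (fun e he => hρ e (mem_filter.1 he).1) hl').trans
      (add_le_add (div_le_div_of_nonneg_right ?_ (by positivity)) ?_))
  · rw [mul_sum]
    refine le_trans (sum_le_sum fun e he => ?_) (sum_le_sum_of_subset_of_nonneg
      (filter_subset _ _ : A2 ⊆ A) fun e _ _ => by positivity)
    obtain ⟨-, h2, h3, h4⟩ := mem_filter.1 he
    have h5 := dist_triangle4 (pos (c (u e))) (pos (u e)) (pos (v e)) (pos (c (v e)))
    rw [dist_comm (pos (v e))] at h5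
    rw [← hd]
    linarith [(hc' _ h3).2, (hc' _ h4).2]
  · have := mul_le_mul_of_nonneg_left hC (show 0 ≤ l' * ρ / 2 by positivity)
    linarith

theorem level_scale (pos : V → X) (u v : E → V) (A : Finset E) {w τ Λ m : ℝ} (hw : 0 < w)
    (hτ : 0 < τ) (hΛ : 0 < Λ) (hm : 0 < m) : ∃ β βl βs : ℝ, 0 < β ∧ β ≤ 2 * (βl + βs) + τ ∧
      ((bad pos u v A w β).card : ℝ) ≤ m ∧
      Λ * βl * m ≤ 2 * ∑ e ∈ A, dist (pos (u e)) (pos (v e)) ∧
      (βs ≤ 0 ∨ ∃ I : Finset (V × V), m / (2 * w) ≤ I.card ∧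
        (∀ i ∈ I, ∃ e ∈ A, (i = (u e, v e) ∨ i = (v e, u e)) ∧
          dist (pos (u e)) (pos (v e)) ≤ Λ * βs) ∧
        ∀ i ∈ I, ∀ j ∈ I, dist (pos i.1) (pos j.1) < βs → i = j) := by
  classical
  have hsum : 0 ≤ ∑ e ∈ A, dist (pos (u e)) (pos (v e)) := sum_nonneg fun _ _ => dist_nonneg
  have h1 : ∃ k : ℕ, ((bad pos u v A w (τ * 2 ^ k)).card : ℝ) ≤ m := by
    obtain ⟨k, hk⟩ := pow_unbounded_of_one_lt ((∑ e ∈ A, dist (pos (u e)) (pos (v e))) / τ)
      (show (1 : ℝ) < 2 by norm_num)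
    refine ⟨k, ?_⟩
    rw [div_lt_iff₀ hτ] at hk
    have : bad pos u v A w (τ * 2 ^ k) = ∅ := filter_eq_empty_iff.2 fun e he h => by
      have := single_le_sum (f := fun e => dist (pos (u e)) (pos (v e)))
        (fun _ _ => dist_nonneg) he
      linarith [h.1]
    rw [this]
    simpa using hm.le
  have h2 := Nat.find_spec h1
  rcases hk : Nat.find h1 with _ | k
  · rw [hk] at h2
    exact ⟨_, 0, 0, by positivity, by simp, h2, by simpa using hsum, Or.inl le_rfl⟩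
  have h3 := Nat.find_min h1 (m := k) (by omega)
  rw [hk] at h2
  push Not at h3
  set β := τ * 2 ^ k with hβ
  have hβ0 : 0 < β := by positivity
  have h4 : τ * 2 ^ (k + 1) = 2 * β := by rw [hβ]; ring
  rw [h4] at h2
  set B := bad pos u v A w β
  have h5 := card_filter_add_card_filter_not (s := B)
    fun e => Λ * β ≤ dist (pos (u e)) (pos (v e))
  set B1 := B.filter fun e => Λ * β ≤ dist (pos (u e)) (pos (v e))
  set B2 := B.filter fun e => ¬ Λ * β ≤ dist (pos (u e)) (pos (v e))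
  have h6 : (B1.card : ℝ) + B2.card = B.card := by exact_mod_cast h5
  by_cases h7 : m / 2 ≤ B1.card
  · refine ⟨2 * β, β, 0, by positivity, by linarith, h2, ?_, Or.inl le_rfl⟩
    have h8 : B1.card • (Λ * β) ≤ ∑ e ∈ A, dist (pos (u e)) (pos (v e)) :=
      (card_nsmul_le_sum _ _ _ fun e he => (mem_filter.1 he).2).trans
        (sum_le_sum_of_subset_of_nonneg ((filter_subset _ _).trans (filter_subset _ _))
          fun _ _ _ => dist_nonneg)
    rw [nsmul_eq_mul] at h8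
    nlinarith [mul_le_mul_of_nonneg_right h7 (mul_pos hΛ hβ0).le]
  refine ⟨2 * β, 0, β, by positivity, by linarith, h2, by simpa using hsum, Or.inr ?_⟩
  let nd : E → V × V := fun e =>
    if w ≤ (darts pos u v A β (u e)).card then (v e, u e) else (u e, v e)
  obtain ⟨I, hI1, hI2, hI3⟩ := exists_sep B2
    (fun e e' => dist (pos (nd e).1) (pos (nd e').1) < β)
    (fun a b h => dist_comm (pos (nd a).1) (pos (nd b).1) ▸ h) fun a => by simpa using hβ0
  have hinj : Set.InjOn nd I := fun a ha b hb hab => hI2 a ha b hb (by rw [hab]; simpa using hβ0)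
  refine ⟨I.image nd, ?_, fun i hi => ?_, fun i hi j hj hij => ?_⟩
  · rw [card_image_of_injOn hinj, div_le_iff₀ (by positivity)]
    have h8 : B2.card ≤ ∑ i ∈ I, (darts pos u v A β (nd i).1).card := by
      refine le_trans ?_ card_biUnion_le
      refine card_le_card_of_injOn (fun e => (e, decide ¬ w ≤ (darts pos u v A β (u e)).card))
        (fun e he => ?_) fun a _ b _ h => congrArg Prod.fst h
      obtain ⟨i, hi, h9⟩ := hI3 e (mem_coe.1 he)
      refine mem_coe.2 (mem_biUnion.2 ⟨i, hi, mem_filter.2 ⟨mem_product.2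
        ⟨(mem_filter.1 (mem_filter.1 (mem_coe.1 he)).1).1, mem_univ _⟩, ?_⟩⟩)
      have h10 : (if decide ¬ w ≤ (darts pos u v A β (u e)).card then u e else v e) =
          (nd e).1 := by
        by_cases h11 : w ≤ (darts pos u v A β (u e)).card <;> simp [nd, h11]
      rw [← h10] at h9
      exact h9
    have h9 : ∑ i ∈ I, ((darts pos u v A β (nd i).1).card : ℝ) ≤ I.card • w :=
      sum_le_card_nsmul _ _ _ fun i hi => by
        have h10 := (mem_filter.1 (mem_filter.1 (hI1 hi)).1).2.2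
        simp only [nd]
        split_ifs with h11
        · exact (not_le.1 fun h12 => h10 ⟨h11, h12⟩).le
        · exact (not_le.1 h11).le
    have h10 : (B2.card : ℝ) ≤ ∑ i ∈ I, ((darts pos u v A β (nd i).1).card : ℝ) := by
      exact_mod_cast h8
    rw [nsmul_eq_mul] at h9
    linarith
  · obtain ⟨e, he, rfl⟩ := mem_image.1 hi
    obtain ⟨h8, h9⟩ := mem_filter.1 (hI1 he)
    refine ⟨e, (mem_filter.1 h8).1, ?_, (not_le.1 h9).le⟩
    simp only [nd]
    split_ifs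
    · exact Or.inr rfl
    · exact Or.inl rfl
  · obtain ⟨e, he, rfl⟩ := mem_image.1 hi
    obtain ⟨e', he', rfl⟩ := mem_image.1 hj
    rw [hI2 e he e' he' hij]

end Vale.Agent.P061
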