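import Vale.Agent.P061.Avg

/-!
Summing the level bounds.
-/

namespace Vale.Agent.P061

open Finset Relation Matrix

set_option linter.unusedSectionVars false

variable {V E α X H : Type} [Fintype V] [DecidableEq V] [Fintype E] [DecidableEq E]
  [DecidableEq α] [NormedAddCommGroup X] [NormedSpace ℝ X] [NormedAddCommGroup H]
  [InnerProductSpace ℝ H]

theorem ref_chain {G : ℕ} {π : ℕ → V → α} (href : ∀ g < G, Ref (π (g + 1)) (π g)) {g g' : ℕ}
    (h : g ≤ g') (hG : g' ≤ G) : Ref (π g') (π g) := by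
  induction h with
  | refl => exact fun _ _ h => h
  | step _ ih => exact fun x y h => ih (by omega) x y (href _ (by omega) x y h)

theorem lev_disj (u v : E → V) {G : ℕ} {π : ℕ → V → α} (href : ∀ g < G, Ref (π (g + 1)) (π g)) :
    Set.PairwiseDisjoint (range G : Set ℕ) fun g => lev u v univ (π (g + 1)) (π g) := by
  have key : ∀ g g', g < g' → g' < G →
      Disjoint (lev u v univ (π (g + 1)) (π g)) (lev u v univ (π (g' + 1)) (π g')) :=
    fun g g' h1 h2 => disjoint_left.2 fun e h3 h4 => (mem_lev.1 h3).2.1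
      (ref_chain href (show g + 1 ≤ g' from h1) h2.le _ _ (mem_lev.1 h4).2.2)
  intro g hg g' hg' h
  rcases lt_or_gt_of_ne h with h | h
  · exact key g g' h (mem_range.1 (mem_coe.1 hg'))
  · exact (key g' g h (mem_range.1 (mem_coe.1 hg))).symm

theorem lev_sum_le (u v : E → V) {G : ℕ} {π : ℕ → V → α} (href : ∀ g < G, Ref (π (g + 1)) (π g))
    {f : E → ℝ} (hf : ∀ e, 0 ≤ f e) :
    ∑ g ∈ range G, ∑ e ∈ lev u v univ (π (g + 1)) (π g), f e ≤ ∑ e, f e := by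
  rw [← sum_biUnion (lev_disj u v href)]
  exact sum_le_sum_of_subset_of_nonneg (subset_univ _) fun e _ _ => hf e

theorem lev_sum_eq (u v : E → V) {G : ℕ} {π : ℕ → V → α} (href : ∀ g < G, Ref (π (g + 1)) (π g))
    (hinj : Function.Injective (π G)) (h0 : ∀ x y, π 0 x = π 0 y) {f : E → ℝ}
    (hf : ∀ e, u e = v e → f e = 0) :
    ∑ e, f e = ∑ g ∈ range G, ∑ e ∈ lev u v univ (π (g + 1)) (π g), f e := by
  classical
  rw [← sum_biUnion (lev_disj u v href)]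
  refine (sum_subset (subset_univ _) fun e _ he => hf e ?_).symm
  by_contra h
  have h1 : ∃ g, π g (u e) ≠ π g (v e) := ⟨G, fun h2 => h (hinj h2)⟩
  have h2 := Nat.find_spec h1
  have h3 : Nat.find h1 ≤ G := Nat.find_min' h1 fun h2 => h (hinj h2)
  rcases hk : Nat.find h1 with _ | k
  · rw [hk] at h2
    exact h2 (h0 _ _)
  · rw [hk] at h2
    exact he (mem_biUnion.2 ⟨k, mem_range.2 (by omega), mem_lev.2 ⟨mem_univ _, h2,
      not_not.1 (Nat.find_min h1 (m := k) (by omega))⟩⟩)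

theorem average [Nonempty α] [Nonempty V] {T : (V → ℝ) →ₗ[ℝ] H} {φ : E → V → ℝ} {μ : E → ℝ}
    (hμ : ∀ e, 0 ≤ μ e) (hμ1 : ∑ e, μ e ≤ 1)
    (hc : ∀ z, ∑ e, μ e * (φ e ⬝ᵥ z) ^ 2 ≤ ‖T z‖ ^ 2) {pos : V → X}
    (hd : ∀ x y, dist (pos x) (pos y) = ‖T (dv x y)‖ ^ 2) (u v : E → V)
    (hR : ∀ e, φ e ⬝ᵥ dv (u e) (v e) ≤ 1) {κ Ξ ε : ℝ} (hε : 0 < ε) (hε1 : ε ≤ 1) (hΞ : 1 ≤ Ξ)
    (hcap : ∑ e, dist (pos (u e)) (pos (v e)) ≤ Ξ) (hκ : 10 ^ 18 * Ξ ^ 3 ≤ ε ^ 8 * κ)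
    (G : ℕ) (π : ℕ → V → α) (href : ∀ g < G, Ref (π (g + 1)) (π g))
    (hinj : Function.Injective (π G)) (h0 : ∀ x y, π 0 x = π 0 y)
    (hcp : ∀ g < G, CPC u v κ univ (π g)) (hsz : ∀ g < G, κ * (sz (π (g + 1)) - 1) ≤ 2 * 2 ^ g)
    (hcard : ∀ g < G, ((lev u v univ (π (g + 1)) (π g)).card : ℝ) ≤ 2 * 2 ^ g) (ρ : ℕ → ℝ)
    (hρ0 : ∀ g, 0 ≤ ρ g) (hρ : ∀ g < G, ∀ e ∈ lev u v univ (π (g + 1)) (π g), μ e ≤ ρ g)
    (hρs : ∑ g ∈ range G, ρ g * 2 ^ g ≤ 2) : ∑ e, μ e * (φ e ⬝ᵥ dv (u e) (v e)) < ε := by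
  have hΞ0 : 0 < Ξ := by linarith
  set w := 640 * Ξ / ε ^ 2 with hw
  set Λ := 32768 * Ξ / ε ^ 3 with hΛ
  set τ := ε ^ 2 / (1024 * 2 ^ G) with hτ
  have hΛ1 : 1 ≤ Λ := by
    rw [hΛ, le_div_iff₀ (by positivity)]
    linarith [pow_le_one₀ (n := 3) hε.le hε1]
  have h1 := fun g : ℕ => level_scale pos u v (lev u v univ (π (g + 1)) (π g)) (w := w) (τ := τ)
    (Λ := Λ) (m := ε / 8 * 2 ^ g) (by positivity) (by positivity) (by positivity) (by positivity)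
  choose β βl βs hβ0 hβ1 hβ2 hβ3 hβ4 using h1
  set cap := fun g => ∑ e ∈ lev u v univ (π (g + 1)) (π g), dist (pos (u e)) (pos (v e))
    with hcap'
  have hSc : ∑ g ∈ range G, cap g ≤ Ξ := (lev_sum_le u v href fun _ => dist_nonneg).trans hcap
  have hSμ := (lev_sum_le u v href hμ).trans hμ1
  have hγκ : 2048 * 10 ^ 6 * Λ * Ξ ≤ ε ^ 2 * (ε / 8 / (2 * w) * κ) := by
    rw [hΛ, hw]
    have h2 : 2048 * 10 ^ 6 * (32768 * Ξ / ε ^ 3) * Ξ =
        (2048 * 10 ^ 6 * 32768 * 10240 * Ξ ^ 3) / (10240 * Ξ * ε ^ 3) := by field_simp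
    have h3 : ε ^ 2 * (ε / 8 / (2 * (640 * Ξ / ε ^ 2)) * κ) =
        (ε ^ 8 * κ) / (10240 * Ξ * ε ^ 3) := by field_simp; ring
    rw [h2, h3]
    refine div_le_div_of_nonneg_right ?_ (by positivity)
    linarith [pow_pos hΞ0 3]
  have hγκ0 : 0 < ε / 8 / (2 * w) * κ := by
    by_contra h
    push Not at h
    nlinarith [mul_pos (show 0 < Λ by linarith) hΞ0, sq_nonneg ε]
  have h2 := telescope pos u v univ (γ := ε / 8 / (2 * w)) hΛ1 (by positivity) (by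
      nlinarith [pow_le_one₀ (n := 2) hε.le hε1]) G π href hinj hcp hsz βs fun g _ =>
    (hβ4 g).imp id fun ⟨I, h2, h3, h4⟩ => ⟨I, le_trans (le_of_eq (by ring)) h2, fun i hi => by
      obtain ⟨e, he, h5, h6⟩ := h3 i hi
      obtain ⟨-, h7, h8⟩ := mem_lev.1 he
      rcases h5 with rfl | rfl
      · exact ⟨h7, h8, h6⟩
      · exact ⟨h7.symm, h8.symm, dist_comm (pos (u e)) _ ▸ h6⟩, h4⟩
  have hSs : ∑ g ∈ range G, 2 ^ g * βs g ≤ ε ^ 2 / 2048 := by
    refine le_of_mul_le_mul_left (h2.trans ?_) hγκ0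
    have := mul_le_mul_of_nonneg_left hSc (show 0 ≤ 10 ^ 6 * Λ by positivity)
    linarith
  have hSl : ∑ g ∈ range G, 2 ^ g * βl g ≤ ε ^ 2 / 2048 := by
    refine le_of_mul_le_mul_left (a := Λ * (ε / 8)) ?_ (by positivity)
    have h3 : Λ * (ε / 8) * (ε ^ 2 / 2048) = 2 * Ξ := by rw [hΛ]; field_simp; norm_num
    rw [h3, mul_sum]
    refine (sum_le_sum fun g _ => ?_).trans ((mul_sum _ cap 2).symm.le.trans (by linarith))
    linarith [hβ3 g]
  have hSn : ∑ g ∈ range G, τ * 2 ^ g ≤ ε ^ 2 / 1024 := by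
    rw [← mul_sum, geom_sum_eq (by norm_num), hτ, div_mul_eq_mul_div, div_le_div_iff₀
      (by positivity) (by positivity)]
    nlinarith [sq_nonneg ε]
  rw [lev_sum_eq u v href hinj h0 fun e he => by rw [dot_dv, he, sub_self, mul_zero]]
  have h3 : ∀ g ∈ range G, ∑ e ∈ lev u v univ (π (g + 1)) (π g), μ e * (φ e ⬝ᵥ dv (u e) (v e)) ≤
      3 * ε / 16 * (ρ g * 2 ^ g) + ε / 8 * ∑ e ∈ lev u v univ (π (g + 1)) (π g), μ e +
      (32 / ε * (2 * (2 ^ g * βl g) + 2 * (2 ^ g * βs g) + τ * 2 ^ g) + ε / (8 * Ξ) * cap g) := by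
    intro g hg
    have h4 := level_bound hμ hc hd u v hR _ (l := ε / 4) (l' := 20 * Ξ / ε) (w := w) (hρ0 g)
      (hρ g (mem_range.1 hg)) (by positivity) (by positivity) (by positivity) (hβ0 g)
    have h5 := mul_le_mul_of_nonneg_left (hβ2 g) (hρ0 g)
    have h6 := hcard g (mem_range.1 hg)
    have h7 : (lev u v univ (π (g + 1)) (π g)).card * (8 * β g) / (2 * (ε / 4)) ≤
        32 / ε * (2 * (2 ^ g * βl g) + 2 * (2 ^ g * βs g) + τ * 2 ^ g) := by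
      have h8 := mul_le_mul h6 (hβ1 g) (hβ0 g).le (by positivity)
      rw [div_le_iff₀ (by positivity), mul_right_comm,
        show 32 / ε * (2 * (ε / 4)) = 16 by field_simp; norm_num]
      linarith
    have h8 : 5 * cap g / (2 * (20 * Ξ / ε)) = ε / (8 * Ξ) * cap g := by field_simp; ring
    have h9 : 20 * Ξ / ε * ρ g * ((lev u v univ (π (g + 1)) (π g)).card / w) ≤
        ε / 16 * (ρ g * 2 ^ g) := by
      have h10 : 20 * Ξ / ε * ρ g * ((lev u v univ (π (g + 1)) (π g)).card / w) =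
          ε / 32 * ρ g * (lev u v univ (π (g + 1)) (π g)).card := by
        rw [hw]; field_simp; ring
      have h11 := mul_le_mul_of_nonneg_left h6
        (show 0 ≤ ε / 32 * ρ g by have := hρ0 g; positivity)
      linarith
    linarith
  refine (sum_le_sum h3).trans_lt ?_
  simp only [sum_add_distrib, ← mul_sum] at hSn ⊢
  have h4 : 32 / ε * (2 * ∑ g ∈ range G, 2 ^ g * βl g + 2 * ∑ g ∈ range G, 2 ^ g * βs g +
      τ * ∑ g ∈ range G, 2 ^ g) ≤ 3 * ε / 32 := by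
    refine (mul_le_mul_of_nonneg_left (c := 3 * ε ^ 2 / 1024) (by linarith)
      (by positivity)).trans (le_of_eq ?_)
    field_simp; norm_num
  have h5 : ε / (8 * Ξ) * ∑ g ∈ range G, cap g ≤ ε / 8 :=
    (mul_le_mul_of_nonneg_left hSc (by positivity)).trans (le_of_eq (by field_simp))
  have h6 := mul_le_mul_of_nonneg_left hρs (show 0 ≤ 3 * ε / 16 by positivity)
  have h7 := mul_le_mul_of_nonneg_left hSμ (show 0 ≤ ε / 8 by positivity)
  linarith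

end Vale.Agent.P061
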