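import Mathlib

/-!
Shared definitions for the thin tree proof: partition connectivity, cuts, Gram matrices.
A multigraph is a pair of endpoint maps `u v : E → V`.
-/

namespace Vale.Agent.P061

open Finset Matrix

variable {V E : Type} [DecidableEq V]

/-- Edges of `Y` inside `W` whose endpoints get different labels. -/
def cr {α : Type} [DecidableEq α] (u v : E → V) (Y : Finset E) (W : Finset V) (p : V → α) :
    Finset E :=
  Y.filter fun e => u e ∈ W ∧ v e ∈ W ∧ p (u e) ≠ p (v e)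

/-- Partition connectivity of `W` through the edges of `Y`. -/
def PC (u v : E → V) (κ : ℝ) (Y : Finset E) (W : Finset V) : Prop :=
  ∀ p : V → ℕ, κ * (((W.image p).card : ℝ) - 1) ≤ ((cr u v Y W p).card : ℝ)

/-- Number of edges of `Y` with exactly one endpoint in `S`. -/
def cut (u v : E → V) (Y : Finset E) (S : Finset V) : ℕ :=
  (Y.filter fun e => ¬ (u e ∈ S ↔ v e ∈ S)).card

/-- The principal submatrix of `A` on `T` is at most `x`. -/
def SubLe {ι : Type} [Fintype ι] (A : Matrix ι ι ℝ) (T : Finset ι) (x : ℝ) : Prop :=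
  ∀ z : ι → ℝ, (∀ i, i ∉ T → z i = 0) → z ⬝ᵥ A *ᵥ z ≤ x * (z ⬝ᵥ z)

theorem SubLe.mono {ι : Type} [Fintype ι] {A : Matrix ι ι ℝ} {T T' : Finset ι} {x : ℝ}
    (h : SubLe A T x) (hT : T' ⊆ T) : SubLe A T' x :=
  fun z hz => h z fun i hi => hz i fun h' => hi (hT h')

theorem mem_cr {α : Type} [DecidableEq α] {u v : E → V} {Y : Finset E} {W : Finset V}
    {p : V → α} {e : E} :
    e ∈ cr u v Y W p ↔ e ∈ Y ∧ u e ∈ W ∧ v e ∈ W ∧ p (u e) ≠ p (v e) := by
  simp [cr]

theorem PC.mono {u v : E → V} {κ : ℝ} {Y Y' : Finset E} {W : Finset V} (h : PC u v κ Y W)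
    (hY : Y ⊆ Y') : PC u v κ Y' W := fun p =>
  (h p).trans (by exact_mod_cast card_le_card (filter_subset_filter _ hY))

theorem PC.anti {u v : E → V} {κ κ' : ℝ} {Y : Finset E} {W : Finset V} (h : PC u v κ Y W)
    (hW : W.Nonempty) (hκ : κ' ≤ κ) : PC u v κ' Y W := fun p => by
  have h1 : (1 : ℝ) ≤ (W.image p).card := by
    exact_mod_cast card_pos.2 (hW.image p)
  exact le_trans (mul_le_mul_of_nonneg_right hκ (by linarith)) (h p)

/-- Labels in any type are allowed. -/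
theorem PC.gen {u v : E → V} {κ : ℝ} {Y : Finset E} {W : Finset V} (h : PC u v κ Y W)
    {α : Type} [DecidableEq α] (p : V → α) :
    κ * (((W.image p).card : ℝ) - 1) ≤ ((cr u v Y W p).card : ℝ) := by
  obtain ⟨f, hf⟩ := Set.countable_iff_exists_injOn.1
    (W.image p).finite_toSet.countable
  have h1 := h (f ∘ p)
  rw [← image_image, card_image_of_injOn hf] at h1
  refine h1.trans (le_of_eq ?_)
  congr 2
  ext e
  simp only [mem_cr, Function.comp]
  refine and_congr_right fun _ => and_congr_right fun h2 => and_congr_right fun h3 => ?_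
  refine not_congr ⟨fun h4 => hf (by simp; exact ⟨_, h2, rfl⟩) (by simp; exact ⟨_, h3, rfl⟩) h4,
    fun h4 => by rw [h4]⟩

theorem PC.singleton (u v : E → V) (κ : ℝ) (Y : Finset E) (x : V) : PC u v κ Y {x} := by
  intro p
  simp

/-- Combination lemma: a partition connected piece can be contracted. -/
theorem PC.combine [DecidableEq E] {u v : E → V} {κ : ℝ} {Y : Finset E} {W1 W : Finset V}
    (h1 : W1 ⊆ W) (hne : W1.Nonempty) (hP : PC u v κ Y W1)
    (hQ : ∀ p : V → ℕ, (∀ x ∈ W1, ∀ y ∈ W1, p x = p y) →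
      κ * (((W.image p).card : ℝ) - 1) ≤ ((cr u v Y W p).card : ℝ)) : PC u v κ Y W := by
  intro p
  let q : V → ℕ := fun x => if p x ∈ W1.image p then 0 else p x + 1
  have hq : ∀ x ∈ W1, q x = 0 := fun x hx => if_pos (mem_image_of_mem p hx)
  have h2 := hQ q fun x hx y hy => by rw [hq x hx, hq y hy]
  have h3 := hP p
  have h4 : W.image q = insert 0 ((W.image p \ W1.image p).image (· + 1)) := by
    ext n
    simp only [mem_image, mem_insert, mem_sdiff]
    constructor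
    · rintro ⟨x, hx, rfl⟩
      by_cases hh : p x ∈ W1.image p
      · left; exact if_pos hh
      · right
        refine ⟨p x, ⟨⟨x, hx, rfl⟩, fun h => hh (mem_image.2 h)⟩, (if_neg hh).symm⟩
    · rintro (rfl | ⟨m, ⟨⟨x, hx, rfl⟩, h5⟩, rfl⟩)
      · obtain ⟨x, hx⟩ := hne
        exact ⟨x, h1 hx, hq x hx⟩
      · exact ⟨x, hx, if_neg fun h => h5 (mem_image.1 h)⟩
  have h5 : ((W.image q).card : ℝ) = (W.image p).card - (W1.image p).card + 1 := by
    rw [h4, card_insert_of_notMem (by simp), card_image_of_injective _ (add_left_injective 1),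
      card_sdiff_of_subset (image_subset_image h1)]
    push_cast [Nat.cast_sub (card_le_card (image_subset_image h1))]
    ring
  have h6 : (cr u v Y W1 p).card + (cr u v Y W q).card ≤ (cr u v Y W p).card := by
    rw [← card_union_of_disjoint]
    · apply card_le_card
      intro e he
      rcases mem_union.1 he with he | he
      · rw [mem_cr] at he ⊢
        exact ⟨he.1, h1 he.2.1, h1 he.2.2.1, he.2.2.2⟩
      · rw [mem_cr] at he ⊢
        refine ⟨he.1, he.2.1, he.2.2.1, fun h => he.2.2.2 ?_⟩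
        simp only [q, h]
    · rw [disjoint_left]
      intro e he he'
      rw [mem_cr] at he he'
      exact he'.2.2.2 (by rw [hq _ he.2.1, hq _ he.2.2.1])
  have h7 : ((cr u v Y W1 p).card : ℝ) + (cr u v Y W q).card ≤ (cr u v Y W p).card := by
    exact_mod_cast h6
  rw [h5] at h2
  nlinarith

section Gram

variable {n : Type} [Fintype n] [DecidableEq n] [Fintype E]

/-- The matrix of the numbers `b e ᵀ M⁻¹ b e'`. -/
noncomputable def gram (M : Matrix n n ℝ) (b : E → n → ℝ) : Matrix E E ℝ :=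
  Matrix.of fun e e' => b e ⬝ᵥ M⁻¹ *ᵥ b e'

theorem psd_cs {M : Matrix n n ℝ} (hM : M.PosSemidef) (x y : n → ℝ) :
    (x ⬝ᵥ M *ᵥ y) ^ 2 ≤ (x ⬝ᵥ M *ᵥ x) * (y ⬝ᵥ M *ᵥ y) := by
  have hs : y ⬝ᵥ M *ᵥ x = x ⬝ᵥ M *ᵥ y := by
    have := hM.isHermitian
    have h2 : Mᵀ = M := by
      simpa [IsHermitian, conjTranspose_eq_transpose_of_trivial] using this
    rw [dotProduct_mulVec, dotProduct_comm, ← mulVec_transpose, h2]
  have h := discrim_le_zero (a := x ⬝ᵥ M *ᵥ x) (b := 2 * (x ⬝ᵥ M *ᵥ y)) (c := y ⬝ᵥ M *ᵥ y)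
    fun t => by
      have := hM.dotProduct_mulVec_nonneg (t • x + y)
      simp only [star_trivial, mulVec_add, mulVec_smul, add_dotProduct, dotProduct_add,
        smul_dotProduct, dotProduct_smul, smul_eq_mul, hs] at this
      nlinarith
  unfold discrim at h
  nlinarith

theorem gram_form (M : Matrix n n ℝ) (b : E → n → ℝ) (z z' : E → ℝ) :
    z ⬝ᵥ gram M b *ᵥ z' = (∑ e, z e • b e) ⬝ᵥ M⁻¹ *ᵥ (∑ e, z' e • b e) := by
  simp only [mulVec_sum, sum_dotProduct, dotProduct_sum, mulVec_smul, smul_dotProduct,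
    dotProduct_smul, smul_eq_mul]
  simp only [gram, dotProduct, mulVec, of_apply, Finset.mul_sum]
  rw [Finset.sum_comm]
  refine sum_congr rfl fun e _ => sum_congr rfl fun e' _ => ?_
  simp only [Finset.sum_mul, Finset.mul_sum]
  refine sum_congr rfl fun i _ => sum_congr rfl fun j _ => by ring

theorem gram_psd {M : Matrix n n ℝ} (hM : M.PosDef) (b : E → n → ℝ) :
    (gram M b).PosSemidef := by
  have hi := hM.inv
  refine PosSemidef.of_dotProduct_mulVec_nonneg ?_ fun z => ?_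
  · ext e e'
    simp only [conjTranspose_apply, gram, of_apply, star_trivial]
    rw [dotProduct_mulVec, dotProduct_comm, ← mulVec_transpose]
    congr 2
    simpa [IsHermitian, conjTranspose_eq_transpose_of_trivial] using hi.isHermitian
  · rw [star_trivial, gram_form]
    simpa using hi.posSemidef.dotProduct_mulVec_nonneg (∑ e, z e • b e)

theorem inv_cs {M : Matrix n n ℝ} (hM : M.PosDef) (w y : n → ℝ) :
    (w ⬝ᵥ y) ^ 2 ≤ (w ⬝ᵥ M⁻¹ *ᵥ w) * (y ⬝ᵥ M *ᵥ y) := by
  have hu : IsUnit M.det := (isUnit_iff_isUnit_det M).1 hM.isUnit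
  have h := psd_cs hM.inv.posSemidef w (M *ᵥ y)
  rw [mulVec_mulVec, nonsing_inv_mul _ hu, one_mulVec, dotProduct_comm (M *ᵥ y)] at h
  exact h

/-- A principal submatrix bound for the Gram matrix is a Loewner bound. -/
theorem gram_subLe {M : Matrix n n ℝ} (hM : M.PosDef) (b : E → n → ℝ) {T : Finset E} {x : ℝ}
    (hx : 0 ≤ x) (h : SubLe (gram M b) T x) (y : n → ℝ) :
    ∑ e ∈ T, (b e ⬝ᵥ y) ^ 2 ≤ x * (y ⬝ᵥ M *ᵥ y) := by
  classical
  let z : E → ℝ := fun e => if e ∈ T then b e ⬝ᵥ y else 0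
  have h1 := h z fun i hi => if_neg hi
  have h2 : z ⬝ᵥ z = ∑ e ∈ T, (b e ⬝ᵥ y) ^ 2 := by
    simp only [dotProduct.eq_1 z z, z, ite_mul, zero_mul, sum_ite_mem, univ_inter]
    exact sum_congr rfl fun e he => by rw [if_pos he, sq]
  have h3 : (∑ e, z e • b e) ⬝ᵥ y = ∑ e ∈ T, (b e ⬝ᵥ y) ^ 2 := by
    simp only [sum_dotProduct, smul_dotProduct, smul_eq_mul, z, ite_mul, zero_mul, sum_ite_mem,
      univ_inter, sq]
  have h4 := inv_cs hM (∑ e, z e • b e) y
  rw [← gram_form, h3] at h4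
  rw [h2] at h1
  have h5 : 0 ≤ y ⬝ᵥ M *ᵥ y := by simpa using hM.posSemidef.dotProduct_mulVec_nonneg y
  set s := ∑ e ∈ T, (b e ⬝ᵥ y) ^ 2
  have h6 : 0 ≤ s := sum_nonneg fun _ _ => sq_nonneg _
  rcases h6.eq_or_lt with h7 | h7
  · rw [← h7]; positivity
  · have : s * s ≤ s * (x * (y ⬝ᵥ M *ᵥ y)) := by nlinarith
    exact le_of_mul_le_mul_left this h7

/-- The Gram matrix is a contraction when `M` dominates the rank one terms. -/
theorem gram_contr [DecidableEq E] {M : Matrix n n ℝ} (hM : M.PosDef) (b : E → n → ℝ)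
    (h : ∀ y, ∑ e, (b e ⬝ᵥ y) ^ 2 ≤ y ⬝ᵥ M *ᵥ y) : (1 - gram M b).PosSemidef := by
  refine PosSemidef.of_dotProduct_mulVec_nonneg
    (isHermitian_one.sub (gram_psd hM b).isHermitian) fun z => ?_
  have hu : IsUnit M.det := (isUnit_iff_isUnit_det M).1 hM.isUnit
  rw [star_trivial, sub_mulVec, one_mulVec, dotProduct_sub, gram_form, sub_nonneg]
  set w := ∑ e, z e • b e with hw
  have h1 := h (M⁻¹ *ᵥ w)
  rw [mulVec_mulVec, mul_nonsing_inv _ hu, one_mulVec, dotProduct_comm (M⁻¹ *ᵥ w)] at h1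
  have h2 : w ⬝ᵥ M⁻¹ *ᵥ w = ∑ e, z e * (b e ⬝ᵥ M⁻¹ *ᵥ w) := by
    conv_lhs => rw [hw, sum_dotProduct]
    simp only [smul_dotProduct, smul_eq_mul]
    rfl
  have h3 := sum_mul_sq_le_sq_mul_sq univ z fun e => b e ⬝ᵥ M⁻¹ *ᵥ w
  rw [← h2] at h3
  have h4 : z ⬝ᵥ z = ∑ e, z e ^ 2 := by simp only [dotProduct, sq]
  rw [h4]
  have h5 : 0 ≤ ∑ e, z e ^ 2 := sum_nonneg fun _ _ => sq_nonneg _
  set s := w ⬝ᵥ M⁻¹ *ᵥ w
  by_contra h6
  push Not at h6
  nlinarith

end Gram

end Vale.Agent.P061
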