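import Vale.Agent.P061.Forest

/-!
Edge exchange, separated sets, directed cuts, breadth first forests.
-/

namespace Vale.Agent.P061

open Finset Relation

theorem eqv_add_edge {A : Type} {r : A → A → Prop} {a b x y : A}
    (h : EqvGen (fun s t => r s t ∨ (s = a ∧ t = b)) x y) : EqvGen r x y ∨
      ((EqvGen r x a ∨ EqvGen r x b) ∧ (EqvGen r y a ∨ EqvGen r y b)) := by
  induction h with
  | rel x y h =>
    rcases h with h | ⟨rfl, rfl⟩
    · exact Or.inl (.rel _ _ h)
    · exact Or.inr ⟨Or.inl (.refl _), Or.inr (.refl _)⟩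
  | refl x => exact Or.inl (.refl _)
  | symm x y _ ih => exact ih.imp eqv_symm And.symm
  | trans x y z _ _ ih1 ih2 =>
    rcases ih1 with h1 | h1 <;> rcases ih2 with h2 | h2
    · exact Or.inl (eqv_trans h1 h2)
    · exact Or.inr ⟨h2.1.imp (eqv_trans h1) (eqv_trans h1), h2.2⟩
    · exact Or.inr ⟨h1.1, h1.2.imp (eqv_trans (eqv_symm h2)) (eqv_trans (eqv_symm h2))⟩
    · exact Or.inr ⟨h1.1, h2.2⟩

/-- Every virtual edge can be exchanged for a link from one of its ends. -/
theorem exchange {A ι : Type} (a b q : ι → A) (X : Finset ι) : ∀ r : A → A → Prop,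
    (∀ i ∈ X, EqvGen (fun s t => r s t ∨ ∃ j ∈ X, s = a j ∧ t = b j) (q i) (a i)) →
    ∃ c : ι → A, (∀ i, c i = a i ∨ c i = b i) ∧
      ∀ x y, EqvGen (fun s t => r s t ∨ ∃ j ∈ X, s = a j ∧ t = b j) x y →
        EqvGen (fun s t => r s t ∨ ∃ j ∈ X, s = c j ∧ t = q j) x y := by
  classical
  induction X using Finset.induction_on with
  | empty => exact fun r _ => ⟨a, fun _ => Or.inl rfl, fun x y h => by simpa using h⟩
  | insert i X hi ih =>
    intro r h
    have h1 : EqvGen (fun s t => r s t ∨ ∃ j ∈ X, s = a j ∧ t = b j) (q i) (a i) ∨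
        EqvGen (fun s t => r s t ∨ ∃ j ∈ X, s = a j ∧ t = b j) (q i) (b i) := by
      have h2 := eqv_add_edge (r := fun s t => r s t ∨ ∃ j ∈ X, s = a j ∧ t = b j)
        (a := a i) (b := b i) (eqv_lift id (fun s t hst => .rel _ _ (by
          rcases hst with h2 | ⟨j, hj, h2⟩
          · exact Or.inl (Or.inl h2)
          · rcases mem_insert.1 hj with rfl | hj
            · exact Or.inr h2
            · exact Or.inl (Or.inr ⟨j, hj, h2⟩))) (h i (mem_insert_self _ _)))
      rcases h2 with h2 | h2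
      · exact Or.inl h2
      · exact h2.1
    obtain ⟨ci, hci, h2⟩ : ∃ ci, (ci = a i ∨ ci = b i) ∧ EqvGen
        (fun s t => (r s t ∨ (s = ci ∧ t = q i)) ∨ ∃ j ∈ X, s = a j ∧ t = b j) (a i) (b i) := by
      have h3 : ∀ ci x y, EqvGen (fun s t => r s t ∨ ∃ j ∈ X, s = a j ∧ t = b j) x y → EqvGen
          (fun s t => (r s t ∨ (s = ci ∧ t = q i)) ∨ ∃ j ∈ X, s = a j ∧ t = b j) x y :=
        fun ci x y => eqv_lift id fun s t hst => .rel _ _ (hst.imp Or.inl id)
      rcases h1 with h1 | h1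
      · exact ⟨b i, Or.inr rfl, eqv_symm (eqv_trans (b := q i)
          (.rel _ _ (Or.inl (Or.inr ⟨rfl, rfl⟩))) (h3 _ _ _ h1))⟩
      · exact ⟨a i, Or.inl rfl, eqv_trans (b := q i)
          (.rel _ _ (Or.inl (Or.inr ⟨rfl, rfl⟩))) (h3 _ _ _ h1)⟩
    have h3 : ∀ x y, EqvGen (fun s t => r s t ∨ ∃ j ∈ insert i X, s = a j ∧ t = b j) x y → EqvGen
        (fun s t => (r s t ∨ (s = ci ∧ t = q i)) ∨ ∃ j ∈ X, s = a j ∧ t = b j) x y :=
      fun x y => eqv_lift id fun s t hst => by
        rcases hst with h4 | ⟨j, hj, h4⟩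
        · exact .rel _ _ (Or.inl (Or.inl h4))
        · rcases mem_insert.1 hj with rfl | hj
          · rw [h4.1, h4.2]; exact h2
          · exact .rel _ _ (Or.inr ⟨j, hj, h4⟩)
    obtain ⟨c, hc1, hc2⟩ := ih (fun s t => r s t ∨ (s = ci ∧ t = q i))
      fun j hj => h3 _ _ (h j (mem_insert_of_mem hj))
    refine ⟨Function.update c i ci, fun j => ?_, fun x y hxy => ?_⟩
    · by_cases hj : j = i
      · subst hj; simpa using hci
      · rw [Function.update_of_ne hj]; exact hc1 j
    · refine eqv_lift id (fun s t hst => .rel _ _ ?_) (hc2 x y (h3 x y hxy))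
      rcases hst with (h4 | h4) | ⟨j, hj, h4⟩
      · exact Or.inl h4
      · exact Or.inr ⟨i, mem_insert_self _ _, by simpa using h4⟩
      · exact Or.inr ⟨j, mem_insert_of_mem hj, by
          rwa [Function.update_of_ne fun h : j = i => hi (h ▸ hj)]⟩

theorem exists_sep {A : Type} (T : Finset A) (near : A → A → Prop)
    (hs : ∀ a b, near a b → near b a) (hr : ∀ a, near a a) :
    ∃ I ⊆ T, (∀ a ∈ I, ∀ b ∈ I, near a b → a = b) ∧ ∀ t ∈ T, ∃ i ∈ I, near i t := by
  classical
  induction T using Finset.induction_on with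
  | empty => exact ⟨∅, Subset.rfl, by simp, by simp⟩
  | insert t T _ ih =>
    obtain ⟨I, h1, h2, h3⟩ := ih
    by_cases h : ∃ i ∈ I, near i t
    · refine ⟨I, h1.trans (subset_insert _ _), h2, fun s hs' => ?_⟩
      rcases mem_insert.1 hs' with rfl | hs'
      · exact h
      · exact h3 s hs'
    · refine ⟨insert t I, insert_subset_insert _ h1, fun a ha b hb hab => ?_, fun s hs' => ?_⟩
      · rcases mem_insert.1 ha with ha' | ha' <;> rcases mem_insert.1 hb with hb' | hb'
        · rw [ha', hb']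
        · exact absurd ⟨b, hb', ha' ▸ hs _ _ hab⟩ h
        · exact absurd ⟨a, ha', hb' ▸ hab⟩ h
        · exact h2 a ha' b hb' hab
      · rcases mem_insert.1 hs' with rfl | hs'
        · exact ⟨s, mem_insert_self _ _, hr s⟩
        · obtain ⟨i, hi, h4⟩ := h3 s hs'
          exact ⟨i, mem_insert_of_mem hi, h4⟩

theorem red_blue {ι α : Type} [DecidableEq α] (I : Finset ι) (a b : ι → α)
    (h : ∀ i ∈ I, a i ≠ b i) :
    ∃ R : Finset α, I.card ≤ 4 * (I.filter fun i => a i ∈ R ∧ b i ∉ R).card := by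
  set T := I.image a ∪ I.image b
  have h1 : ∀ i ∈ I, T.powerset.card ≤
      4 * (T.powerset.filter fun R => a i ∈ R ∧ b i ∉ R).card := by
    intro i hi
    have ha : a i ∈ T := mem_union_left _ (mem_image_of_mem a hi)
    refine card_le_mul_card_image_of_maps_to (f := fun R => insert (a i) (R.erase (b i)))
      (fun R hR => ?_) 4 fun G _ => ?_
    · refine mem_filter.2 ⟨mem_powerset.2 (insert_subset ha
        ((erase_subset _ _).trans (mem_powerset.1 hR))), mem_insert_self _ _, ?_⟩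
      simp [(h i hi).symm]
    · refine le_trans (card_le_card (t := {G, G.erase (a i), insert (b i) G,
        insert (b i) (G.erase (a i))}) fun R hR => ?_) card_le_four
      obtain ⟨-, rfl⟩ := mem_filter.1 hR
      have := h i hi
      simp only [mem_insert, mem_singleton]
      by_cases h2 : a i ∈ R <;> by_cases h3 : b i ∈ R
      · refine Or.inr (Or.inr (Or.inl ?_))
        ext x; simp only [mem_insert, mem_erase]; grind
      · refine Or.inl ?_
        ext x; simp only [mem_insert, mem_erase]; grind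
      · refine Or.inr (Or.inr (Or.inr ?_))
        ext x; simp only [mem_insert, mem_erase]; grind
      · refine Or.inr (Or.inl ?_)
        ext x; simp only [mem_insert, mem_erase]; grind
  have h2 : ∑ _R ∈ T.powerset, I.card ≤
      ∑ R ∈ T.powerset, 4 * (I.filter fun i => a i ∈ R ∧ b i ∉ R).card := by
    have h3 : ∑ R ∈ T.powerset, (I.filter fun i => a i ∈ R ∧ b i ∉ R).card =
        ∑ i ∈ I, (T.powerset.filter fun R => a i ∈ R ∧ b i ∉ R).card :=
      sum_card_bipartiteAbove_eq_sum_card_bipartiteBelow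
        (s := T.powerset) (t := I) fun R i => a i ∈ R ∧ b i ∉ R
    rw [← mul_sum, h3, mul_sum, sum_const, smul_eq_mul, mul_comm, ← smul_eq_mul, ← sum_const]
    exact sum_le_sum h1
  obtain ⟨R, -, hR⟩ := exists_le_of_sum_le ⟨∅, empty_mem_powerset _⟩ h2
  exact ⟨R, hR⟩

/-- `a` reaches its root in exactly `n` steps. -/
def Stp {Ω : Type} (adj : Ω → Ω → Prop) (root : Ω → Ω) : ℕ → Ω → Prop
  | 0, a => a = root a
  | n + 1, a => ∃ b, adj a b ∧ Stp adj root n b

theorem bfs {Ω : Type} (N : Finset Ω) (adj : Ω → Ω → Prop) (root : Ω → Ω)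
    (hadj : ∀ a b, adj a b → b ∈ N ∧ root a = root b) (hroot : ∀ a, root (root a) = root a)
    (hc : ∀ a ∈ N, ReflTransGen adj a (root a)) :
    ∃ (par : Ω → Ω) (ht : Ω → ℕ), Fo N par ht ∧ (∀ a ∈ N, par a = a ∨ adj a (par a)) ∧
      ∀ a ∈ N, par^[ht a] a = root a := by
  classical
  have h1 : ∀ a c, ReflTransGen adj a c → c = root c → ∃ n, Stp adj root n a := by
    intro a c h hc
    induction h using ReflTransGen.head_induction_on with
    | refl => exact ⟨0, hc⟩
    | head h _ ih =>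
      obtain ⟨n, hn⟩ := ih
      exact ⟨n + 1, _, h, hn⟩
  have h2 : ∀ a ∈ N, ∃ n, Stp adj root n a := fun a ha => h1 a _ (hc a ha) (hroot a).symm
  let ht : Ω → ℕ := fun a => if h : ∃ n, Stp adj root n a then Nat.find h else 0
  have h3 : ∀ a ∈ N, Stp adj root (ht a) a := fun a ha => by
    simp only [ht, dif_pos (h2 a ha)]
    exact Nat.find_spec (h2 a ha)
  have h4 : ∀ a n, Stp adj root n a → ht a ≤ n := fun a n h => by
    have h5 : ∃ n, Stp adj root n a := ⟨n, h⟩
    simp only [ht, dif_pos h5]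
    exact Nat.find_min' h5 h
  have h5 : ∀ a ∈ N, ∃ b ∈ N, ht b = ht a - 1 ∧ (ht a = 0 → b = a) ∧ (b = a ∨ adj a b) := by
    intro a ha
    have h6 := h3 a ha
    rcases hn : ht a with _ | n
    · exact ⟨a, ha, by omega, fun _ => rfl, Or.inl rfl⟩
    · rw [hn] at h6
      obtain ⟨b, h7, h8⟩ := h6
      have h9 := (hadj a b h7).1
      have h10 := h4 b n h8
      have h11 := h4 a (ht b + 1) ⟨b, h7, h3 b h9⟩
      exact ⟨b, h9, by omega, by omega, Or.inr h7⟩
  choose! par hp1 hp2 hp3 hp4 using h5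
  have F : Fo N par ht := ⟨hp1, hp2, hp3⟩
  refine ⟨par, ht, F, hp4, fun a ha => ?_⟩
  have h6 : ∀ k, root (par^[k] a) = root a := by
    intro k
    induction k with
    | zero => rfl
    | succ k ih =>
      rw [Function.iterate_succ_apply']
      rcases hp4 _ (F.it_mem ha k) with h | h
      · rw [h, ih]
      · rw [← (hadj _ _ h).2, ih]
  have h7 := h3 _ (F.it_mem ha (ht a))
  rw [F.it_ht ha, Nat.sub_self] at h7
  exact h7.trans (h6 _)

end Vale.Agent.P061
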