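import Mathlib

namespace Vale.Agent.P061

/-- The edge copies of `T` with exactly one endpoint in `S`; `ends e` is the unordered pair of
endpoints of the edge copy `e`. -/
def cutEdges {V E : Type} [Fintype V] [DecidableEq V] (ends : E → Sym2 V) (T : Finset E)
    (S : Finset V) : Finset E :=
  T.filter fun e => ∃ a b : V, ends e = s(a, b) ∧ a ∈ S ∧ b ∉ S

/-- `T` is a set of `n - 1` edge copies forming a tree on the whole vertex set. -/
def IsSpanningTree {V E : Type} [Fintype V] (ends : E → Sym2 V) (T : Finset E) : Prop :=
  T.card + 1 = Fintype.card V ∧ (SimpleGraph.fromEdgeSet (ends '' (T : Set E))).IsTree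

end Vale.Agent.P061
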