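import Vale.Agent.P061.Halve
import Vale.Agent.P061.Defs

/-!
Iterated halving and the thin spanning tree.
-/

namespace Vale.Agent.P061

open Finset Relation

set_option linter.unusedSectionVars false

variable {V : Type} [Fintype V] [DecidableEq V]

theorem iter [Nonempty V] {κ : ℝ} (hκ : 10 ^ 22 * 1120 ^ 35 ≤ κ) (j : ℕ) :
    ∀ (E : Type) [Fintype E] [DecidableEq E] (u v : E → V),
      PC u v (κ * 2 ^ j * (2 - (69 / 70) ^ j)) univ univ → ∃ H : Finset E, PC u v κ H univ ∧
        ∀ S, (cut u v H S : ℝ) * 2 ^ j ≤ (2 - (69 / 70) ^ j) * cut u v univ S := by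
  have hκ0 : 0 < κ := lt_of_lt_of_le (by positivity) hκ
  induction j with
  | zero => exact fun E _ _ u v h => ⟨univ, by norm_num at h; exact h, fun S => by norm_num⟩
  | succ j ih =>
    intro E _ _ u v h
    have hq0 : (0 : ℝ) < (69 / 70) ^ j := by positivity
    have hq1 : ((69 : ℝ) / 70) ^ j ≤ 1 := pow_le_one₀ (by norm_num) (by norm_num)
    have hn : (0 : ℝ) < 2 ^ j := by positivity
    rw [pow_succ, pow_succ] at h ⊢
    obtain ⟨H, h1, h2⟩ := halving u v (ξ := (69 / 70) ^ j / 1120) (by positivity) (by linarith)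
      (by
        have h3 : (1 : ℝ) ≤ ((69 / 70) ^ j) ^ 35 * 2 ^ j := by
          rw [← pow_mul, mul_comm j, pow_mul, ← mul_pow]
          exact one_le_pow₀ (by norm_num)
        rw [div_pow, div_mul_eq_mul_div, le_div_iff₀ (by positivity)]
        have h4 : κ * 2 ^ j ≤ κ * (2 ^ j * 2) * (2 - (69 / 70) ^ j * (69 / 70)) := by
          nlinarith [mul_pos hκ0 hn]
        have h5 := mul_le_mul_of_nonneg_left h4 (pow_pos hq0 35).le
        nlinarith) h
    have hm : (univ : Finset H).map (Function.Embedding.subtype _) = H := by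
      rw [univ_eq_attach, attach_map_val]
    have hcr : ∀ (J : Finset H) (p : V → ℕ), (cr (u ∘ Subtype.val) (v ∘ Subtype.val) J univ p).card
        = (cr u v (J.map (Function.Embedding.subtype _)) univ p).card := fun J p => by
      rw [cr, cr, filter_map, card_map]
      rfl
    have hcut : ∀ (J : Finset H) S, cut (u ∘ Subtype.val) (v ∘ Subtype.val) J S
        = cut u v (J.map (Function.Embedding.subtype _)) S := fun J S => by
      rw [cut, cut, filter_map, card_map]
      rfl
    obtain ⟨J, h3, h4⟩ := ih H (u ∘ Subtype.val) (v ∘ Subtype.val) fun p => by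
      rw [hcr, hm]
      refine h1.anti univ_nonempty ?_ p
      nlinarith [mul_pos (mul_pos hκ0 hn) (mul_pos hq0 hq0), mul_pos (mul_pos hκ0 hn) hq0]
    refine ⟨J.map (Function.Embedding.subtype _), fun p => hcr J p ▸ h3 p, fun S => ?_⟩
    have h5 := h4 S
    rw [hcut, hcut, hm] at h5
    have h6 := mul_le_mul_of_nonneg_left (h2 S) (show 0 ≤ 2 - (69 / 70 : ℝ) ^ j by linarith)
    have h7 : (0 : ℝ) ≤ cut u v univ S := Nat.cast_nonneg _
    nlinarith [mul_nonneg (mul_pos hq0 hq0).le h7, mul_nonneg hq0.le h7]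

theorem pc_of_cut {E : Type} [Fintype E] [DecidableEq E] (u v : E → V) {k : ℝ} (hk : 0 ≤ k)
    (h : ∀ S : Finset V, S.Nonempty → S ≠ univ → k ≤ cut u v univ S) :
    PC u v (k / 2) univ univ := by
  intro p
  by_cases h1 : (univ.image p).card ≤ 1
  · have : ((univ.image p).card : ℝ) ≤ 1 := by exact_mod_cast h1
    have h2 : (0 : ℝ) ≤ (cr u v univ univ p).card := Nat.cast_nonneg _
    nlinarith
  have h2 : (univ.image p).card • k ≤
      ∑ a ∈ univ.image p, (cut u v univ (univ.filter fun x => p x = a) : ℝ) := by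
    refine card_nsmul_le_sum _ _ _ fun a ha => h _ ?_ fun h2 => h1 (card_le_one.2 ?_)
    · obtain ⟨x, -, hx⟩ := mem_image.1 ha
      exact ⟨x, mem_filter.2 ⟨mem_univ _, hx⟩⟩
    · have h3 : ∀ x, p x = a := fun x => (mem_filter.1 (h2.ge (mem_univ x))).2
      intro b hb c hc
      obtain ⟨x, -, rfl⟩ := mem_image.1 hb
      obtain ⟨y, -, rfl⟩ := mem_image.1 hc
      rw [h3, h3]
  have h3 : ∑ a ∈ univ.image p, cut u v univ (univ.filter fun x => p x = a) ≤
      2 * (cr u v univ univ p).card := by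
    have h3 : ∑ a ∈ univ.image p, cut u v univ (univ.filter fun x => p x = a) =
        ∑ e, ((univ.image p).filter fun a => ¬ (u e ∈ univ.filter (fun x => p x = a) ↔
          v e ∈ univ.filter fun x => p x = a)).card :=
      sum_card_bipartiteAbove_eq_sum_card_bipartiteBelow (s := univ.image p) (t := univ)
        fun a e => ¬ (u e ∈ univ.filter (fun x => p x = a) ↔ v e ∈ univ.filter fun x => p x = a)
    rw [h3, mul_comm, ← smul_eq_mul, ← sum_const, cr, sum_filter]
    refine sum_le_sum fun e _ => ?_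
    split_ifs with h4
    · refine le_trans (card_le_card (t := {p (u e), p (v e)}) fun a ha => ?_) card_le_two
      have := (mem_filter.1 ha).2
      simp only [mem_filter, mem_univ, true_and, mem_insert, mem_singleton] at this ⊢
      grind
    · simp only [mem_univ, true_and, not_not] at h4
      simp [h4]
  have h4 : ∑ a ∈ univ.image p, (cut u v univ (univ.filter fun x => p x = a) : ℝ) ≤
      2 * (cr u v univ univ p).card := by exact_mod_cast h3
  rw [nsmul_eq_mul] at h2
  linarith

theorem exists_tree [Nonempty V] {E : Type} [DecidableEq E] (u v : E → V) {κ : ℝ} (hκ : 0 < κ)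
    {H : Finset E} (h : PC u v κ H univ) :
    ∃ T ⊆ H, IsSpanningTree (fun e => s(u e, v e)) T := by
  obtain ⟨J, h1, h2, h3, -⟩ := mst (p' := fun _ : V => ()) hκ (fun x => by simpa using h)
    (fun _ => 0) _ (id : V → V) rfl fun _ _ _ => rfl
  have h4 : sz (id : V → V) = Fintype.card V := by simp [sz]
  have h5 : J.card + 1 ≤ Fintype.card V := by
    have := one_le_sz fun _ : V => ()
    rw [h4] at h2
    have h6 : (J.card : ℝ) + 1 ≤ Fintype.card V := by linarith
    exact_mod_cast h6
  set G := SimpleGraph.fromEdgeSet ((fun e => s(u e, v e)) '' (J : Set E))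
  have h6 : G.Connected := ⟨fun x y => by
    have h7 := h3 x y rfl
    induction h7 with
    | rel a b hab =>
      rcases hab with hab | ⟨e, he, rfl, rfl⟩
      · exact (show a = b from hab) ▸ .refl _
      · exact SimpleGraph.Adj.reachable ((SimpleGraph.fromEdgeSet_adj _).2
          ⟨⟨e, he, rfl⟩, (mem_lev.1 (h1 he)).2.1⟩)
    | refl a => exact .refl _
    | symm a b _ ih => exact ih.symm
    | trans a b c _ _ ih1 ih2 => exact ih1.trans ih2⟩
  have h7 := h6.card_vert_le_card_edgeSet_add_one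
  have h8 : Nat.card G.edgeSet ≤ J.card := by
    rw [Nat.card_coe_set_eq, SimpleGraph.edgeSet_fromEdgeSet, ← Set.ncard_coe_finset J]
    exact (Set.ncard_le_ncard Set.sdiff_subset (J.finite_toSet.image _)).trans
      (Set.ncard_image_le J.finite_toSet)
  rw [Nat.card_eq_fintype_card] at h7
  refine ⟨J, h1.trans (filter_subset _ _), by omega,
    SimpleGraph.isTree_iff_connected_and_card.2 ⟨h6, ?_⟩⟩
  rw [Nat.card_eq_fintype_card (α := V)]
  change Nat.card G.edgeSet + 1 = _
  omega

theorem cutEdges_card {E : Type} (u v : E → V) (T : Finset E) (S : Finset V) :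
    (cutEdges (fun e => s(u e, v e)) T S).card = cut u v T S := by
  rw [cutEdges, cut]
  congr 1
  refine filter_congr fun e _ => ⟨?_, fun h => ?_⟩
  · rintro ⟨a, b, h1, h2, h3⟩
    rcases Sym2.eq_iff.1 h1 with ⟨rfl, rfl⟩ | ⟨rfl, rfl⟩ <;> simp [h2, h3]
  · by_cases h1 : u e ∈ S
    · exact ⟨u e, v e, rfl, h1, fun h2 => h ⟨fun _ => h2, fun _ => h1⟩⟩
    · exact ⟨v e, u e, Sym2.eq_swap, by tauto, h1⟩

theorem thin_tree : ∃ C : ℝ, 0 < C ∧ ∀ k : ℕ, 1 ≤ k → ∀ (V E : Type) [Fintype V] [DecidableEq V]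
    [Fintype E] (ends : E → Sym2 V), 2 ≤ Fintype.card V →
    (∀ S : Finset V, S.Nonempty → S ≠ univ → k ≤ (cutEdges ends univ S).card) →
    ∃ T : Finset E, IsSpanningTree ends T ∧ ∀ S : Finset V,
      ((cutEdges ends T S).card : ℝ) ≤ C / k * (cutEdges ends univ S).card := by
  obtain ⟨κ, hκ⟩ : ∃ κ : ℝ, 10 ^ 22 * 1120 ^ 35 ≤ κ := ⟨_, le_rfl⟩
  have hκ0 : 0 < κ := lt_of_lt_of_le (by positivity) hκ
  refine ⟨16 * κ, by positivity, fun k hk V E _ _ _ ends hV h => ?_⟩
  classical
  have : Nonempty V := Fintype.card_pos_iff.1 (by omega)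
  have h1 : ∀ e, ∃ a b, ends e = s(a, b) := fun e =>
    Sym2.inductionOn (ends e) fun a b => ⟨a, b, rfl⟩
  choose u v huv using h1
  obtain rfl : ends = fun e => s(u e, v e) := funext huv
  simp only [cutEdges_card] at h ⊢
  have hk0 : (0 : ℝ) < k := by exact_mod_cast hk
  have hP := pc_of_cut u v hk0.le fun S h1 h2 => by exact_mod_cast h S h1 h2
  have hmono : ∀ T H : Finset E, T ⊆ H → ∀ S, (cut u v T S : ℝ) ≤ cut u v H S :=
    fun T H hT S => by exact_mod_cast card_le_card (filter_subset_filter _ hT)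
  by_cases h2 : 1 ≤ k / (4 * κ)
  · obtain ⟨j, h3, h4⟩ := exists_nat_pow_near h2 (show (1 : ℝ) < 2 by norm_num)
    rw [le_div_iff₀ (by positivity)] at h3
    rw [div_lt_iff₀ (by positivity), pow_succ] at h4
    have hq0 : (0 : ℝ) < (69 / 70) ^ j := by positivity
    have hn : (0 : ℝ) < 2 ^ j := by positivity
    obtain ⟨H, h5, h6⟩ := iter hκ j E u v
      (hP.anti univ_nonempty (by nlinarith [mul_pos (mul_pos hκ0 hn) hq0]))
    obtain ⟨T, h7, h8⟩ := exists_tree u v hκ0 h5
    refine ⟨T, h8, fun S => (hmono T H h7 S).trans ?_⟩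
    rw [div_mul_eq_mul_div, le_div_iff₀ hk0]
    have h9 := h6 S
    have h10 : (0 : ℝ) ≤ cut u v univ S := Nat.cast_nonneg _
    have h11 : (0 : ℝ) ≤ cut u v H S := Nat.cast_nonneg _
    nlinarith [mul_nonneg hq0.le h10, mul_le_mul_of_nonneg_left h4.le h11]
  · obtain ⟨T, -, h8⟩ := exists_tree u v (by positivity) hP
    refine ⟨T, h8, fun S => (hmono T univ (subset_univ _) S).trans
      (le_mul_of_one_le_left (Nat.cast_nonneg _) ?_)⟩
    rw [not_le, div_lt_one (by positivity)] at h2
    rw [le_div_iff₀ hk0]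
    linarith

end Vale.Agent.P061
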