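import Vale.Agent.P061.Part

/-!
Pruning and cutting a rooted forest.
-/

namespace Vale.Agent.P061

open Finset Relation

set_option linter.unusedSectionVars false

variable {Ω : Type} [DecidableEq Ω]

/-- A rooted forest on `N` with parent map and heights. -/
structure Fo (N : Finset Ω) (par : Ω → Ω) (ht : Ω → ℕ) : Prop where
  mem : ∀ a ∈ N, par a ∈ N
  ht_par : ∀ a ∈ N, ht (par a) = ht a - 1
  root : ∀ a ∈ N, ht a = 0 → par a = a

variable {N : Finset Ω} {par : Ω → Ω} {ht : Ω → ℕ}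

theorem Fo.it_mem (F : Fo N par ht) {a : Ω} (ha : a ∈ N) (k : ℕ) : par^[k] a ∈ N := by
  induction k with
  | zero => exact ha
  | succ k ih => rw [Function.iterate_succ_apply']; exact F.mem _ ih

theorem Fo.it_ht (F : Fo N par ht) {a : Ω} (ha : a ∈ N) (k : ℕ) : ht (par^[k] a) = ht a - k := by
  induction k with
  | zero => rfl
  | succ k ih => rw [Function.iterate_succ_apply', F.ht_par _ (F.it_mem ha k), ih]; omega

theorem Fo.it_root (F : Fo N par ht) {a : Ω} (ha : a ∈ N) {k : ℕ} (hk : ht a ≤ k) :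
    par^[k] a = par^[ht a] a := by
  obtain ⟨m, rfl⟩ := Nat.exists_eq_add_of_le hk
  rw [add_comm, Function.iterate_add_apply]
  exact Function.iterate_fixed (F.root _ (F.it_mem ha _) (by rw [F.it_ht ha]; omega)) m

open Classical in
/-- Vertices that survive pruning of twigs shorter than `L`. -/
noncomputable def core (N : Finset Ω) (par : Ω → Ω) (ht : Ω → ℕ) (J : Finset Ω) (L : ℕ) :
    Finset Ω :=
  N.filter fun x => ∃ y ∈ N, ∃ k, par^[k] y = x ∧ (y ∈ J ∨ (L ≤ k ∧ k ≤ ht y))

/-- Children inside `C`. -/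
def cch (C : Finset Ω) (par : Ω → Ω) (x : Ω) : Finset Ω :=
  (C.filter fun c => par c ≠ c).filter fun c => par c = x

/-- Vertices of `C` outside `J` with exactly one child in `C`. -/
def Simp (C J : Finset Ω) (par : Ω → Ω) (x : Ω) : Prop :=
  x ∈ C ∧ x ∉ J ∧ (cch C par x).card = 1

theorem mem_cch {C : Finset Ω} {x c : Ω} : c ∈ cch C par x ↔ c ∈ C ∧ par c ≠ c ∧ par c = x := by
  simp [cch, and_assoc]

variable {J : Finset Ω} {L : ℕ}

theorem mem_core {x : Ω} : x ∈ core N par ht J L ↔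
    x ∈ N ∧ ∃ y ∈ N, ∃ k, par^[k] y = x ∧ (y ∈ J ∨ (L ≤ k ∧ k ≤ ht y)) := by
  simp [core]

theorem Fo.core_par (F : Fo N par ht) {x : Ω} (hx : x ∈ core N par ht J L) :
    par x ∈ core N par ht J L := by
  obtain ⟨h1, y, hy, k, rfl, h2⟩ := mem_core.1 hx
  by_cases h3 : ht (par^[k] y) = 0
  · rwa [F.root _ h1 h3]
  · refine mem_core.2 ⟨F.mem _ h1, y, hy, k + 1, Function.iterate_succ_apply' _ _ _, ?_⟩
    rw [F.it_ht hy] at h3
    exact h2.imp id fun h => by omega

theorem Fo.core_it (F : Fo N par ht) {x : Ω} (hx : x ∈ core N par ht J L) (k : ℕ) :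
    par^[k] x ∈ core N par ht J L := by
  induction k with
  | zero => exact hx
  | succ k ih => rw [Function.iterate_succ_apply']; exact F.core_par ih

theorem core_sub : core N par ht J L ⊆ N := fun _ h => (mem_core.1 h).1

theorem sub_core (hJ : J ⊆ N) : J ⊆ core N par ht J L := fun x h =>
  mem_core.2 ⟨hJ h, x, hJ h, 0, rfl, Or.inl h⟩

theorem Fo.cover (F : Fo N par ht) (hJ : J ⊆ N) (hr : ∀ a ∈ N, ht a = 0 → a ∈ J) {x : Ω}
    (hx : x ∈ N) : par^[L] x ∈ core N par ht J L := by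
  by_cases h : L ≤ ht x
  · exact mem_core.2 ⟨F.it_mem hx _, x, hx, L, rfl, Or.inr ⟨le_rfl, h⟩⟩
  · exact sub_core hJ (hr _ (F.it_mem hx _) (by rw [F.it_ht hx]; omega))

theorem Fo.leaves (F : Fo N par ht) :
    L * ((core N par ht J L).filter fun x =>
      x ∉ J ∧ (cch (core N par ht J L) par x).card = 0).card ≤ (N \ core N par ht J L).card := by
  classical
  set C := core N par ht J L with hC
  set A := C.filter fun x => x ∉ J ∧ (cch C par x).card = 0 with hA
  have h1 : ∀ x ∈ A, ∃ y ∈ N, par^[L] y = x ∧ L ≤ ht y ∧ ∀ j < L, par^[j] y ∉ C := by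
    intro x hx
    obtain ⟨hx1, hx2, hx3⟩ := mem_filter.1 hx
    rw [card_eq_zero, eq_empty_iff_forall_notMem] at hx3
    have key : ∀ c ∈ C, par c = x → c = x := fun c hc h => by
      by_contra h'
      exact hx3 c (mem_cch.2 ⟨hc, fun h2 => h' (h2.symm.trans h), h⟩)
    obtain ⟨hxN, y, hy, k, hk, h2⟩ := mem_core.1 hx1
    rcases h2 with h2 | h2
    · exfalso
      have : ∀ k, par^[k] y = x → y = x := by
        intro k
        induction k with
        | zero => exact id
        | succ k ih =>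
          intro h
          rw [Function.iterate_succ_apply'] at h
          exact ih (key _ (mem_core.2 ⟨F.it_mem hy _, y, hy, k, rfl, Or.inl h2⟩) h)
      exact hx2 (this k hk ▸ h2)
    · have hne : ∀ j < k, par^[j] y ∉ C := by
        intro j hj hc
        obtain ⟨m, rfl⟩ := Nat.exists_eq_add_of_lt hj
        have h3 := F.core_it hc m
        rw [← Function.iterate_add_apply, add_comm] at h3
        have h4 := key _ h3 (by rw [← hk, Function.iterate_succ_apply'])
        have h5 := congrArg ht (h4.trans hk.symm)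
        rw [F.it_ht hy, F.it_ht hy] at h5
        omega
      have hkL : k = L := by
        by_contra h
        exact hne L (by omega)
          (mem_core.2 ⟨F.it_mem hy _, y, hy, L, rfl, Or.inr ⟨le_rfl, by omega⟩⟩)
      subst hkL
      exact ⟨y, hy, hk, h2.2, hne⟩
  choose! y hy1 hy2 hy3 hy4 using h1
  rw [mul_comm, ← card_range L, ← card_product]
  refine card_le_card_of_injOn (fun t => par^[t.2] (y t.1)) (fun t ht => ?_) ?_
  · obtain ⟨h1, h2⟩ := mem_product.1 (mem_coe.1 ht)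
    exact mem_coe.2 (mem_sdiff.2 ⟨F.it_mem (hy1 _ h1) _, hy4 _ h1 _ (mem_range.1 h2)⟩)
  · have key : ∀ x ∈ A, ∀ x' ∈ A, ∀ j j', j ≤ j' → j' < L →
        par^[j] (y x) = par^[j'] (y x') → x = x' ∧ j = j' := by
      intro x hx x' hx' j j' h1 h2 h3
      have h4 : par^[L - j' + j] (y x) = x' := by
        rw [Function.iterate_add_apply, h3, ← Function.iterate_add_apply,
          Nat.sub_add_cancel h2.le, hy2 _ hx']
      have h5 : j = j' := by
        by_contra h
        exact hy4 _ hx (L - j' + j) (by omega) (h4 ▸ (mem_filter.1 hx').1)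
      subst h5
      rw [Nat.sub_add_cancel h2.le, hy2 _ hx] at h4
      exact ⟨h4, rfl⟩
    rintro ⟨x, j⟩ h1 ⟨x', j'⟩ h2 h3
    obtain ⟨h4, h5⟩ := mem_product.1 (mem_coe.1 h1)
    obtain ⟨h6, h7⟩ := mem_product.1 (mem_coe.1 h2)
    rcases le_total j j' with h | h
    · obtain ⟨rfl, rfl⟩ := key x h4 x' h6 j j' h (mem_range.1 h7) h3
      rfl
    · obtain ⟨rfl, rfl⟩ := key x' h6 x h4 j' j h (mem_range.1 h5) h3.symm
      rfl

open Classical in
theorem nonsimp_count {C : Finset Ω} (hC : ∀ x ∈ C, par x ∈ C) :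
    ((C.filter fun x => ¬ Simp C J par x).biUnion (cch C par)).card ≤
      (C.filter fun x => ¬ Simp C J par x).card ∧
    (C.filter fun x => ¬ Simp C J par x).card ≤
      2 * (C.filter fun x => x ∉ J ∧ (cch C par x).card = 0).card + 2 * J.card := by
  set NS := C.filter fun x => ¬ Simp C J par x with hNS
  have h1 : ∑ x ∈ C, (cch C par x).card ≤ C.card := by
    have := card_eq_sum_card_fiberwise (s := C.filter fun c => par c ≠ c) (t := C) (f := par)
      fun c hc => hC c (mem_filter.1 (mem_coe.1 hc)).1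
    exact this.symm.le.trans (card_filter_le _ _)
  have h1a : ∑ x ∈ C.filter (Simp C J par), (cch C par x).card + ∑ x ∈ NS, (cch C par x).card =
      ∑ x ∈ C, (cch C par x).card := sum_filter_add_sum_filter_not C (Simp C J par) _
  have h1b : (C.filter (Simp C J par)).card + NS.card = C.card :=
    card_filter_add_card_filter_not (Simp C J par)
  have h2 : ∑ x ∈ C.filter (Simp C J par), (cch C par x).card =
      (C.filter (Simp C J par)).card :=
    (sum_congr rfl fun x hx => (mem_filter.1 hx).2.2.2).trans (card_eq_sum_ones _).symm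
  have h3 : ∑ x ∈ NS, (cch C par x).card ≤ NS.card := by omega
  refine ⟨card_biUnion_le.trans h3, ?_⟩
  set A2 := C.filter fun x => x ∉ J ∧ 2 ≤ (cch C par x).card
  have h4 : A2 ⊆ NS := fun x hx => by
    obtain ⟨h5, h6, h7⟩ := mem_filter.1 hx
    exact mem_filter.2 ⟨h5, fun h => by have := h.2.2; omega⟩
  have h5 : A2.card * 2 ≤ ∑ x ∈ NS, (cch C par x).card :=
    le_trans (card_nsmul_le_sum A2 (fun x => (cch C par x).card) 2
      fun x hx => (mem_filter.1 hx).2.2) (sum_le_sum_of_subset h4)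
  have h6 : NS ⊆ (C.filter fun x => x ∉ J ∧ (cch C par x).card = 0) ∪ A2 ∪ J := fun x hx => by
    obtain ⟨h6, h7⟩ := mem_filter.1 hx
    simp only [mem_union, mem_filter, A2]
    by_cases h8 : x ∈ J
    · exact Or.inr h8
    · have : (cch C par x).card ≠ 1 := fun h => h7 ⟨h6, h8, h⟩
      by_cases h9 : (cch C par x).card = 0
      · exact Or.inl (Or.inl ⟨h6, h8, h9⟩)
      · exact Or.inl (Or.inr ⟨h6, h8, by omega⟩)
  have h7 := (card_le_card h6).trans ((card_union_le _ _).trans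
    (Nat.add_le_add_right (card_union_le _ _) _))
  omega

theorem descent {C : Finset Ω} {x : Ω} (hx : x ∈ C) (n : ℕ) :
    (∃ y ∈ C, par^[n] y = x ∧ ∀ i, 1 ≤ i → i ≤ n → Simp C J par (par^[i] y)) ∨
      ∃ z ∈ C, ¬ Simp C J par z ∧ ∃ m < n, par^[m] z = x := by
  induction n with
  | zero => exact Or.inl ⟨x, hx, rfl, fun i h1 h2 => by omega⟩
  | succ n ih =>
    rcases ih with ⟨y, hy, h1, h2⟩ | ⟨z, hz, h1, m, hm, h2⟩
    · by_cases h : Simp C J par y
      · obtain ⟨c, hc⟩ := card_eq_one.1 h.2.2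
        obtain ⟨h3, -, h4⟩ := mem_cch.1 (hc ▸ mem_singleton_self c : c ∈ cch C par y)
        refine Or.inl ⟨c, h3, by rw [Function.iterate_succ_apply, h4, h1], fun i h5 h6 => ?_⟩
        obtain ⟨i, rfl⟩ := Nat.exists_eq_add_of_le' h5
        rw [Function.iterate_succ_apply, h4]
        rcases Nat.eq_zero_or_pos i with rfl | h7
        · exact h
        · exact h2 i h7 (by omega)
      · exact Or.inr ⟨y, hy, h, n, by omega, h1⟩
    · exact Or.inr ⟨z, hz, h1, m, by omega, h2⟩

theorem Fo.simp_ht (hr : ∀ a ∈ N, ht a = 0 → a ∈ J) {x : Ω}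
    (h : Simp (core N par ht J L) J par x) : 1 ≤ ht x := by
  by_contra h1
  exact h.2.1 (hr _ (core_sub h.1) (by omega))

theorem Fo.uniq1 (F : Fo N par ht) (hr : ∀ a ∈ N, ht a = 0 → a ∈ J) {c c' : Ω}
    (hc : c ∈ core N par ht J L) (hc' : c' ∈ core N par ht J L)
    (h : Simp (core N par ht J L) J par (par c)) (he : par c = par c') : c = c' := by
  have h1 := Fo.simp_ht hr h
  have h2 : ∀ d ∈ core N par ht J L, par d = par c → d ∈ cch (core N par ht J L) par (par c) :=
    fun d hd h3 => mem_cch.2 ⟨hd, fun h4 => by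
      have h5 := F.ht_par d (core_sub hd)
      rw [h4] at h5 h3
      rw [← h3] at h1
      omega, h3⟩
  exact card_le_one.1 h.2.2.le _ (h2 c hc rfl) _ (h2 c' hc' he.symm)

theorem Fo.uniq (F : Fo N par ht) (hr : ∀ a ∈ N, ht a = 0 → a ∈ J) {c c' : Ω}
    (hc : c ∈ core N par ht J L) (hc' : c' ∈ core N par ht J L) (k : ℕ)
    (h : ∀ i, 1 ≤ i → i ≤ k → Simp (core N par ht J L) J par (par^[i] c))
    (he : par^[k] c = par^[k] c') : c = c' := by
  induction k with
  | zero => exact he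
  | succ k ih =>
    refine ih (fun i h1 h2 => h i h1 (by omega)) ?_
    have h1 := h (k + 1) (by omega) le_rfl
    rw [Function.iterate_succ_apply'] at h1 he he
    exact F.uniq1 hr (F.core_it hc k) (F.core_it hc' k) h1 he

/-- All ancestors up to distance `k` are simple. -/
def SimpUp (C J : Finset Ω) (par : Ω → Ω) (k : ℕ) (x : Ω) : Prop :=
  ∀ i, 1 ≤ i → i ≤ k → Simp C J par (par^[i] x)

/-- Centre of a long simple path. -/
def Far (C J : Finset Ω) (par : Ω → Ω) (L : ℕ) (x : Ω) : Prop :=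
  ∃ y ∈ C, par^[L + 1] y = x ∧ ∀ k, 1 ≤ k → k ≤ 2 * L + 1 → Simp C J par (par^[k] y)

open Classical in
theorem Fo.nonfar (F : Fo N par ht) (hr : ∀ a ∈ N, ht a = 0 → a ∈ J) (hL : 1 ≤ L) :
    ((core N par ht J L).filter fun x => ¬ Far (core N par ht J L) J par L x).card ≤
      6 * (N \ core N par ht J L).card + 6 * L * J.card := by
  have hleaf := F.leaves (J := J) (L := L)
  set C := core N par ht J L with hC
  obtain ⟨h1, h2⟩ := nonsimp_count (par := par) (J := J) (C := C) fun x hx => F.core_par hx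
  set NS := C.filter fun x => ¬ Simp C J par x
  set T := NS.biUnion (cch C par)
  have h3 : (C.filter fun x => ¬ Far C J par L x) ⊆
      (NS ×ˢ range (L + 1)).image (fun t => par^[t.2] t.1) ∪
      (T ×ˢ range L).biUnion fun t => C.filter fun x => par^[t.2] x = t.1 ∧
        SimpUp C J par t.2 x := by
    intro x hx
    obtain ⟨hx1, hx2⟩ := mem_filter.1 hx
    rcases descent (par := par) (J := J) hx1 (L + 1) with ⟨y, hy, h4, h5⟩ | ⟨z, hz, h4, m, hm, h5⟩
    · refine mem_union_right _ ?_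
      have h6 : ∃ i, i ≤ L ∧ ¬ Simp C J par (par^[i] x) := by
        by_contra h6
        push Not at h6
        refine hx2 ⟨y, hy, h4, fun k h7 h8 => ?_⟩
        by_cases h9 : k ≤ L + 1
        · exact h5 k h7 h9
        · have := h6 (k - (L + 1)) (by omega)
          rwa [← h4, ← Function.iterate_add_apply, Nat.sub_add_cancel (by omega)] at this
      have h7 := Nat.find_spec h6
      have h8 : ∀ i < Nat.find h6, Simp C J par (par^[i] x) := fun i hi => by
        have := Nat.find_min h6 hi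
        by_contra h
        exact this ⟨by omega, h⟩
      have h9 : Nat.find h6 ≠ 0 := fun h => by
        rw [h] at h7
        exact h7.2 (h4 ▸ h5 (L + 1) (by omega) le_rfl)
      obtain ⟨k, hk⟩ := Nat.exists_eq_succ_of_ne_zero h9
      rw [hk] at h7 h8
      refine mem_biUnion.2 ⟨(par^[k] x, k), mem_product.2 ⟨mem_biUnion.2 ⟨par^[k + 1] x,
        mem_filter.2 ⟨F.core_it hx1 _, h7.2⟩, mem_cch.2 ⟨F.core_it hx1 _, fun h => ?_,
          (Function.iterate_succ_apply' _ _ _).symm⟩⟩, mem_range.2 (by simp only; omega)⟩,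
        mem_filter.2 ⟨hx1, rfl, fun i _ h => h8 i (by simp only at h; omega)⟩⟩
      have h10 := Fo.simp_ht hr (h8 k (by omega))
      have h11 := F.ht_par _ (F.it_mem (core_sub hx1) k)
      simp only at h
      rw [h] at h11
      omega
    · exact mem_union_left _ (mem_image.2 ⟨(z, m),
        mem_product.2 ⟨mem_filter.2 ⟨hz, h4⟩, mem_range.2 hm⟩, h5⟩)
  have h4 : ((T ×ˢ range L).biUnion fun t => C.filter fun x => par^[t.2] x = t.1 ∧
        SimpUp C J par t.2 x).card ≤ T.card * L := by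
    refine card_biUnion_le.trans ((sum_le_card_nsmul _ _ 1 fun t _ => ?_).trans ?_)
    · refine card_le_one.2 fun a ha c hc => ?_
      obtain ⟨h5, h6, h7⟩ := mem_filter.1 ha
      obtain ⟨h8, h9, -⟩ := mem_filter.1 hc
      exact F.uniq hr h5 h8 _ h7 (h6.trans h9.symm)
    · simp
  have h5 : ((NS ×ˢ range (L + 1)).image fun t => par^[t.2] t.1).card ≤ NS.card * (L + 1) :=
    card_image_le.trans (by simp)
  have h6 := (card_le_card h3).trans ((card_union_le _ _).trans (Nat.add_le_add h5 h4))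
  have h7 : T.card * L ≤ NS.card * L := Nat.mul_le_mul_right _ h1
  have h8 : NS.card ≤ NS.card * L := Nat.le_mul_of_pos_right _ hL
  have h9 := Nat.mul_le_mul_right L h2
  nlinarith

/-- The forest lemma. -/
theorem Fo.forest (F : Fo N par ht) (hJ : J ⊆ N) (hr : ∀ a ∈ N, ht a = 0 → a ∈ J) (hL : 1 ≤ L)
    (b : ℕ) {ι : Type} (I : Finset ι) (p : ι → Ω) (hp : ∀ i ∈ I, p i ∈ N)
    (hpriv : ∀ i ∈ I, ∀ i' ∈ I, ∀ j < b, ∀ j' < b, par^[j] (p i) = par^[j'] (p i') → i = i') :
    ∃ (K X : Finset Ω) (lo : Ω → Ω), K ⊆ N ∧ J ⊆ K ∧ (∀ x ∈ N, ∃ k ≤ 3 * L + 2, par^[k] x ∈ K) ∧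
      (∀ x ∈ X, lo x ∈ K ∧ par^[L + 1] (lo x) = x ∧ par^[L + 1] x ∈ K ∧
        ∃ i ∈ I, ∃ j < b, par^[j] (p i) = x) ∧
      (∀ x ∈ K, EqvGen (fun a c => (a ∈ K ∧ c ∈ K ∧ par a = c) ∨
        ∃ z ∈ X, a = lo z ∧ c = par^[L + 1] z) x (par^[ht x] x)) ∧
      7 * K.card + 7 * ((2 * L + 1) * X.card) + b * I.card ≤
        7 * N.card + (b + 6 * L) * J.card + (2 * L + 3) * X.card := by
  classical
  have hnf := F.nonfar hr hL
  set C := core N par ht J L with hC
  set I1 := I.filter fun i => b ≤ ht (p i)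
  have h1 : I.card ≤ I1.card + J.card := by
    rw [← card_filter_add_card_filter_not (s := I) fun i => b ≤ ht (p i)]
    refine Nat.add_le_add_left (card_le_card_of_injOn (fun i => par^[ht (p i)] (p i))
      (fun i hi => ?_) fun i hi i' hi' h => ?_) _
    · have := hp i (mem_filter.1 (mem_coe.1 hi)).1
      exact hr _ (F.it_mem this _) (by rw [F.it_ht this]; omega)
    · obtain ⟨h2, h3⟩ := mem_filter.1 (mem_coe.1 hi)
      obtain ⟨h4, h5⟩ := mem_filter.1 (mem_coe.1 hi')
      exact hpriv i h2 i' h4 _ (by omega) _ (by omega) h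
  set Q := (I1 ×ˢ range b).image fun t => par^[t.2] (p t.1)
  have h2 : Q.card = I1.card * b := by
    rw [card_image_of_injOn, card_product, card_range]
    rintro ⟨i, j⟩ h2 ⟨i', j'⟩ h3 h4
    obtain ⟨h5, h6⟩ := mem_product.1 (mem_coe.1 h2)
    obtain ⟨h7, h8⟩ := mem_product.1 (mem_coe.1 h3)
    simp only [mem_range] at h4 h5 h6 h7 h8
    obtain rfl := hpriv i (mem_filter.1 h5).1 i' (mem_filter.1 h7).1 _ h6 _ h8 h4
    have h9 := congrArg ht h4
    have h10 := (mem_filter.1 h5).2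
    rw [F.it_ht (hp _ (mem_filter.1 h5).1), F.it_ht (hp _ (mem_filter.1 h5).1)] at h9
    congr 1
    omega
  set Qf := Q.filter (Far C J par L)
  have h3 : Q.card ≤ (N \ C).card + (C.filter fun x => ¬ Far C J par L x).card + Qf.card := by
    refine le_trans (card_le_card fun x hx => ?_) ((card_union_le _ _).trans
      (Nat.add_le_add_right (card_union_le _ _) _))
    by_cases h3 : Far C J par L x
    · exact mem_union_right _ (mem_filter.2 ⟨hx, h3⟩)
    · refine mem_union_left _ ?_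
      by_cases h4 : x ∈ C
      · exact mem_union_right _ (mem_filter.2 ⟨h4, h3⟩)
      · obtain ⟨t, ht, rfl⟩ := mem_image.1 hx
        exact mem_union_left _ (mem_sdiff.2
          ⟨F.it_mem (hp _ (mem_filter.1 (mem_product.1 ht).1).1) _, h4⟩)
  obtain ⟨τ, -, hτ⟩ := exists_max_image (range (2 * L + 3))
    (fun τ => (Qf.filter fun x => ht x % (2 * L + 3) = τ).card) ⟨0, by simp⟩
  set X := Qf.filter fun x => ht x % (2 * L + 3) = τ
  have h4 : Qf.card ≤ (2 * L + 3) * X.card := by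
    rw [card_eq_sum_card_fiberwise (f := fun x => ht x % (2 * L + 3)) (t := range (2 * L + 3))
      fun x _ => mem_coe.2 (mem_range.2 (Nat.mod_lt _ (by omega)))]
    exact (sum_le_card_nsmul _ _ _ hτ).trans (by simp)
  have h5 : ∀ x ∈ X, Far C J par L x := fun x hx => (mem_filter.1 (mem_filter.1 hx).1).2
  choose! lo hlo1 hlo2 hlo3 using h5
  have hwin : ∀ x ∈ X, ∀ x' ∈ X, ∀ k ≤ 2 * L + 2, ∀ k' ≤ 2 * L + 2,
      par^[k] (lo x) = par^[k'] (lo x') → k = k' := by
    intro x hx x' hx' k hk k' hk' h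
    have key : ∀ x ∈ X, 2 * L + 2 ≤ ht (lo x) ∧ ht (lo x) = ht x + (L + 1) := fun x hx => by
      have h6 := Fo.simp_ht hr (hlo3 x hx (2 * L + 1) (by omega) le_rfl)
      have h7 := congrArg ht (hlo2 x hx)
      rw [F.it_ht (core_sub (hlo1 x hx))] at h6 h7
      omega
    have h6 := congrArg ht h
    rw [F.it_ht (core_sub (hlo1 x hx)), F.it_ht (core_sub (hlo1 x' hx'))] at h6
    have h7 := key x hx
    have h8 := key x' hx'
    have h9 : ht x ≡ ht x' [MOD (2 * L + 3)] :=
      (mem_filter.1 hx).2.trans (mem_filter.1 hx').2.symm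
    have h10 : ht x + k' ≡ ht x' + k [MOD (2 * L + 3)] := by
      rw [show ht x + k' = ht x' + k by omega]
    exact (Nat.ModEq.eq_of_lt_of_lt (h9.add_left_cancel h10) (by omega) (by omega)).symm
  set Del := (X ×ˢ range (2 * L + 1)).image fun t => par^[t.2 + 1] (lo t.1)
  have hDel : ∀ z, z ∈ Del ↔ ∃ x ∈ X, ∃ k < 2 * L + 1, par^[k + 1] (lo x) = z := fun z => by
    simp only [Del, mem_image, mem_product, mem_range, Prod.exists]
    exact ⟨fun ⟨x, k, ⟨h1, h2⟩, h3⟩ => ⟨x, h1, k, h2, h3⟩,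
      fun ⟨x, h1, k, h2, h3⟩ => ⟨x, k, ⟨h1, h2⟩, h3⟩⟩
  have h6 : Del.card = X.card * (2 * L + 1) := by
    rw [card_image_of_injOn, card_product, card_range]
    rintro ⟨x, k⟩ h2 ⟨x', k'⟩ h3 h4
    obtain ⟨h5, h6⟩ := mem_product.1 (mem_coe.1 h2)
    obtain ⟨h7, h8⟩ := mem_product.1 (mem_coe.1 h3)
    simp only [mem_range] at h4 h5 h6 h7 h8
    have h9 := hwin x h5 x' h7 _ (by omega) _ (by omega) h4
    obtain rfl : k = k' := by omega
    have h10 := F.uniq hr (hlo1 x h5) (hlo1 x' h7) (k + 1)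
      (fun i h10 h11 => hlo3 x h5 i h10 (by omega)) h4
    rw [← hlo2 x h5, ← hlo2 x' h7, h10]
  have h7 : Del ⊆ C := fun z hz => by
    obtain ⟨x, hx, k, -, rfl⟩ := (hDel z).1 hz
    exact F.core_it (hlo1 x hx) _
  have hlo : ∀ x ∈ X, lo x ∈ C \ Del := fun x hx => mem_sdiff.2 ⟨hlo1 x hx, fun h => by
    obtain ⟨x', hx', k, hk, h8⟩ := (hDel _).1 h
    have := hwin x' hx' x hx _ (by omega) 0 (by omega) h8
    omega⟩
  have hhi' : ∀ x ∈ X, par^[L + 1] x = par^[2 * L + 2] (lo x) := fun x hx => by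
    conv_lhs => rw [← hlo2 x hx, ← Function.iterate_add_apply]
    congr 1
    omega
  have hhi : ∀ x ∈ X, par^[L + 1] x ∈ C \ Del := fun x hx => by
    rw [hhi' x hx]
    refine mem_sdiff.2 ⟨F.core_it (hlo1 x hx) _, fun h => ?_⟩
    obtain ⟨x', hx', k, hk, h8⟩ := (hDel _).1 h
    have := hwin x' hx' x hx _ (by omega) _ le_rfl h8
    omega
  refine ⟨C \ Del, X, lo, sdiff_subset.trans core_sub, fun x hx => ?_, fun x hx => ?_,
    fun x hx => ⟨hlo x hx, hlo2 x hx, hhi x hx, ?_⟩, fun x hx => ?_, ?_⟩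
  · refine mem_sdiff.2 ⟨sub_core hJ hx, fun h => ?_⟩
    obtain ⟨x', hx', k, hk, rfl⟩ := (hDel _).1 h
    exact (hlo3 x' hx' (k + 1) (by omega) (by omega)).2.1 hx
  · by_cases h : par^[L] x ∈ Del
    · obtain ⟨x', hx', k, hk, h8⟩ := (hDel _).1 h
      refine ⟨2 * L + 1 - k + L, by omega, ?_⟩
      rw [Function.iterate_add_apply, ← h8, ← Function.iterate_add_apply,
        show 2 * L + 1 - k + (k + 1) = 2 * L + 2 by omega, ← hhi' x' hx']
      exact hhi x' hx'
    · exact ⟨L, by omega, mem_sdiff.2 ⟨F.cover hJ hr hx, h⟩⟩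
  · obtain ⟨t, ht, h⟩ := mem_image.1 (mem_filter.1 (mem_filter.1 hx).1).1
    exact ⟨t.1, (mem_filter.1 (mem_product.1 ht).1).1, t.2, mem_range.1 (mem_product.1 ht).2, h⟩
  · induction hn : ht x using Nat.strong_induction_on generalizing x with
    | _ n ih =>
    subst hn
    have hxC := (mem_sdiff.1 hx).1
    have hxN : x ∈ N := core_sub hxC
    have key : ∀ m, 1 ≤ m → 1 ≤ ht x → par^[m] x ∈ C \ Del → EqvGen (fun a c =>
        (a ∈ C \ Del ∧ c ∈ C \ Del ∧ par a = c) ∨ ∃ z ∈ X, a = lo z ∧ c = par^[L + 1] z)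
        (par^[m] x) (par^[ht x] x) := by
      intro m h1 h2 h3
      have h4 := ih _ (by rw [F.it_ht hxN]; omega) _ h3 rfl
      rwa [← Function.iterate_add_apply, F.it_root hxN (k := ht (par^[m] x) + m)
        (by rw [F.it_ht hxN]; omega)] at h4
    rcases Nat.eq_zero_or_pos (ht x) with h0 | h0
    · rw [h0]; exact .refl _
    by_cases h : par x ∈ Del
    · obtain ⟨x', hx', k, hk, h8⟩ := (hDel _).1 h
      have h9 := hlo3 x' hx' (k + 1) (by omega) (by omega)
      rw [Function.iterate_succ_apply'] at h8 h9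
      have h10 := F.uniq1 hr (F.core_it (hlo1 x' hx') k) hxC h9 h8
      rcases k with _ | k
      · have h11 : lo x' = x := h10
        have h12 := hhi x' hx'
        rw [hhi' x' hx', h11] at h12
        exact eqv_trans (.rel _ _ (Or.inr ⟨x', hx', h11.symm, by rw [hhi' x' hx', h11]⟩))
          (key (2 * L + 2) (by omega) h0 h12)
      · exact absurd ((hDel _).2 ⟨x', hx', k, by omega, h10⟩) (mem_sdiff.1 hx).2
    · have h8 : par x ∈ C \ Del := mem_sdiff.2 ⟨F.core_par hxC, h⟩
      exact eqv_trans (.rel _ _ (Or.inl ⟨hx, h8, rfl⟩)) (key 1 le_rfl h0 h8)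
  · have h8 := card_sdiff_add_card_eq_card h7
    have h9 := card_sdiff_add_card_eq_card (core_sub : C ⊆ N)
    have h10 := Nat.mul_le_mul_left b h1
    nlinarith

end Vale.Agent.P061
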