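import Mathlib

/-!
Stable multi-affine functions: closure under the averaging operator, the Rayleigh inequality,
the greedy selection step and the barrier step of the interlacing method.
-/

namespace Vale.Agent.P061.MSS

open Finset

variable {κ : Type} [Fintype κ] [DecidableEq κ]

/-- Affine in every coordinate. -/
def Aff {R : Type} [CommRing R] (F : (κ → R) → R) : Prop :=
  ∀ w j x, F (w + Pi.single j x) = F w + x * (F (w + Pi.single j 1) - F w)

/-- Real points of a stable multi-affine function that is positive far out. -/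
structure Good (f : (κ → ℝ) → ℝ) : Prop where
  ext : ∃ F : (κ → ℂ) → ℂ, Aff F ∧ Continuous F ∧ (∀ w, (∀ i, 0 < (w i).im) → F w ≠ 0) ∧
    ∀ w : κ → ℝ, F (fun i => (w i : ℂ)) = f w
  pos : ∃ M : ℝ, ∀ w, (∀ i, M ≤ w i) → 0 < f w

omit [Fintype κ] in
theorem coe_add_single (w : κ → ℝ) (j : κ) (x : ℝ) :
    (fun i => (((w + Pi.single j x : κ → ℝ) i : ℝ) : ℂ)) =
      (fun i => (w i : ℂ)) + Pi.single j (x : ℂ) := by
  funext i
  by_cases h : i = j
  · subst h; simp
  · simp [Pi.single_eq_of_ne h]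

omit [Fintype κ] in
theorem Good.aff {f : (κ → ℝ) → ℝ} (h : Good f) : Aff f := by
  obtain ⟨F, hA, -, -, hr⟩ := h.ext
  intro w j x
  have h1 := hA (fun i => (w i : ℂ)) j x
  rw [← coe_add_single, hr, hr, ← Complex.ofReal_one, ← coe_add_single, hr] at h1
  exact_mod_cast h1

omit [Fintype κ] in
theorem im_lt {F : (κ → ℂ) → ℂ} (hA : Aff F) (hs : ∀ w, (∀ i, 0 < (w i).im) → F w ≠ 0)
    {w : κ → ℂ} (hw : ∀ i, 0 < (w i).im) (t : κ) (hb : F (w + Pi.single t 1) - F w ≠ 0) :
    ((F (w + Pi.single t 1) - F w) * (starRingEnd ℂ) (F w)).im < 0 := by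
  set b := F (w + Pi.single t 1) - F w with hbd
  by_contra h
  push Not at h
  refine hs (w + Pi.single t (-F w / b)) (fun i => ?_) ?_
  · by_cases hi : i = t
    · subst hi
      have h1 : 0 ≤ (-F w / b).im := by
        have h2 : 0 < Complex.normSq b := Complex.normSq_pos.2 hb
        rw [Complex.div_im, ← sub_div]
        apply div_nonneg _ h2.le
        simp only [Complex.mul_im, Complex.conj_re, Complex.conj_im] at h
        simp only [Complex.neg_im, Complex.neg_re]
        linarith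
      simpa using add_pos_of_pos_of_nonneg (hw i) h1
    · simpa [Pi.single_eq_of_ne hi] using hw i
  · rw [hA, ← hbd]
    field_simp
    ring

omit [Fintype κ] in
theorem im_le {F : (κ → ℂ) → ℂ} (hA : Aff F) (hs : ∀ w, (∀ i, 0 < (w i).im) → F w ≠ 0)
    {w : κ → ℂ} (hw : ∀ i, 0 < (w i).im) (t : κ) :
    ((F (w + Pi.single t 1) - F w) * (starRingEnd ℂ) (F w)).im ≤ 0 := by
  by_cases hb : F (w + Pi.single t 1) - F w = 0
  · simp [hb]
  · exact (im_lt hA hs hw t hb).le

/-- The averaging operator of a pair of coordinates. -/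
def T {R : Type} [CommRing R] (s t : κ) (F : (κ → R) → R) (w : κ → R) : R :=
  F (w + Pi.single s (-2)) + F (w + Pi.single t (-2))

omit [Fintype κ] in
theorem Good.T {f : (κ → ℝ) → ℝ} (h : Good f) (s t : κ) : Good (T s t f) := by
  obtain ⟨F, hA, hc, hs, hr⟩ := h.ext
  obtain ⟨M, hM⟩ := h.pos
  refine ⟨⟨MSS.T s t F, fun w j x => ?_, ?_, fun w hw h0 => ?_, fun w => ?_⟩,
    M + 2, fun w hw => ?_⟩
  · simp only [MSS.T]
    rw [add_right_comm w (Pi.single j x), add_right_comm w (Pi.single j x), hA _ j x, hA _ j x,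
      add_right_comm w (Pi.single j 1), add_right_comm w (Pi.single j 1)]
    ring
  · unfold MSS.T
    fun_prop
  · simp only [MSS.T] at h0
    rw [hA w s, hA w t] at h0
    have h1 := im_le hA hs hw s
    have h2 := im_le hA hs hw t
    have h3 : ((F (w + Pi.single s 1) - F w) * (starRingEnd ℂ) (F w)).im +
        ((F (w + Pi.single t 1) - F w) * (starRingEnd ℂ) (F w)).im = 0 := by
      rw [← Complex.add_im, ← add_mul]
      have : F (w + Pi.single s 1) - F w + (F (w + Pi.single t 1) - F w) = F w := by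
        linear_combination (-1 / 2 : ℂ) * h0
      rw [this, Complex.mul_conj, Complex.ofReal_im]
    have h4 : F (w + Pi.single s 1) - F w = 0 := by
      by_contra h5
      have := im_lt hA hs hw s h5
      linarith
    have h5 : F (w + Pi.single t 1) - F w = 0 := by
      by_contra h5
      have := im_lt hA hs hw t h5
      linarith
    rw [h4, h5] at h0
    exact hs w hw (by linear_combination (1 / 2 : ℂ) * h0)
  · simp only [MSS.T]
    have h2 : (-2 : ℂ) = ((-2 : ℝ) : ℂ) := by norm_num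
    rw [h2, ← coe_add_single, ← coe_add_single, hr, hr, Complex.ofReal_add]
  · have h1 : ∀ j i, M ≤ (w + Pi.single j (-2) : κ → ℝ) i := fun j i => by
      have := hw i
      by_cases hi : i = j
      · subst hi; simp; linarith
      · simp [Pi.single_eq_of_ne hi]; linarith
    exact add_pos (hM _ (h1 s)) (hM _ (h1 t))

omit [DecidableEq κ] in
theorem Good.shift [DecidableEq κ] {f : (κ → ℝ) → ℝ} (h : Good f) (a : κ → ℝ) :
    Good (fun w => f (w + a)) := by
  obtain ⟨F, hA, hc, hs, hr⟩ := h.ext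
  obtain ⟨M, hM⟩ := h.pos
  refine ⟨⟨fun w => F (w + fun i => (a i : ℂ)), fun w j x => ?_, by fun_prop,
    fun w hw => hs _ fun i => by simpa using hw i, fun w => ?_⟩,
    M + ∑ i, |a i|, fun w hw => hM _ fun i => ?_⟩
  · simp only
    rw [add_right_comm w (Pi.single j x), hA _ j x, add_right_comm w (Pi.single j 1)]
  · rw [← hr]
    refine congrArg F ?_
    funext i
    simp
  · have h1 := hw i
    have h2 : |a i| ≤ ∑ i, |a i| := single_le_sum (f := fun i => |a i|)
      (fun _ _ => abs_nonneg _) (mem_univ i)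
    have h3 := neg_abs_le (a i)
    simp only [Pi.add_apply]
    linarith

omit [Fintype κ] in
/-- The Rayleigh inequality at real points. -/
theorem Good.ray {f : (κ → ℝ) → ℝ} (h : Good f) (w : κ → ℝ) (s t : κ) :
    f w * f (w + Pi.single s 1 + Pi.single t 1) ≤
      f (w + Pi.single s 1) * f (w + Pi.single t 1) := by
  obtain ⟨F, hA, hc, hs, hr⟩ := h.ext
  let c : ℝ → κ → ℂ := fun ε =>
    ((fun i => (w i : ℂ)) + Pi.single s Complex.I) + fun _ => (ε : ℂ) * Complex.I
  let g : ℝ → ℝ := fun ε =>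
    ((F (c ε + Pi.single t 1) - F (c ε)) * (starRingEnd ℂ) (F (c ε))).im
  have hcc : Continuous c := by
    unfold c
    fun_prop
  have hg : Continuous g := by
    unfold g
    have := Complex.continuous_conj
    fun_prop
  have h1 : ∀ ε, 0 < ε → g ε ≤ 0 := fun ε hε => by
    refine im_le hA hs (fun i => ?_) t
    by_cases hi : i = s
    · subst hi; simp [c]; linarith
    · simpa [c, Pi.single_eq_of_ne hi] using hε
  have h2 : g 0 ≤ 0 := by
    have h3 : closure (Set.Ioi (0 : ℝ)) ⊆ {ε | g ε ≤ 0} :=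
      closure_minimal h1 (isClosed_le hg continuous_const)
    exact h3 (by simp)
  have h3 : c 0 = (fun i => (w i : ℂ)) + Pi.single s Complex.I := by
    funext i
    simp [c]
  simp only [g, h3] at h2
  rw [add_right_comm, hA _ s, hA _ s Complex.I, add_right_comm _ (Pi.single t 1),
    ← Complex.ofReal_one, ← coe_add_single, ← coe_add_single, ← coe_add_single, hr, hr, hr,
    hr] at h2
  simp at h2
  nlinarith

omit [Fintype κ] in
theorem Aff.two {f : (κ → ℝ) → ℝ} (h : Aff f) (w : κ → ℝ) (s t : κ) (a b : ℝ) :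
    f (w + Pi.single s a + Pi.single t b) = f w + a * (f (w + Pi.single s 1) - f w) +
      b * (f (w + Pi.single t 1) - f w) + a * b * (f (w + Pi.single s 1 + Pi.single t 1) -
        f (w + Pi.single s 1) - f (w + Pi.single t 1) + f w) := by
  rw [h _ t b, add_right_comm w (Pi.single s a) (Pi.single t 1), h w s a,
    h (w + Pi.single t 1) s a, add_right_comm w (Pi.single t 1)]
  ring

omit [Fintype κ] in
theorem Good.ray_eq {f : (κ → ℝ) → ℝ} (h : Good f) (w : κ → ℝ) (s t : κ) (a b : ℝ) :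
    ∃ Δ, 0 ≤ Δ ∧ f (w + Pi.single s a) * f (w + Pi.single t b) -
      f w * f (w + Pi.single s a + Pi.single t b) = a * b * Δ := by
  refine ⟨_, sub_nonneg.2 (h.ray w s t), ?_⟩
  rw [h.aff.two w s t a b, h.aff w s a, h.aff w t b]
  ring

omit [Fintype κ] in
theorem Good.ray_pos {f : (κ → ℝ) → ℝ} (h : Good f) (w : κ → ℝ) (s t : κ) {a b : ℝ}
    (hab : 0 ≤ a * b) : f w * f (w + Pi.single s a + Pi.single t b) ≤
      f (w + Pi.single s a) * f (w + Pi.single t b) := by
  obtain ⟨Δ, h1, h2⟩ := h.ray_eq w s t a b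
  nlinarith [mul_nonneg hab h1]

omit [Fintype κ] in
theorem Good.ray_neg {f : (κ → ℝ) → ℝ} (h : Good f) (w : κ → ℝ) (s t : κ) {a b : ℝ}
    (hab : a * b ≤ 0) : f (w + Pi.single s a) * f (w + Pi.single t b) ≤
      f w * f (w + Pi.single s a + Pi.single t b) := by
  obtain ⟨Δ, h1, h2⟩ := h.ray_eq w s t a b
  nlinarith [mul_nonneg (neg_nonneg.2 hab) h1]

omit [Fintype κ] in
theorem le_add_single {z w : κ → ℝ} (h : z ≤ w) (j : κ) {a : ℝ} (ha : 0 ≤ a) :
    z ≤ w + Pi.single j a :=
  h.trans (le_add_of_nonneg_right (Pi.single_nonneg.2 ha))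

/-- Coordinatewise antitone functions on an orthant are antitone. -/
theorem chain {ρ : (κ → ℝ) → ℝ} {z : κ → ℝ}
    (h : ∀ w, z ≤ w → ∀ j a, 0 ≤ a → ρ (w + Pi.single j a) ≤ ρ w) {w w' : κ → ℝ} (hw : z ≤ w)
    (hw' : w ≤ w') : ρ w' ≤ ρ w := by
  have key : ∀ I : Finset κ, ρ (w + ∑ j ∈ I, Pi.single j (w' j - w j)) ≤ ρ w := by
    intro I
    induction I using Finset.induction_on with
    | empty => simp
    | insert j I hj ih =>
      rw [sum_insert hj, add_comm (Pi.single j _), ← add_assoc]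
      refine (h _ ?_ j _ (sub_nonneg.2 (hw' j))).trans ih
      exact hw.trans (le_add_of_nonneg_right (sum_nonneg fun i _ =>
        Pi.single_nonneg.2 (sub_nonneg.2 (hw' i))))
  have h1 := key univ
  rwa [univ_sum_single (fun j => w' j - w j), show w + (fun j => w' j - w j) = w' by
    funext i; simp] at h1

/-- The greedy step. -/
theorem Good.greedy {f : (κ → ℝ) → ℝ} (h : Good f) (s t : κ) {z : κ → ℝ}
    (hz : ∀ w, z ≤ w → 0 < MSS.T s t f w) :
    (∀ w, z ≤ w → 0 < f (w + Pi.single s (-2))) ∨ (∀ w, z ≤ w → 0 < f (w + Pi.single t (-2))) := by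
  have hr : ∀ (w : κ → ℝ) (j k : κ) (a : ℝ), 0 ≤ a →
      f (w + Pi.single j a) * f (w + Pi.single k (-2)) ≤
        f w * f (w + Pi.single j a + Pi.single k (-2)) :=
    fun w j k a ha => h.ray_neg w j k (by linarith)
  have h1 : ∀ w, z ≤ w → 0 < f w := by
    intro w hw
    obtain ⟨M, hM⟩ := h.pos
    have h2 := chain (ρ := fun w => f w / MSS.T s t f w) (z := z) (fun w hw j a ha => by
      rw [div_le_div_iff₀ (hz _ (le_add_single hw j ha)) (hz _ hw)]
      have := hr w j s a ha
      have := hr w j t a ha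
      simp only [MSS.T]
      nlinarith) hw (w' := fun i => max (w i) M) fun i => le_max_left _ _
    have h3 : 0 < f (fun i => max (w i) M) / MSS.T s t f (fun i => max (w i) M) :=
      div_pos (hM _ fun i => le_max_right _ _) (hz _ fun i => (hw i).trans (le_max_left _ _))
    exact (div_pos_iff_of_pos_right (hz w hw)).1 (h3.trans_le h2)
  have h2 : ∀ k, 0 < f (z + Pi.single k (-2)) → ∀ w, z ≤ w → 0 < f (w + Pi.single k (-2)) := by
    intro k hk w hw
    have h2 := chain (ρ := fun w => -(f (w + Pi.single k (-2)) / f w)) (z := z)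
      (fun w hw j a ha => by
        rw [neg_le_neg_iff, div_le_div_iff₀ (h1 _ hw) (h1 _ (le_add_single hw j ha))]
        have := hr w j k a ha
        nlinarith) le_rfl hw
    rw [neg_le_neg_iff] at h2
    exact (div_pos_iff_of_pos_right (h1 w hw)).1 ((div_pos hk (h1 z le_rfl)).trans_le h2)
  have h3 := hz z le_rfl
  simp only [MSS.T] at h3
  by_cases h4 : 0 < f (z + Pi.single s (-2))
  · exact Or.inl (h2 s h4)
  · exact Or.inr (h2 t (by linarith))

theorem slope_nonneg {a b : ℝ} (h : ∀ x, 0 ≤ x → 0 ≤ a + x * b) : 0 ≤ b := by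
  by_contra hb
  push Not at hb
  have h0 := h 0 le_rfl
  have h1 := h ((a + 1) / -b) (div_nonneg (by linarith) (by linarith))
  have h2 : (a + 1) / -b * b = -(a + 1) := by
    field_simp [hb.ne]
  linarith

omit [Fintype κ] in
theorem Aff.pos_of {f : (κ → ℝ) → ℝ} (h : Aff f) {w : κ → ℝ} {s : κ} {l a : ℝ} (h0 : 0 < f w)
    (h1 : 0 ≤ f (w + Pi.single s (-l))) (ha : 0 ≤ a) (hl : a < l) :
    0 < f (w + Pi.single s (-a)) := by
  rw [h] at h1 ⊢
  by_contra h2
  push Not at h2
  nlinarith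

omit [Fintype κ] in
/-- The barrier step. -/
theorem Good.barrier {f : (κ → ℝ) → ℝ} (h : Good f) (s t j : κ) {ξ : ℝ} (h0 : 0 < ξ)
    (h1 : ξ < 1) {w : κ → ℝ} (hw : ∀ w', w ≤ w' → 0 < f w')
    (hs : 0 ≤ f (w + Pi.single s (-(2 / ξ)))) (ht : 0 ≤ f (w + Pi.single t (-(2 / ξ))))
    (hj : 0 ≤ f (w + Pi.single j (-(2 / ξ)))) :
    0 ≤ MSS.T s t f (w + Pi.single s (1 + ξ) + Pi.single t (1 + ξ) + Pi.single j (-(2 / ξ))) := by
  have hA := h.aff
  set y : ℝ := 1 / ξ - ξ with hy
  have hξ : ξ * (1 / ξ) = 1 := by field_simp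
  have h2 : 2 / ξ = 2 * (1 / ξ) := by ring
  have hi : 1 < 1 / ξ := by rw [lt_div_iff₀ h0]; linarith
  have hy0 : 0 ≤ y := by linarith
  have F0 := hw w le_rfl
  have F1 : 0 ≤ f (w + Pi.single s 1) - f w := slope_nonneg (a := f w) fun x hx => by
    rw [← hA]; exact (hw _ (le_add_single le_rfl s hx)).le
  have F2 : 0 ≤ f (w + Pi.single t 1) - f w := slope_nonneg (a := f w) fun x hx => by
    rw [← hA]; exact (hw _ (le_add_single le_rfl t hx)).le
  have F12 : 0 ≤ f (w + Pi.single s 1 + Pi.single t 1) -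
      f (w + Pi.single s 1) - f (w + Pi.single t 1) + f w :=
    slope_nonneg (a := f (w + Pi.single t 1) - f w) fun a ha =>
      slope_nonneg (a := f w + a * (f (w + Pi.single s 1) - f w)) fun b hb => by
        have := hw _ (le_add_single (le_add_single (le_refl w) s ha) t hb)
        rw [hA.two] at this
        linarith
  have Gs : 0 < f (w + Pi.single s (-y)) := hA.pos_of F0 hs hy0 (by linarith)
  have Gt : 0 < f (w + Pi.single t (-y)) := hA.pos_of F0 ht hy0 (by linarith)
  have Gs' : f (w + Pi.single s (-y)) ≤ f w := by rw [hA]; nlinarith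
  have Gt' : f (w + Pi.single t (-y)) ≤ f w := by rw [hA]; nlinarith
  have G2 : 0 ≤ f (w + Pi.single s (-y) + Pi.single t (-y)) := by
    rw [hA] at hs ht
    rw [hA.two]
    have := mul_nonneg (mul_nonneg hy0 hy0) F12
    nlinarith
  have R0 := h.ray_pos w s t (a := -y) (b := -y) (mul_self_nonneg _)
  have hyl : 0 ≤ -y * -(2 / ξ) := by nlinarith
  have R1 := h.ray_pos w s j hyl
  have R2 := h.ray_pos (w + Pi.single s (-y)) t j hyl
  have G3 : f (w + Pi.single s (-y) + Pi.single t (-y)) ≤ f w := by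
    refine le_of_mul_le_mul_left (R0.trans ?_) F0
    exact mul_le_mul Gs' Gt' Gt.le F0.le
  have P : f (w + Pi.single s (-y) + Pi.single t (-y) + Pi.single j (-(2 / ξ))) ≤
      f (w + Pi.single j (-(2 / ξ))) := by
    refine le_of_mul_le_mul_left ?_ (mul_pos F0 Gs)
    have a1 := mul_le_mul_of_nonneg_left R2 F0.le
    have a2 := mul_le_mul_of_nonneg_left R1 G2
    have a3 := mul_le_mul_of_nonneg_right G3 (mul_nonneg Gs.le hj)
    nlinarith
  have e1 : w + Pi.single s (1 + ξ) + Pi.single t (1 + ξ) + Pi.single j (-(2 / ξ)) +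
      Pi.single s (-2) = w + Pi.single j (-(2 / ξ)) + Pi.single s (ξ - 1) +
        Pi.single t (1 + ξ) := by
    rw [show ξ - 1 = (1 + ξ) + -2 by ring, Pi.single_add (f := fun _ => ℝ) s (1 + ξ) (-2)]
    abel
  have e2 : w + Pi.single s (1 + ξ) + Pi.single t (1 + ξ) + Pi.single j (-(2 / ξ)) +
      Pi.single t (-2) = w + Pi.single j (-(2 / ξ)) + Pi.single s (1 + ξ) +
        Pi.single t (ξ - 1) := by
    rw [show ξ - 1 = (1 + ξ) + -2 by ring, Pi.single_add (f := fun _ => ℝ) t (1 + ξ) (-2)]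
    abel
  have e3 : w + Pi.single s (-y) + Pi.single t (-y) + Pi.single j (-(2 / ξ)) =
      w + Pi.single j (-(2 / ξ)) + Pi.single s (-y) + Pi.single t (-y) := by abel
  rw [e3, hA.two] at P
  simp only [MSS.T]
  rw [e1, e2, hA.two, hA.two _ s t (1 + ξ)]
  generalize w + Pi.single j (-(2 / ξ)) = u at P hj ⊢
  generalize f (u + Pi.single s 1 + Pi.single t 1) - f (u + Pi.single s 1) -
    f (u + Pi.single t 1) + f u = p12 at P ⊢
  generalize f (u + Pi.single s 1) - f u = p1 at P ⊢
  generalize f (u + Pi.single t 1) - f u = p2 at P ⊢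
  generalize f u = p0 at P hj ⊢
  have hy1 : ξ * y = 1 - ξ ^ 2 := by rw [hy, mul_sub, hξ]; ring
  have h3 : 0 < 1 - ξ ^ 2 := by nlinarith
  have h4 : (1 - ξ ^ 2) * (p0 + ξ * (p1 + p2) + (ξ ^ 2 - 1) * p12) =
      p0 - ξ ^ 2 * (p0 + -y * p1 + -y * p2 + -y * -y * p12) := by
    have : ξ ^ 2 * (p0 + -y * p1 + -y * p2 + -y * -y * p12) =
        ξ ^ 2 * p0 - ξ * (ξ * y) * (p1 + p2) + (ξ * y) ^ 2 * p12 := by ring
    rw [this, hy1]
    ring
  have h5 : 0 ≤ p0 + ξ * (p1 + p2) + (ξ ^ 2 - 1) * p12 := by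
    refine le_of_mul_le_mul_left ?_ h3
    rw [h4]
    nlinarith [mul_le_mul_of_nonneg_left P (sq_nonneg ξ)]
  nlinarith

end Vale.Agent.P061.MSS
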