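import Vale.Agent.P061.Basic
import Vale.Agent.P061.MSSA

namespace Vale.Agent.P061.MSS

open Finset Matrix

/-- Barrier and greedy selection over all pairs of coordinates. -/
theorem select {ι : Type} [Fintype ι] [DecidableEq ι] {ξ : ℝ} (h0 : 0 < ξ) (h1 : ξ < 1)
    (I : Finset ι) : ∀ (f : (ι ⊕ ι → ℝ) → ℝ) (z : ι ⊕ ι → ℝ), Good f →
    (∀ w, z ≤ w → 0 < f w) →
    (∀ j, Sum.elim id id j ∈ I → ∀ w, z ≤ w → 0 ≤ f (w + Pi.single j (-(2 / ξ)))) →
    ∃ K : Finset (ι ⊕ ι), (∀ j ∈ K, Sum.elim id id j ∈ I) ∧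
      (∀ i ∈ I, Sum.inl i ∈ K ∨ Sum.inr i ∈ K) ∧
      ∀ w, (z + fun j => if Sum.elim id id j ∈ I then 1 + ξ else 0) ≤ w →
        0 < f (w + fun j => if j ∈ K then -2 else 0) := by
  induction I using Finset.induction_on with
  | empty =>
    intro f z _ hp _
    refine ⟨∅, by simp, by simp, fun w hw => ?_⟩
    have h2 : (w + fun j : ι ⊕ ι => if j ∈ (∅ : Finset (ι ⊕ ι)) then (-2 : ℝ) else 0) = w := by
      funext j; simp
    rw [h2]
    exact hp w fun j => by simpa using hw j
  | insert i I hi ih =>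
    intro f z hf hp hb
    have hl : 2 < 2 / ξ := by rw [lt_div_iff₀ h0]; linarith
    have hz : z ≤ z + Pi.single (Sum.inl i) (1 + ξ) + Pi.single (Sum.inr i) (1 + ξ) :=
      le_add_single (le_add_single le_rfl _ (by linarith)) _ (by linarith)
    obtain ⟨K, hK1, hK2, hK3⟩ := ih (T (Sum.inl i) (Sum.inr i) f)
      (z + Pi.single (Sum.inl i) (1 + ξ) + Pi.single (Sum.inr i) (1 + ξ)) (hf.T _ _)
      (fun w hw => add_pos
        (hf.aff.pos_of (hp w (hz.trans hw)) (hb _ (by simp) w (hz.trans hw)) two_pos.le hl)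
        (hf.aff.pos_of (hp w (hz.trans hw)) (hb _ (by simp) w (hz.trans hw)) two_pos.le hl))
      (fun j hj w hw => by
        have h2 : z ≤ w - Pi.single (Sum.inr i) (1 + ξ) - Pi.single (Sum.inl i) (1 + ξ) :=
          le_sub_iff_add_le.2 (le_sub_iff_add_le.2 hw)
        have h3 := hf.barrier (Sum.inl i) (Sum.inr i) j h0 h1
          (fun w' hw' => hp w' (h2.trans hw')) (hb _ (by simp) _ h2) (hb _ (by simp) _ h2)
          (hb j (mem_insert_of_mem hj) _ h2)
        rwa [sub_add_cancel, sub_add_cancel] at h3)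
    have hc : (z + Pi.single (Sum.inl i) (1 + ξ) + Pi.single (Sum.inr i) (1 + ξ) +
        fun j => if Sum.elim id id j ∈ I then 1 + ξ else 0) =
        z + fun j => if Sum.elim id id j ∈ insert i I then 1 + ξ else 0 := by
      funext j
      rcases j with j | j <;> by_cases h : j = i
      · subst h; simp [hi]
      · by_cases h' : j ∈ I <;> simp [h, h']
      · subst h; simp [hi]
      · by_cases h' : j ∈ I <;> simp [h, h']
    rw [hc] at hK3
    have hfin : ∀ k : ι ⊕ ι, Sum.elim id id k = i → (k = Sum.inl i ∨ k = Sum.inr i) →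
        (∀ w, (z + fun j => if Sum.elim id id j ∈ insert i I then 1 + ξ else 0) ≤ w →
          0 < f (w + Pi.single k (-2) + fun j => if j ∈ K then -2 else 0)) →
        ∃ K : Finset (ι ⊕ ι), (∀ j ∈ K, Sum.elim id id j ∈ insert i I) ∧
          (∀ i' ∈ insert i I, Sum.inl i' ∈ K ∨ Sum.inr i' ∈ K) ∧
          ∀ w, (z + fun j => if Sum.elim id id j ∈ insert i I then 1 + ξ else 0) ≤ w →
            0 < f (w + fun j => if j ∈ K then -2 else 0) := by
      intro k hk hk' h
      have hkK : k ∉ K := fun h2 => hi (hk ▸ hK1 k h2)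
      refine ⟨insert k K, fun j hj => ?_, fun i' hi' => ?_, fun w hw => ?_⟩
      · rcases mem_insert.1 hj with rfl | hj
        · rw [hk]; exact mem_insert_self _ _
        · exact mem_insert_of_mem (hK1 j hj)
      · rcases mem_insert.1 hi' with rfl | hi'
        · rcases hk' with rfl | rfl <;> simp
        · exact (hK2 i' hi').imp mem_insert_of_mem mem_insert_of_mem
      · convert h w hw using 2
        funext j
        by_cases hj : j = k
        · subst hj; simp [hkK]
        · simp [hj]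
    rcases (hf.shift fun j => if j ∈ K then -2 else 0).greedy (Sum.inl i) (Sum.inr i)
      (z := z + fun j => if Sum.elim id id j ∈ insert i I then 1 + ξ else 0) (fun w hw => by
        have := hK3 w hw
        simp only [T] at this ⊢
        rwa [add_right_comm w _ (Pi.single _ _), add_right_comm w _ (Pi.single _ _)] at this)
      with h | h
    · exact hfin _ rfl (Or.inl rfl) h
    · exact hfin _ rfl (Or.inr rfl) h

variable {κ : Type} [Fintype κ] [DecidableEq κ]

/-- The determinantal multi-affine function of a matrix. -/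
def dF {R : Type} [CommRing R] (C : Matrix κ κ R) (c : R) (w : κ → R) : R :=
  (1 + diagonal (fun k => c * w k - 1) * C).det

theorem dF_aff {R : Type} [CommRing R] (C : Matrix κ κ R) (c : R) : Aff (dF C c) := by
  intro w j x
  have key : ∀ x, dF C c (w + Pi.single j x) = dF C c w +
      x * ((1 + diagonal (fun k => c * w k - 1) * C).updateRow j (c • C j)).det := by
    intro x
    rw [← det_updateRow_smul, dF, dF]
    conv_rhs => rw [← updateRow_eq_self (1 + diagonal (fun k => c * w k - 1) * C) j]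
    rw [updateRow_idem, ← det_updateRow_add]
    congr 1
    ext a b
    by_cases h : a = j
    · subst h
      simp [diagonal_mul]
      ring
    · simp [updateRow_ne h, diagonal_mul, Pi.single_eq_of_ne h]
  rw [key x, key 1]
  ring

theorem dF_stable {C : Matrix κ κ ℝ} (hC : C.IsHermitian) {c : ℝ} (hc : 0 < c) (w : κ → ℂ)
    (hw : ∀ i, 0 < (w i).im) : dF (C.map Complex.ofReal) c w ≠ 0 := by
  intro h
  obtain ⟨y, hy, hy0⟩ := exists_mulVec_eq_zero_iff.2 h
  have hH : (C.map Complex.ofReal).IsHermitian := hC.map _ fun x => by simp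
  rw [add_mulVec, one_mulVec, ← mulVec_mulVec] at hy0
  have h1 := hH.im_star_dotProduct_mulVec_self y
  set v := C.map Complex.ofReal *ᵥ y with hv
  have h2 : ∀ k, y k = -((c * w k - 1) * v k) := fun k => by
    have := congrFun hy0 k
    simp only [Pi.add_apply, mulVec_diagonal, Pi.zero_apply] at this
    linear_combination this
  have h3 : ∑ k, c * (w k).im * Complex.normSq (v k) = 0 := by
    rw [← h1]
    simp only [dotProduct, RCLike.im_to_complex, Complex.im_sum]
    refine sum_congr rfl fun k _ => ?_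
    rw [Pi.star_apply, h2 k]
    simp [Complex.normSq_apply]
    ring
  have h4 := (sum_eq_zero_iff_of_nonneg fun k _ => mul_nonneg (mul_pos hc (hw k)).le
    (Complex.normSq_nonneg _)).1 h3
  apply hy
  funext k
  have h5 := (mul_eq_zero.1 (h4 k (mem_univ k))).resolve_left (mul_pos hc (hw k)).ne'
  rw [h2 k, Complex.normSq_eq_zero.1 h5]
  simp

theorem dF_coe (C : Matrix κ κ ℝ) (c : ℝ) (w : κ → ℝ) :
    dF (C.map Complex.ofReal) c (fun i => (w i : ℂ)) = (dF C c w : ℝ) := by
  have h := RingHom.map_det Complex.ofRealHom (1 + diagonal (fun k => c * w k - 1) * C)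
  simp only [Complex.ofRealHom_eq_coe] at h
  rw [dF, dF, h]
  congr 1
  ext a b
  by_cases hab : a = b
  · subst hab; simp [diagonal_mul]
  · simp [diagonal_mul, one_apply_ne hab]

theorem form {X : Matrix κ κ ℝ} (hX : Xᵀ = X) (d y : κ → ℝ) :
    y ⬝ᵥ (1 + X * diagonal d * X) *ᵥ y = y ⬝ᵥ y + ∑ k, d k * (X *ᵥ y) k ^ 2 := by
  rw [add_mulVec, one_mulVec, dotProduct_add, ← mulVec_mulVec, ← mulVec_mulVec,
    dotProduct_mulVec y X, ← mulVec_transpose, hX]
  congr 1
  simp only [dotProduct.eq_1 (X *ᵥ y), mulVec_diagonal]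
  exact sum_congr rfl fun k _ => by ring

theorem form_herm {X : Matrix κ κ ℝ} (hX : Xᵀ = X) (d : κ → ℝ) :
    (1 + X * diagonal d * X).IsHermitian := by
  simp [IsHermitian, conjTranspose_eq_transpose_of_trivial, transpose_mul, hX, Matrix.mul_assoc]

theorem form_ge {X : Matrix κ κ ℝ} (hX : Xᵀ = X) (h1 : (1 - X * X).PosSemidef) {a : ℝ}
    (ha : a ≤ 1) {d : κ → ℝ} (hd : ∀ k, a - 1 ≤ d k) (y : κ → ℝ) :
    a * (y ⬝ᵥ y) ≤ y ⬝ᵥ y + ∑ k, d k * (X *ᵥ y) k ^ 2 := by
  have h2 := h1.dotProduct_mulVec_nonneg y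
  rw [star_trivial, sub_mulVec, one_mulVec, dotProduct_sub, ← mulVec_mulVec,
    dotProduct_mulVec y X, ← mulVec_transpose, hX] at h2
  have h3 : (a - 1) * (X *ᵥ y ⬝ᵥ X *ᵥ y) ≤ ∑ k, d k * (X *ᵥ y) k ^ 2 := by
    rw [dotProduct.eq_1 (X *ᵥ y), mul_sum]
    exact sum_le_sum fun k _ => by
      rw [← sq]; exact mul_le_mul_of_nonneg_right (hd k) (sq_nonneg _)
  nlinarith

theorem dF_eq (X : Matrix κ κ ℝ) (c : ℝ) (w : κ → ℝ) :
    dF (X * X) c w = (1 + X * diagonal (fun k => c * w k - 1) * X).det := by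
  rw [dF, ← Matrix.mul_assoc, det_one_add_mul_comm, Matrix.mul_assoc]

theorem dF_pos {X : Matrix κ κ ℝ} (hX : Xᵀ = X) (h1 : (1 - X * X).PosSemidef) {c t : ℝ}
    (hc : 0 < c) (ht : 0 < t) (hct : c * t ≤ 1) {w : κ → ℝ} (hw : ∀ k, t ≤ w k) :
    0 < dF (X * X) c w := by
  rw [dF_eq]
  refine (PosDef.of_dotProduct_mulVec_pos (form_herm hX _) fun y hy => ?_).det_pos
  rw [star_trivial, form hX]
  refine lt_of_lt_of_le ?_ (form_ge hX h1 hct (fun k => ?_) y)
  · have := dotProduct_self_star_pos_iff.2 hy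
    rw [star_trivial] at this
    positivity
  · have := mul_le_mul_of_nonneg_left (hw k) hc.le
    linarith

theorem dF_nonneg {X : Matrix κ κ ℝ} (hX : Xᵀ = X) (h1 : (1 - X * X).PosSemidef) {c t l : ℝ}
    (hc : 0 < c) (hct : c * t ≤ 1) (hl : 0 ≤ l) {w : κ → ℝ} (hw : ∀ k, t ≤ w k) (j : κ)
    (hj : l * (X * X) j j ≤ t) : 0 ≤ dF (X * X) c (w + Pi.single j (-l)) := by
  rw [dF_eq]
  refine (PosSemidef.of_dotProduct_mulVec_nonneg (form_herm hX _) fun y => ?_).det_nonneg
  rw [star_trivial, form hX]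
  have h2 := form_ge hX h1 hct (d := fun k => c * w k - 1) (fun k => by
    have := mul_le_mul_of_nonneg_left (hw k) hc.le
    linarith) y
  have h3 : ∑ k, (c * (w + Pi.single j (-l) : κ → ℝ) k - 1) * (X *ᵥ y) k ^ 2 =
      ∑ k, (c * w k - 1) * (X *ᵥ y) k ^ 2 - c * l * (X *ᵥ y) j ^ 2 := by
    rw [← add_sum_erase _ _ (mem_univ j), ← add_sum_erase _ (fun k => (c * w k - 1) * _)
      (mem_univ j), sum_congr rfl fun k hk => by
        rw [Pi.add_apply, Pi.single_eq_of_ne (ne_of_mem_erase hk), add_zero]]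
    simp
    ring
  have h4 : (X *ᵥ y) j ^ 2 ≤ (X * X) j j * (y ⬝ᵥ y) := by
    have h5 := sum_mul_sq_le_sq_mul_sq univ (X j) y
    have h6 : (X * X) j j = ∑ k, X j k ^ 2 := by
      rw [mul_apply]
      exact sum_congr rfl fun k _ => by rw [sq, ← transpose_apply X j k, hX]
    have h7 : y ⬝ᵥ y = ∑ k, y k ^ 2 := by simp only [dotProduct, sq]
    rw [h6, h7]
    exact h5
  have h5 : 0 ≤ y ⬝ᵥ y := by
    simpa using dotProduct_self_star_nonneg y
  have h6 := mul_le_mul_of_nonneg_left h4 (mul_nonneg hc.le hl)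
  have h7 := mul_le_mul_of_nonneg_right (mul_le_mul_of_nonneg_left hj hc.le) h5
  rw [h3]
  nlinarith

/-- Nonvanishing of the determinants bounds the principal submatrix. -/
theorem subLe_of_det {C : Matrix κ κ ℝ} (hC : C.IsHermitian) (K : Finset κ) {x : ℝ} (hx : 0 < x)
    (h : ∀ μ, x < μ → (1 + diagonal (fun k => if k ∈ K then -μ⁻¹ else 0) * C).det ≠ 0) :
    SubLe C K x := by
  set P : Matrix κ κ ℝ := diagonal fun k => if k ∈ K then 1 else 0 with hP
  have hCt : Cᵀ = C := by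
    simpa [IsHermitian, conjTranspose_eq_transpose_of_trivial] using hC
  have hH : (x • (1 : Matrix κ κ ℝ) - P * C * P).IsHermitian := by
    simp [IsHermitian, conjTranspose_eq_transpose_of_trivial, transpose_mul, hCt, hP,
      Matrix.mul_assoc]
  have hpsd : (x • (1 : Matrix κ κ ℝ) - P * C * P).PosSemidef := by
    rw [hH.posSemidef_iff_eigenvalues_nonneg]
    intro i
    by_contra hi
    simp only [Pi.zero_apply, not_le] at hi
    have h1 := hH.mulVec_eigenvectorBasis i
    have h2 : ⇑(hH.eigenvectorBasis i) ≠ 0 := by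
      intro h3
      exact hH.eigenvectorBasis.orthonormal.ne_zero i (by ext k; exact congrFun h3 k)
    set y : κ → ℝ := ⇑(hH.eigenvectorBasis i)
    set ν := hH.eigenvalues i
    rw [sub_mulVec, smul_mulVec, one_mulVec, ← mulVec_mulVec, ← mulVec_mulVec] at h1
    have h3 : ∀ k, (x - ν) * y k = (if k ∈ K then 1 else 0) * (C *ᵥ (P *ᵥ y)) k := fun k => by
      have := congrFun h1 k
      simp only [Pi.sub_apply, Pi.smul_apply, smul_eq_mul, hP, mulVec_diagonal] at this ⊢
      linarith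
    have h4 : P *ᵥ y = y := by
      funext k
      by_cases hk : k ∈ K
      · simp [hP, mulVec_diagonal, hk]
      · have := h3 k
        simp only [hk, if_false, zero_mul] at this
        rw [(mul_eq_zero.1 this).resolve_left (by linarith)]
        simp [hP, mulVec_diagonal, hk]
    rw [h4] at h3
    refine h (x - ν) (by linarith) (exists_mulVec_eq_zero_iff.1 ⟨y, h2, ?_⟩)
    funext k
    have h5 := h3 k
    have h6 : x - ν ≠ 0 := by linarith
    rw [add_mulVec, one_mulVec, ← mulVec_mulVec, Pi.add_apply, mulVec_diagonal, Pi.zero_apply]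
    split_ifs at h5 ⊢
    · rw [one_mul] at h5
      rw [← h5]
      field_simp
      ring
    · rw [zero_mul] at h5 ⊢
      simpa [h6] using h5
  intro z hz
  have h1 := hpsd.dotProduct_mulVec_nonneg z
  have h2 : P *ᵥ z = z := by
    funext k
    by_cases hk : k ∈ K
    · simp [hP, mulVec_diagonal, hk]
    · simp [hP, mulVec_diagonal, hk, hz k hk]
  have h3 : z ᵥ* P = z := by
    rw [← mulVec_transpose, hP, diagonal_transpose]
    exact h2
  rw [star_trivial, sub_mulVec, smul_mulVec, one_mulVec, ← mulVec_mulVec, ← mulVec_mulVec, h2,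
    dotProduct_sub, dotProduct_smul, dotProduct_mulVec z P, h3, smul_eq_mul] at h1
  linarith

theorem psd_blocks {ι : Type} [Fintype ι] {A B : Matrix ι ι ℝ} (hA : A.PosSemidef)
    (hB : B.PosSemidef) : (fromBlocks A 0 0 B).PosSemidef := by
  refine PosSemidef.of_dotProduct_mulVec_nonneg
    (IsHermitian.fromBlocks hA.isHermitian (by simp) hB.isHermitian) fun y => ?_
  rw [star_trivial, ← Sum.elim_comp_inl_inr y, fromBlocks_mulVec, sumElim_dotProduct_sumElim]
  have h1 := hA.dotProduct_mulVec_nonneg (y ∘ Sum.inl)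
  have h2 := hB.dotProduct_mulVec_nonneg (y ∘ Sum.inr)
  simp only [star_trivial] at h1 h2
  simpa using add_nonneg h1 h2

open scoped MatrixOrder in
theorem exists_root {C : Matrix κ κ ℝ} (hC : C.PosSemidef) : ∃ X : Matrix κ κ ℝ,
    Xᵀ = X ∧ X * X = C := by
  refine ⟨CFC.sqrt C, ?_, CFC.sqrt_mul_sqrt_self C hC.nonneg⟩
  have h := (CFC.sqrt_nonneg C).posSemidef.isHermitian
  simpa [IsHermitian, conjTranspose_eq_transpose_of_trivial] using h

theorem paving_sum {ι : Type} [Fintype ι] [DecidableEq ι] (ξ : ℝ) (h0 : 0 < ξ) (h1 : ξ ≤ 1 / 8)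
    (C : Matrix (ι ⊕ ι) (ι ⊕ ι) ℝ) (hC : C.PosSemidef) (hC' : (1 - C).PosSemidef)
    (dC : ∀ i, C i i ≤ ξ ^ 3) : ∃ K : Finset (ι ⊕ ι), (∀ i, Sum.inl i ∈ K ∨ Sum.inr i ∈ K) ∧
      SubLe C K ((1 + 4 * ξ) / 2) := by
  obtain ⟨X, hX, rfl⟩ := exists_root hC
  have hc : 0 < (1 + 4 * ξ)⁻¹ := by positivity
  have hct : (1 + 4 * ξ)⁻¹ * ξ ≤ 1 := by
    rw [inv_mul_le_iff₀ (by positivity)]
    linarith
  have hG : Good (dF (X * X) (1 + 4 * ξ)⁻¹) := by
    refine ⟨⟨dF ((X * X).map Complex.ofReal) ((1 + 4 * ξ)⁻¹ : ℝ), dF_aff _ _, ?_,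
      dF_stable hC.isHermitian hc, dF_coe _ _⟩, ξ, fun w hw => dF_pos hX hC' hc h0 hct hw⟩
    unfold dF
    refine Continuous.matrix_det (continuous_const.add (Continuous.matrix_mul ?_ continuous_const))
    exact Continuous.matrix_diagonal (by fun_prop)
  obtain ⟨K, -, hK2, hK3⟩ := select h0 (by linarith) univ _ (fun _ => ξ) hG
    (fun w hw => dF_pos hX hC' hc h0 hct hw)
    (fun j _ w hw => dF_nonneg hX hC' hc hct (by positivity) hw j (by
      have h2 := mul_le_mul_of_nonneg_left (dC j) (by positivity : 0 ≤ 2 / ξ)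
      have h3 : 2 / ξ * ξ ^ 3 = 2 * ξ * ξ := by field_simp
      nlinarith))
  refine ⟨K, fun i => hK2 i (mem_univ i), subLe_of_det hC.isHermitian K (by positivity)
    fun μ hμ => ?_⟩
  have hμ0 : 0 < μ := lt_trans (by positivity) hμ
  have h2 : (1 + 4 * ξ) / μ ≤ 2 := by
    rw [div_le_iff₀ hμ0]
    linarith
  have h3 := hK3 (fun k => 1 + 4 * ξ + if k ∈ K then 2 - (1 + 4 * ξ) / μ else 0) fun k => by
    simp only [Pi.add_apply, mem_univ, if_true]
    split_ifs <;> linarith
  rw [dF] at h3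
  refine fun h4 => h3.ne' (Eq.trans ?_ h4)
  congr 4
  funext k
  simp only [Pi.add_apply]
  split_ifs
  · field_simp
    ring
  · field_simp
    ring

end Vale.Agent.P061.MSS

namespace Vale.Agent.P061

open Finset Matrix

/-- Two-matrix paving (Marcus-Spielman-Srivastava, r = 2). -/
theorem paving {ι : Type} [Fintype ι] [DecidableEq ι] (ξ : ℝ) (h0 : 0 < ξ) (h1 : ξ ≤ 1 / 8)
    (A B : Matrix ι ι ℝ) (hA : A.PosSemidef) (hA' : (1 - A).PosSemidef) (hB : B.PosSemidef)
    (hB' : (1 - B).PosSemidef) (dA : ∀ i, A i i ≤ ξ ^ 3) (dB : ∀ i, B i i ≤ ξ ^ 3) :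
    ∃ S : Finset ι, SubLe A S ((1 + 4 * ξ) / 2) ∧ SubLe B Sᶜ ((1 + 4 * ξ) / 2) := by
  have h2 : 1 - fromBlocks A 0 0 B = fromBlocks (1 - A) 0 0 (1 - B) := by
    ext (i | i) (j | j) <;> simp [one_apply]
  obtain ⟨K, hK, hS⟩ := MSS.paving_sum ξ h0 h1 (fromBlocks A 0 0 B) (MSS.psd_blocks hA hB)
    (h2 ▸ MSS.psd_blocks hA' hB') (by rintro (i | i) <;> simp [dA, dB])
  refine ⟨univ.filter fun i => Sum.inl i ∈ K, fun z hz => ?_, fun z hz => ?_⟩
  · have h3 := hS (Sum.elim z 0) (by
      rintro (i | i) hi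
      · exact hz i (by simpa using hi)
      · rfl)
    simpa [fromBlocks_mulVec, sumElim_dotProduct_sumElim] using h3
  · have h3 := hS (Sum.elim 0 z) (by
      rintro (i | i) hi
      · rfl
      · exact hz i (by simpa using (hK i).resolve_right hi))
    simpa [fromBlocks_mulVec, sumElim_dotProduct_sumElim] using h3

end Vale.Agent.P061
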