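import Vale.Agent.P084.Sperner

/-!
The KKM lemma, Fan's version of it, cone duality and continuous chain weights.
-/

namespace Vale.Agent.P061.VI

open Finset Matrix

/-- The KKM lemma on the standard simplex. -/
theorem kkm {ι : Type} [Fintype ι] [Nonempty ι] (C : ι → Set (ι → ℝ)) (hC : ∀ i, IsClosed (C i))
    (h : ∀ t ∈ stdSimplex ℝ ι, ∃ i, t i ≠ 0 ∧ t ∈ C i) : ∃ t ∈ stdSimplex ℝ ι, ∀ i, t ∈ C i := by
  classical
  have : ∀ t : ι → ℝ, ∃ i, t ∈ stdSimplex ℝ ι → t i ≠ 0 ∧ t ∈ C i := fun t => by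
    by_cases ht : t ∈ stdSimplex ℝ ι
    · obtain ⟨i, hi⟩ := h t ht
      exact ⟨i, fun _ => hi⟩
    · exact ⟨Classical.arbitrary ι, fun h' => (ht h').elim⟩
  choose φ hφ using this
  have hS : ∀ S : List ι, ∀ t ∈ convexHull ℝ {x | x ∈ S.map fun i => (Pi.single i 1 : ι → ℝ)},
      t ∈ stdSimplex ℝ ι ∧ ∀ i ∉ S, t i = 0 := fun S => by
    refine convexHull_min (fun x hx => ?_) ((convex_stdSimplex ℝ ι).inter ?_)
    · obtain ⟨j, hj, rfl⟩ := List.mem_map.1 hx
      exact ⟨single_mem_stdSimplex ℝ j,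
        fun i hi => Pi.single_eq_of_ne (by rintro rfl; exact hi hj) _⟩
    · intro x hx y hy α β _ _ _ i hi
      simp [hx i hi, hy i hi]
  have key : ∀ η : ℝ, 0 < η → ∃ t₀ ∈ stdSimplex ℝ ι, ∀ i, ∃ t ∈ C i, dist t t₀ ≤ η := by
    intro η hη
    obtain ⟨t₀, h0, h1⟩ := P084.sperner (fun i => (Pi.single i 1 : ι → ℝ)) φ Finset.univ.toList
      (Finset.nodup_toList _) (List.ne_nil_of_mem (a := Classical.arbitrary ι) (by simp))
      (fun S _ t ht => by_contra fun hi => (hφ t (hS S t ht).1).1 ((hS S t ht).2 _ hi)) hη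
    refine ⟨t₀, (hS _ _ h0).1, fun i => ?_⟩
    obtain ⟨t, h3, h4, h5⟩ := h1 i (by simp)
    exact ⟨t, h4 ▸ (hφ t (hS _ _ h3).1).2, h5⟩
  have hg : Continuous fun t : ι → ℝ => ∑ i, Metric.infDist t (C i) :=
    continuous_finsetSum _ fun i _ => Metric.continuous_infDist_pt _
  obtain ⟨t₁, ht₁, -⟩ := key 1 one_pos
  obtain ⟨t, ht, hmin⟩ := (isCompact_stdSimplex ℝ ι).exists_isMinOn ⟨t₁, ht₁⟩ hg.continuousOn
  refine ⟨t, ht, fun i => ?_⟩
  have hne : (C i).Nonempty := by
    obtain ⟨_, -, h2⟩ := key 1 one_pos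
    obtain ⟨s, hs, -⟩ := h2 i
    exact ⟨s, hs⟩
  rw [(hC i).mem_iff_infDist_zero hne]
  have h0 : ∑ i, Metric.infDist t (C i) ≤ 0 := by
    refine le_of_forall_pos_le_add fun η hη => ?_
    obtain ⟨t₀, h1, h2⟩ := key (η / (Fintype.card ι + 1)) (by positivity)
    have h3 : ∑ i, Metric.infDist t (C i) ≤ ∑ i, Metric.infDist t₀ (C i) := hmin h1
    have h4 : ∑ i, Metric.infDist t₀ (C i) ≤ ∑ _i : ι, η / (Fintype.card ι + 1) :=
      sum_le_sum fun i _ => by
        obtain ⟨s, hs, hd⟩ := h2 i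
        exact (Metric.infDist_le_dist_of_mem hs).trans (by rwa [dist_comm])
    rw [sum_const, card_univ, nsmul_eq_mul] at h4
    have h5 : (Fintype.card ι : ℝ) * (η / (Fintype.card ι + 1)) ≤ η := by
      rw [mul_div_assoc', div_le_iff₀ (by positivity)]
      nlinarith
    linarith
  exact le_antisymm ((single_le_sum (f := fun i => Metric.infDist t (C i))
    (fun _ _ => Metric.infDist_nonneg) (mem_univ i)).trans h0) Metric.infDist_nonneg

/-- Fan's intersection lemma. -/
theorem fan {W : Type} [AddCommGroup W] [Module ℝ W] [TopologicalSpace W]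
    [IsTopologicalAddGroup W] [ContinuousSMul ℝ W] {K : Set W} (hK : IsCompact K)
    (hc : Convex ℝ K) (hne : K.Nonempty) (C : W → Set W) (hC : ∀ y ∈ K, IsClosed (C y))
    (hconv : ∀ x ∈ K, Convex ℝ {y | x ∉ C y}) (hdiag : ∀ x ∈ K, x ∈ C x) :
    ∃ x ∈ K, ∀ y ∈ K, x ∈ C y := by
  classical
  have := hK.inter_iInter_nonempty (fun y : K => C y) (fun y => hC y y.2) fun T => by
    rcases T.eq_empty_or_nonempty with rfl | hT
    · simpa using hne
    have : Nonempty T := hT.to_subtype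
    let P : (T → ℝ) → W := fun t => ∑ i, t i • (i.1.1 : W)
    have hP : Continuous P := continuous_finsetSum _ fun i _ =>
      (continuous_apply i).smul continuous_const
    have hPK : ∀ t ∈ stdSimplex ℝ T, P t ∈ K := fun t ht =>
      hc.sum_mem (fun i _ => ht.1 i) ht.2 fun i _ => i.1.2
    obtain ⟨t, ht, h⟩ := kkm (fun i : T => P ⁻¹' C i.1.1) (fun i => (hC _ i.1.2).preimage hP)
      fun t ht => by
        by_contra hcon
        push Not at hcon
        have h1 : P t ∈ {y | P t ∉ C y} := by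
          have e : P t = ∑ i ∈ univ.filter fun i => t i ≠ 0, t i • (i.1.1 : W) := by
            rw [sum_filter_of_ne (p := fun i => t i ≠ 0) fun i _ hi h0 => hi (by simp [h0])]
          conv_rhs => rw [e]
          refine (hconv _ (hPK t ht)).sum_mem (fun i _ => ht.1 i) ?_ fun i hi => ?_
          · rw [sum_filter_ne_zero]; exact ht.2
          · exact hcon i (mem_filter.1 hi).2
        exact h1 (hdiag _ (hPK t ht))
    refine ⟨P t, hPK t ht, ?_⟩
    simp only [Set.mem_iInter]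
    exact fun y hy => h ⟨y, hy⟩
  obtain ⟨x, hx, h⟩ := this
  exact ⟨x, hx, fun y hy => Set.mem_iInter.1 h ⟨y, hy⟩⟩

/-- Continuous weights supported on a chain of sublevel sets. -/
theorem weights {E : Type} [Fintype E] [DecidableEq E] {ε : ℝ} (hε : 0 < ε) :
    ∃ a : Finset E → (E → ℝ) → ℝ, (∀ Y, Continuous (a Y)) ∧ (∀ Y R, 0 ≤ a Y R) ∧
      (∀ R, ∑ Y, a Y R = 1) ∧ ∀ Y R, 0 < a Y R → (∀ e ∈ Y, R e ≤ 2 * ε) ∧ (∀ e ∉ Y, ε ≤ R e) ∧
        ∀ e ∈ Y, ∀ e' ∉ Y, R e < R e' := by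
  let g : Finset E → (E → ℝ) → ℝ := fun Y R => (∏ e ∈ Y, max 0 (2 * ε - R e)) *
    (∏ e ∈ Yᶜ, max 0 (R e - ε)) * ∏ e ∈ Y, ∏ e' ∈ Yᶜ, max 0 (R e' - R e)
  have hg : ∀ Y, Continuous (g Y) := fun Y => by
    refine Continuous.mul (Continuous.mul ?_ ?_) ?_
    · exact continuous_finsetProd _ fun e _ => by fun_prop
    · exact continuous_finsetProd _ fun e _ => by fun_prop
    · exact continuous_finsetProd _ fun e _ => continuous_finsetProd _ fun e' _ => by fun_prop
  have hg0 : ∀ Y R, 0 ≤ g Y R := fun Y R =>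
    mul_nonneg (mul_nonneg (prod_nonneg fun _ _ => le_max_left _ _)
      (prod_nonneg fun _ _ => le_max_left _ _))
      (prod_nonneg fun _ _ => prod_nonneg fun _ _ => le_max_left _ _)
  have hs : ∀ R, 0 < ∑ Y, g Y R := fun R => by
    refine sum_pos' (fun Y _ => hg0 Y R) ⟨univ.filter fun e => R e ≤ ε, mem_univ _, ?_⟩
    refine mul_pos (mul_pos (prod_pos fun e he => ?_) (prod_pos fun e he => ?_))
      (prod_pos fun e he => prod_pos fun e' he' => ?_)
    · have := (mem_filter.1 he).2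
      exact lt_max_of_lt_right (by linarith)
    · have : ε < R e := by simpa using he
      exact lt_max_of_lt_right (by linarith)
    · have h1 := (mem_filter.1 he).2
      have : ε < R e' := by simpa using he'
      exact lt_max_of_lt_right (by linarith)
  have hm : ∀ x : ℝ, max 0 x ≠ 0 → 0 < x := fun x hx => by
    by_contra h
    exact hx (max_eq_left (not_lt.1 h))
  refine ⟨fun Y R => g Y R / ∑ Y', g Y' R, fun Y => ?_, fun Y R => div_nonneg (hg0 Y R) (hs R).le,
    fun R => ?_, fun Y R h => ?_⟩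
  · exact (hg Y).div (continuous_finsetSum _ fun Y' _ => hg Y') fun R => (hs R).ne'
  · rw [← sum_div, div_self (hs R).ne']
  · have h1 : g Y R ≠ 0 := fun h0 => by simp [h0] at h
    simp only [g, ne_eq, mul_eq_zero, not_or, prod_eq_zero_iff, not_exists, not_and] at h1
    refine ⟨fun e he => ?_, fun e he => ?_, fun e he e' he' => ?_⟩
    · linarith [hm _ (h1.1.1 e he)]
    · linarith [hm _ (h1.1.2 e (mem_compl.2 he))]
    · linarith [hm _ (h1.2 e he e' (mem_compl.2 he'))]

variable {V : Type} [Fintype V] [DecidableEq V]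

/-- Indicator vector. -/
def ind (S : Finset V) : V → ℝ := fun i => if i ∈ S then 1 else 0

omit [Fintype V] in
theorem ind_dot [Fintype V] (S : Finset V) (z : V → ℝ) : ind S ⬝ᵥ z = ∑ i ∈ S, z i := by
  simp [ind, dotProduct]

omit [DecidableEq V] in
theorem form_vmv (p z : V → ℝ) : z ⬝ᵥ vecMulVec p p *ᵥ z = (p ⬝ᵥ z) ^ 2 := by
  rw [vecMulVec_mulVec, dotProduct_smul, dotProduct_comm z p]
  simp [sq]

/-- Duality between cut measures and shortcut matrices. -/
theorem dual {E : Type} [Fintype E] (c : Finset V → ℝ) (hc : ∀ S, 0 ≤ c S) (μ : E → ℝ)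
    (φ : E → V → ℝ) (hG : ∀ D : Matrix V V ℝ, D.PosSemidef →
      (∀ S, ind S ⬝ᵥ D *ᵥ ind S ≤ c S) → ∑ e, μ e * (φ e ⬝ᵥ D *ᵥ φ e) ≤ 1) :
    ∃ m : Finset V → ℝ, (∀ S, 0 ≤ m S) ∧ ∑ S, m S * c S ≤ 2 ∧
      ∀ z : V → ℝ, ∑ e, μ e * (φ e ⬝ᵥ z) ^ 2 ≤ ∑ S, m S * (∑ i ∈ S, z i) ^ 2 := by
  let Γ : Set (Matrix V V ℝ) := {N | ∃ m : Finset V → ℝ, (∀ S, 0 ≤ m S) ∧ ∑ S, m S * c S ≤ 2 ∧
      ∀ z : V → ℝ, z ⬝ᵥ N *ᵥ z ≤ ∑ S, m S * (∑ i ∈ S, z i) ^ 2}
  let G : Matrix V V ℝ := ∑ e, μ e • vecMulVec (φ e) (φ e)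
  have hGz : ∀ z, z ⬝ᵥ G *ᵥ z = ∑ e, μ e * (φ e ⬝ᵥ z) ^ 2 := fun z => by
    simp only [G, sum_mulVec, dotProduct_sum, smul_mulVec, dotProduct_smul, form_vmv, smul_eq_mul]
  by_contra hcon
  have hGΓ : G ∉ interior Γ := fun h => by
    obtain ⟨m, h1, h2, h3⟩ := interior_subset h
    exact hcon ⟨m, h1, h2, fun z => hGz z ▸ h3 z⟩
  have hΓ : Convex ℝ Γ := by
    rintro N ⟨m, h1, h2, h3⟩ N' ⟨m', h1', h2', h3'⟩ α β hα hβ hαβ
    refine ⟨fun S => α * m S + β * m' S, fun S => add_nonneg (mul_nonneg hα (h1 S))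
      (mul_nonneg hβ (h1' S)), ?_, fun z => ?_⟩
    · simp only [add_mul, mul_assoc, sum_add_distrib, ← mul_sum]
      nlinarith
    · simp only [add_mul, mul_assoc, sum_add_distrib, ← mul_sum, add_mulVec, smul_mulVec,
        dotProduct_add, dotProduct_smul, smul_eq_mul]
      nlinarith [h3 z, h3' z]
  have h0 : (0 : Matrix V V ℝ) ∈ interior Γ := by
    set s := ∑ S, c S with hs
    have hs0 : 0 ≤ s := sum_nonneg fun S _ => hc S
    set η : ℝ := 2 / (Fintype.card V * s + 1) with hη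
    have hη0 : 0 < η := by positivity
    refine interior_maximal (t := (Set.Ioo (-η) η).matrix) (fun N hN => ?_) isOpen_Ioo.matrix ?_
    · refine ⟨fun _ => η * Fintype.card V, fun _ => by positivity, ?_, fun z => ?_⟩
      · rw [← mul_sum, ← hs, hη, div_mul_eq_mul_div, div_mul_eq_mul_div, div_le_iff₀ (by positivity)]
        linarith
      · have h1 : ∑ i, z i ^ 2 ≤ ∑ S : Finset V, (∑ i ∈ S, z i) ^ 2 := by
          calc ∑ i, z i ^ 2 = ∑ S ∈ univ.image fun i : V => ({i} : Finset V),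
                (∑ i ∈ S, z i) ^ 2 := by
                rw [sum_image fun i _ j _ h => singleton_injective h]
                simp
            _ ≤ _ := sum_le_sum_of_subset_of_nonneg (subset_univ _) fun _ _ _ => sq_nonneg _
        have h2 : z ⬝ᵥ N *ᵥ z ≤ ∑ i, ∑ j, η * (z i ^ 2 + z j ^ 2) / 2 := by
          simp only [dotProduct, mulVec, mul_sum]
          refine sum_le_sum fun i _ => sum_le_sum fun j _ => ?_
          have h3 : N i j ∈ Set.Ioo (-η) η := hN i j
          nlinarith [mul_nonneg (sub_pos.2 h3.2).le (sq_nonneg (z i + z j)),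
            mul_nonneg (sub_pos.2 h3.1).le (sq_nonneg (z i - z j))]
        have h3 : ∑ i, ∑ j, η * (z i ^ 2 + z j ^ 2) / 2 = η * Fintype.card V * ∑ i, z i ^ 2 := by
          simp only [← sum_div, ← mul_sum, sum_add_distrib, sum_const, card_univ, nsmul_eq_mul]
          ring
        rw [← mul_sum]
        exact (h2.trans h3.le).trans (mul_le_mul_of_nonneg_left h1 (by positivity))
    · intro i j
      simp [hη0]
  obtain ⟨f, hf⟩ := geometric_hahn_banach_open_point hΓ.interior isOpen_interior hGΓ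
  have hpos : 0 < f G := by simpa using hf 0 h0
  have hle : ∀ N ∈ Γ, f N ≤ f G := fun N hN => by
    apply closure_minimal (fun x hx => le_of_lt (hf x hx)) <| isClosed_Iic.preimage f.continuous
    simpa [hΓ.closure_interior_eq_closure_of_nonempty_interior ⟨0, h0⟩] using subset_closure hN
  have hray : ∀ N : Matrix V V ℝ, (∀ t : ℝ, 0 ≤ t → t • N ∈ Γ) → f N ≤ 0 := fun N hN => by
    by_contra h
    push Not at h
    have := hle _ (hN (2 * f G / f N) (by positivity))
    rw [map_smul, smul_eq_mul, div_mul_cancel₀ _ h.ne'] at this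
    linarith
  have hneg : ∀ N : Matrix V V ℝ, (∀ z, z ⬝ᵥ N *ᵥ z ≤ 0) → f N ≤ 0 := fun N hN =>
    hray N fun t ht => ⟨0, fun _ => le_rfl, by simp, fun z => by
      simpa [smul_mulVec] using mul_nonpos_of_nonneg_of_nonpos ht (hN z)⟩
  let D : Matrix V V ℝ := Matrix.of fun i j => f (Matrix.single i j 1)
  have hD : ∀ z, z ⬝ᵥ D *ᵥ z = f (vecMulVec z z) := fun z => by
    rw [matrix_eq_sum_single (vecMulVec z z)]
    simp only [map_sum, dotProduct, mulVec, mul_sum, D, of_apply, vecMulVec_apply]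
    refine sum_congr rfl fun i _ => sum_congr rfl fun j _ => ?_
    rw [show Matrix.single i j (z i * z j) = (z i * z j) • Matrix.single i j (1 : ℝ) by simp,
      map_smul, smul_eq_mul]
    ring
  have hanti : ∀ i j, D i j ≤ D j i := fun i j => by
    have := hneg (Matrix.single i j 1 - Matrix.single j i 1) fun z => by
      simp [sub_mulVec, single_mulVec, mul_comm, dotProduct, Function.update_apply, mul_sub]
    rw [map_sub] at this
    simpa [D] using this
  have hpsd : D.PosSemidef := by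
    refine PosSemidef.of_dotProduct_mulVec_nonneg ?_ fun z => ?_
    · ext i j
      simpa using le_antisymm (hanti j i) (hanti i j)
    · have := hneg (-vecMulVec z z) fun y => by
        rw [neg_mulVec, dotProduct_neg, form_vmv, neg_nonpos]
        positivity
      rw [map_neg] at this
      rw [star_trivial, hD]
      linarith
  have hS : ∀ (S : Finset V) (t : ℝ), 0 ≤ t → t * c S ≤ 2 → t • vecMulVec (ind S) (ind S) ∈ Γ :=
    fun S t ht h => ⟨Pi.single S t, fun S' => by
      rw [Pi.single_apply]; split_ifs <;> simp [ht], by simpa [Pi.single_apply] using h,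
      fun z => by simp [Pi.single_apply, smul_mulVec, form_vmv, ind_dot]⟩
  have hcut : ∀ S, ind S ⬝ᵥ D *ᵥ ind S ≤ f G / 2 * c S := fun S => by
    rw [hD]
    rcases (hc S).eq_or_lt with h | h
    · rw [← h, mul_zero]
      exact hray _ fun t ht => hS S t ht (by rw [← h]; simp)
    · have := hle _ (hS S (2 / c S) (by positivity) (by rw [div_mul_cancel₀ _ h.ne']))
      rw [map_smul, smul_eq_mul, div_mul_eq_mul_div, div_le_iff₀ h] at this
      linarith
  have h1 := hG ((2 / f G) • D) (hpsd.smul (by positivity)) fun S => by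
    rw [smul_mulVec, dotProduct_smul, smul_eq_mul, div_mul_eq_mul_div, div_le_iff₀ hpos]
    linarith [hcut S]
  have h2 : f G = ∑ e, μ e * (φ e ⬝ᵥ D *ᵥ φ e) := by
    simp only [G, map_sum, map_smul, smul_eq_mul, hD]
  simp only [smul_mulVec, dotProduct_smul, smul_eq_mul, mul_left_comm (μ _), ← mul_sum] at h1
  rw [← h2, div_mul_cancel₀ _ hpos.ne'] at h1
  linarith

end Vale.Agent.P061.VI
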