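import Vale.Agent.P061.Basic
import Vale.Agent.P061.VIA

/-!
Shortcut matrix or dual cut measure.
-/

namespace Vale.Agent.P061

open Finset Matrix

namespace VI

variable {V E : Type} [Fintype V] [DecidableEq V] [Fintype E]

/-- Signed incidence vector of an edge. -/
def bv (u v : E → V) (e : E) : V → ℝ := Pi.single (u e) 1 - Pi.single (v e) 1

omit [Fintype E] in
theorem bv_dot (u v : E → V) (e : E) (y : V → ℝ) : bv u v e ⬝ᵥ y = y (u e) - y (v e) := by
  simp [bv, sub_dotProduct]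

/-- Laplacian plus shortcut matrix plus a root term. -/
noncomputable def MM (u v : E → V) (r : V) (D : Matrix V V ℝ) : Matrix V V ℝ :=
  ∑ e, vecMulVec (bv u v e) (bv u v e) + D + vecMulVec (Pi.single r 1) (Pi.single r 1)

theorem MM_form (u v : E → V) (r : V) (D : Matrix V V ℝ) (y : V → ℝ) :
    y ⬝ᵥ MM u v r D *ᵥ y = ∑ e, (bv u v e ⬝ᵥ y) ^ 2 + y ⬝ᵥ D *ᵥ y + y r ^ 2 := by
  simp only [MM, add_mulVec, dotProduct_add, sum_mulVec, dotProduct_sum, form_vmv,
    single_dotProduct, one_mul]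

theorem MM_posDef (u v : E → V) (hconn : ∀ S : Finset V, S.Nonempty → S ≠ univ → 0 < cut u v univ S)
    (r : V) {D : Matrix V V ℝ} (hD : D.PosSemidef) : (MM u v r D).PosDef := by
  have hv : ∀ p : V → ℝ, (vecMulVec p p).PosSemidef := fun p => by
    simpa using posSemidef_vecMulVec_self_star p
  refine PosDef.of_dotProduct_mulVec_pos
    (((posSemidef_sum _ fun e _ => hv _).add hD).add (hv _)).isHermitian fun y hy => ?_
  rw [star_trivial, MM_form]
  have h1 : 0 ≤ y ⬝ᵥ D *ᵥ y := by simpa using hD.dotProduct_mulVec_nonneg y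
  have h2 : 0 ≤ ∑ e, (bv u v e ⬝ᵥ y) ^ 2 := sum_nonneg fun _ _ => sq_nonneg _
  by_contra h
  push Not at h
  have h3 : y r = 0 := by nlinarith [sq_nonneg (y r)]
  have h4 : ∑ e, (bv u v e ⬝ᵥ y) ^ 2 = 0 := by nlinarith [sq_nonneg (y r)]
  rw [sum_eq_zero_iff_of_nonneg fun _ _ => sq_nonneg _] at h4
  have h5 := hconn (univ.filter fun x => y x ≠ 0) (by
    by_contra h6
    refine hy (funext fun x => by_contra fun h7 => h6 ⟨x, by simpa using h7⟩)) (by
    intro h6
    have : r ∈ univ.filter fun x => y x ≠ 0 := by rw [h6]; exact mem_univ r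
    exact (mem_filter.1 this).2 h3)
  obtain ⟨e, he⟩ := card_pos.1 h5
  have h6 := h4 e (mem_univ e)
  rw [bv_dot, sq_eq_zero_iff, sub_eq_zero] at h6
  simp [h6] at he

omit [Fintype E] in
theorem sum_bv_ind (u v : E → V) (H : Finset E) (S : Finset V) :
    ∑ e ∈ H, (bv u v e ⬝ᵥ ind S) ^ 2 = cut u v H S := by
  simp only [cut, card_filter, Nat.cast_sum, bv_dot, ind]
  refine sum_congr rfl fun e _ => ?_
  by_cases h1 : u e ∈ S <;> by_cases h2 : v e ∈ S <;> simp [h1, h2]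

omit [Fintype E] in
theorem cut_compl (u v : E → V) (H : Finset E) (S : Finset V) : cut u v H Sᶜ = cut u v H S := by
  simp only [cut, mem_compl, not_iff_not]

/-- The set of admissible shortcut matrices. -/
def DD (c : Finset V → ℝ) : Set (Matrix V V ℝ) :=
  {D | D.PosSemidef ∧ ∀ S, ind S ⬝ᵥ D *ᵥ ind S ≤ c S}

theorem DD_convex (c : Finset V → ℝ) : Convex ℝ (DD c) := by
  rintro D ⟨h1, h2⟩ D' ⟨h1', h2'⟩ α β hα hβ hαβ
  refine ⟨(h1.smul hα).add (h1'.smul hβ), fun S => ?_⟩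
  simp only [add_mulVec, smul_mulVec, dotProduct_add, dotProduct_smul, smul_eq_mul]
  calc _ ≤ α * c S + β * c S := add_le_add (mul_le_mul_of_nonneg_left (h2 S) hα)
        (mul_le_mul_of_nonneg_left (h2' S) hβ)
    _ = c S := by rw [← add_mul, hαβ, one_mul]

theorem DD_closed (c : Finset V → ℝ) : IsClosed (DD c) := by
  have e : DD c = (⋂ i, ⋂ j, {D : Matrix V V ℝ | D j i = D i j}) ∩
      (⋂ z : V → ℝ, {D : Matrix V V ℝ | 0 ≤ z ⬝ᵥ D *ᵥ z}) ∩
      ⋂ S, {D : Matrix V V ℝ | ind S ⬝ᵥ D *ᵥ ind S ≤ c S} := by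
    ext D
    simp only [DD, Set.mem_ofPred_eq, Set.mem_inter_iff, Set.mem_iInter,
      posSemidef_iff_dotProduct_mulVec, star_trivial, IsHermitian, ← Matrix.ext_iff,
      conjTranspose_apply]
  rw [e]
  refine ((isClosed_iInter fun i => isClosed_iInter fun j => isClosed_eq ?_ ?_).inter
    (isClosed_iInter fun z => isClosed_le continuous_const ?_)).inter
    (isClosed_iInter fun S => isClosed_le ?_ continuous_const) <;> fun_prop

theorem DD_compact (c : Finset V → ℝ) (hc : ∀ S, 0 ≤ c S) : IsCompact (DD c) := by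
  set s := ∑ S, c S with hs
  refine (isCompact_Icc (a := -s) (b := s)).matrix.of_isClosed_subset (DD_closed c) ?_
  rintro D ⟨h1, h2⟩ i j
  have h3 : ∀ i, D i i ≤ s := fun i => by
    have := h2 {i}
    have e : ind ({i} : Finset V) = Pi.single i 1 := by
      ext x; simp [ind, Pi.single_apply]
    rw [e] at this
    simp only [mulVec_single, single_dotProduct, one_mul, MulOpposite.op_one, one_smul,
      col_apply] at this
    exact this.trans (single_le_sum (fun S _ => hc S) (mem_univ _))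
  have h4 := psd_cs h1 (Pi.single i 1) (Pi.single j 1)
  simp only [mulVec_single, single_dotProduct, one_mul, MulOpposite.op_one, one_smul,
    col_apply] at h4
  have h5 : D i j ^ 2 ≤ s ^ 2 := by
    have := mul_le_mul (h3 i) (h3 j) h1.diag_nonneg (h1.diag_nonneg.trans (h3 i))
    nlinarith
  exact abs_le.1 (abs_le_of_sq_le_sq' h5 (h1.diag_nonneg.trans (h3 i)) |> abs_le.2)

theorem inv_contOn (u v : E → V)
    (hconn : ∀ S : Finset V, S.Nonempty → S ≠ univ → 0 < cut u v univ S) (r : V)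
    (c : Finset V → ℝ) : ContinuousOn (fun D => (MM u v r D)⁻¹) (DD c) := fun D hD => by
  have h1 : Continuous (MM u v r) := by unfold MM; fun_prop
  refine ((continuousAt_matrix_inv (MM u v r D) ?_).comp h1.continuousAt).continuousWithinAt
  rw [Ring.inverse_eq_inv']
  exact continuousAt_inv₀ (MM_posDef u v hconn r hD.1).det_pos.ne'

end VI

open VI

/-- Shortcut matrix or dual cut measure (variational inequality and duality). -/
theorem lemVI {V E : Type} [Fintype V] [DecidableEq V] [Nonempty V] [Fintype E] [DecidableEq E]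
    (u v : E → V) (hconn : ∀ S : Finset V, S.Nonempty → S ≠ univ → 0 < cut u v univ S)
    (X : Finset E → Finset E) (hX : Antitone X) (ε θ : ℝ) (hε : 0 < ε) (hθ : 0 < θ) :
    (∃ A : Matrix E E ℝ, A.PosSemidef ∧ (1 - A).PosSemidef ∧
      X (univ.filter fun e => A e e ≤ 2 * ε) = ∅ ∧
      ∀ (H : Finset E) (x : ℝ), 0 ≤ x → SubLe A H x →
        ∀ S : Finset V, (cut u v H S : ℝ) ≤ x * (1 + θ) * cut u v univ S) ∨
    (∃ (a : Finset E → ℝ) (φ : E → V → ℝ) (m : Finset V → ℝ),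
      (∀ Y, 0 ≤ a Y) ∧ ∑ Y, a Y = 1 ∧ (∀ Y Y', 0 < a Y → 0 < a Y' → Y ⊆ Y' ∨ Y' ⊆ Y) ∧
      (∀ Y, 0 < a Y → (X Y).Nonempty ∧ ∀ e, e ∉ Y → ε ≤ φ e (u e) - φ e (v e)) ∧
      (∀ e, 0 ≤ φ e (u e) - φ e (v e) ∧ φ e (u e) - φ e (v e) ≤ 1) ∧ (∀ S, 0 ≤ m S) ∧
      θ * ∑ S, m S * cut u v univ S ≤ 2 ∧
      ∀ z : V → ℝ, ∑ e, (∑ Y, if e ∈ X Y then a Y / (X Y).card else 0) * (φ e ⬝ᵥ z) ^ 2 ≤
        ∑ S, m S * (∑ i ∈ S, z i) ^ 2) := by
  obtain ⟨r⟩ := ‹Nonempty V›
  let c : Finset V → ℝ := fun S => θ * cut u v univ S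
  have hc : ∀ S, 0 ≤ c S := fun S => by positivity
  have hM : ∀ D ∈ DD c, (MM u v r D).PosDef := fun D hD => MM_posDef u v hconn r hD.1
  have hq : ∀ D ∈ DD c, ∀ y, 0 ≤ y ⬝ᵥ D *ᵥ y := fun D hD y => by
    simpa using hD.1.dotProduct_mulVec_nonneg y
  have hcon : ∀ D ∈ DD c, (1 - gram (MM u v r D) (bv u v)).PosSemidef := fun D hD =>
    gram_contr (hM D hD) _ fun y => by
      rw [MM_form]; nlinarith [hq D hD y, sq_nonneg (y r)]
  by_cases hL : ∃ D ∈ DD c, X (univ.filter fun e => gram (MM u v r D) (bv u v) e e ≤ 2 * ε) = ∅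
  · obtain ⟨D, hD, hL⟩ := hL
    refine Or.inl ⟨_, gram_psd (hM D hD) _, hcon D hD, hL, fun H x hx hH S => ?_⟩
    have key : ∀ S : Finset V, r ∉ S → (cut u v H S : ℝ) ≤ x * (1 + θ) * cut u v univ S := by
      intro S hr
      have h1 := gram_subLe (hM D hD) _ hx hH (ind S)
      rw [MM_form, sum_bv_ind, sum_bv_ind, show ind S r = 0 from if_neg hr] at h1
      have h2 := mul_le_mul_of_nonneg_left (hD.2 S) hx
      simp only [c] at h2
      nlinarith
    by_cases hr : r ∈ S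
    · simpa only [cut_compl] using key Sᶜ (by simpa using hr)
    · exact key S hr
  right
  push Not at hL
  obtain ⟨a, ha1, ha2, ha3, ha4⟩ := weights (E := E) hε
  let φ : Matrix V V ℝ → E → V → ℝ := fun D e => (MM u v r D)⁻¹ *ᵥ bv u v e
  let R : Matrix V V ℝ → E → ℝ := fun D e => bv u v e ⬝ᵥ φ D e
  have hR : ∀ D e, gram (MM u v r D) (bv u v) e e = R D e := fun _ _ => rfl
  let μ : Matrix V V ℝ → E → ℝ := fun D e =>
    ∑ Y, if e ∈ X Y then a Y (R D) / (X Y).card else 0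
  let ℓ : Matrix V V ℝ → Matrix V V ℝ → ℝ := fun D D' => ∑ e, μ D e * (φ D e ⬝ᵥ D' *ᵥ φ D e)
  have hφ : ∀ e, ContinuousOn (fun D => φ D e) (DD c) := fun e =>
    (show Continuous fun N : Matrix V V ℝ => N *ᵥ bv u v e by fun_prop).comp_continuousOn
      (inv_contOn u v hconn r c)
  have hRc : ContinuousOn R (DD c) := continuousOn_pi.2 fun e =>
    (show Continuous fun y : V → ℝ => bv u v e ⬝ᵥ y by fun_prop).comp_continuousOn (hφ e)
  have hμ : ∀ e, ContinuousOn (fun D => μ D e) (DD c) := fun e =>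
    continuousOn_finsetSum _ fun Y _ => by
      split_ifs
      · exact ((ha1 Y).comp_continuousOn hRc).div_const _
      · exact continuousOn_const
  have hl : ∀ g : Matrix V V ℝ → Matrix V V ℝ, Continuous g →
      ContinuousOn (fun D => ℓ D (g D)) (DD c) := fun g hg =>
    continuousOn_finsetSum _ fun e _ => (hμ e).mul <|
      (show Continuous fun p : (V → ℝ) × Matrix V V ℝ => p.1 ⬝ᵥ p.2 *ᵥ p.1 by
        fun_prop).comp_continuousOn ((hφ e).prodMk hg.continuousOn)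
  obtain ⟨D, hD, hmax⟩ := fan (DD_compact c hc) (DD_convex c)
    ⟨0, PosSemidef.zero, fun S => by simpa using hc S⟩ (fun D' => {D ∈ DD c | ℓ D D' ≤ ℓ D D})
    (fun D' _ => (DD_closed c).isClosed_le (hl _ continuous_const) (hl _ continuous_id))
    (fun D hD => by
      have h1 : IsLinearMap ℝ (ℓ D) := ⟨fun D1 D2 => by
        simp only [ℓ, add_mulVec, dotProduct_add, mul_add, sum_add_distrib], fun t D1 => by
        simp only [ℓ, smul_mulVec, dotProduct_smul, smul_eq_mul, mul_sum, mul_left_comm]⟩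
      have e : {y | D ∉ {D ∈ DD c | ℓ D y ≤ ℓ D D}} = {y | ℓ D D < ℓ D y} := by
        ext y
        simp [hD]
      rw [e]
      exact convex_halfSpace_gt h1 (ℓ D D))
    fun D hD => ⟨hD, le_rfl⟩
  have hR0 : ∀ e, 0 ≤ R D e := fun e => (gram_psd (hM D hD) (bv u v)).diag_nonneg
  have hR1 : ∀ e, R D e ≤ 1 := fun e => by
    have := (hcon D hD).diag_nonneg (i := e)
    rwa [Matrix.sub_apply, one_apply_eq, hR, sub_nonneg] at this
  have hμ0 : ∀ e, 0 ≤ μ D e := fun e => sum_nonneg fun Y _ => by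
    split_ifs
    · exact div_nonneg (ha2 _ _) (Nat.cast_nonneg _)
    · exact le_rfl
  have hμ1 : ∑ e, μ D e ≤ 1 := by
    rw [← ha3 (R D), sum_comm]
    refine sum_le_sum fun Y _ => ?_
    rw [sum_ite_mem, univ_inter, sum_const, nsmul_eq_mul]
    rcases eq_or_ne ((X Y).card : ℝ) 0 with h | h
    · rw [h, zero_mul]; exact ha2 _ _
    · rw [mul_div_cancel₀ _ h]
  have hu : IsUnit (MM u v r D).det := (isUnit_iff_isUnit_det _).1 (hM D hD).isUnit
  have h1 : ℓ D D ≤ 1 := by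
    refine le_trans (sum_le_sum fun e _ => ?_) hμ1
    refine mul_le_of_le_one_right (hμ0 e) (le_trans ?_ (hR1 e))
    have h2 := MM_form u v r D (φ D e)
    rw [show MM u v r D *ᵥ φ D e = bv u v e by
      simp only [φ]; rw [mulVec_mulVec, mul_nonsing_inv _ hu, one_mulVec], dotProduct_comm] at h2
    have h3 : 0 ≤ ∑ e', (bv u v e' ⬝ᵥ φ D e) ^ 2 := sum_nonneg fun _ _ => sq_nonneg _
    simp only [R]
    nlinarith [sq_nonneg (φ D e r)]
  obtain ⟨m, hm0, hm1, hm2⟩ := dual c hc (μ D) (φ D) fun D' h2 h3 =>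
    (hmax D' ⟨h2, h3⟩).2.trans h1
  refine ⟨fun Y => a Y (R D), φ D, m, fun Y => ha2 _ _, ha3 _, fun Y Y' hY hY' => ?_,
    fun Y hY => ⟨?_, fun e he => ?_⟩, fun e => ?_, hm0, ?_, hm2⟩
  · by_contra h
    rw [not_or, not_subset, not_subset] at h
    obtain ⟨⟨e, h2, h3⟩, e', h4, h5⟩ := h
    linarith [(ha4 _ _ hY).2.2 e h2 e' h5, (ha4 _ _ hY').2.2 e' h4 e h3]
  · refine (hL D hD).mono (hX fun e he => ?_)
    exact mem_filter.2 ⟨mem_univ e, (ha4 _ _ hY).1 e he⟩
  · rw [← bv_dot]; exact (ha4 _ _ hY).2.1 e he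
  · rw [← bv_dot]; exact ⟨hR0 e, hR1 e⟩
  · rw [mul_sum]
    simpa only [c, mul_left_comm θ] using hm1

end Vale.Agent.P061
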