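import Vale.Agent.P061.WB

/-!
Contracting the blocks one after another.
-/

namespace Vale.Agent.P061

open Finset Matrix

namespace W

theorem form_cut {E : Type} [Fintype E] [DecidableEq E] {B : Matrix E E ℝ} {F : Finset E}
    (h : ∀ e e', e ∉ F ∨ e' ∉ F → B e e' = 0) (hB : (1 - B).PosSemidef) (z : E → ℝ) :
    z ⬝ᵥ B *ᵥ z ≤ ∑ e ∈ F, z e ^ 2 := by
  let z' : E → ℝ := fun e => if e ∈ F then z e else 0
  have h1 : z ⬝ᵥ B *ᵥ z = z' ⬝ᵥ B *ᵥ z' := by
    simp only [dotProduct, mulVec, mul_sum]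
    refine sum_congr rfl fun e _ => sum_congr rfl fun e' _ => ?_
    by_cases h2 : e ∈ F
    · by_cases h3 : e' ∈ F
      · simp [z', h2, h3]
      · simp [h e e' (Or.inr h3)]
    · simp [h e e' (Or.inl h2)]
  have h2 : z' ⬝ᵥ z' = ∑ e ∈ F, z e ^ 2 := by
    simp only [dotProduct, z', ite_mul, zero_mul, sum_ite_mem, univ_inter]
    exact sum_congr rfl fun e he => by rw [if_pos he, sq]
  have h3 := hB.dotProduct_mulVec_nonneg z'
  rw [star_trivial, sub_mulVec, one_mulVec, dotProduct_sub] at h3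
  linarith

theorem main {E : Type} [Fintype E] [DecidableEq E] (κ η δ : ℝ) (hη : 0 < η) (hη' : η ≤ 1 / 2)
    (hδ : 0 < δ) (hδ' : δ ≤ 1) (hκ : 24 / (δ * η) ^ 2 < κ) (n : ℕ) :
    ∀ (V : Type) [Fintype V] [DecidableEq V] (u v : E → V) (Y : Finset E),
      Fintype.card V = n → PC u v κ Y univ →
      ∃ (F : Finset E) (B : Matrix E E ℝ), F ⊆ Y ∧ B.PosSemidef ∧ (1 - B).PosSemidef ∧
        (∀ e, B e e ≤ δ) ∧ (∀ e e', e ∉ F ∨ e' ∉ F → B e e' = 0) ∧
        ∀ (T : Finset E) (x : ℝ), 0 ≤ x → x ≤ 1 → SubLe B T x →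
          PC u v ((1 - x) * ((1 - η) * κ)) (F \ T) univ := by
  induction n using Nat.strong_induction_on with
  | _ n ih =>
  intro V _ _ u v Y hn hPC
  have hκ0 : 0 < κ := lt_trans (by positivity) hκ
  by_cases h2 : Fintype.card V ≤ 1
  · refine ⟨∅, 0, empty_subset _, PosSemidef.zero, by simpa using PosSemidef.one,
      fun _ => hδ.le, fun _ _ _ => rfl, fun T x _ hx _ p => ?_⟩
    have h3 : ((univ.image p).card : ℝ) ≤ 1 := by
      exact_mod_cast card_image_le.trans (card_univ (α := V) ▸ h2)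
    have h4 : 0 ≤ (1 - x) * ((1 - η) * κ) :=
      mul_nonneg (by linarith) (mul_nonneg (by linarith) hκ0.le)
    have h5 : (0 : ℝ) ≤ (cr u v (∅ \ T) univ p).card := Nat.cast_nonneg _
    nlinarith
  obtain ⟨W1, F1, B1, hW, hFY, hends, hB, hB', hd, hsupp, hT⟩ :=
    block u v Y κ η δ hη hη' hδ hδ' hκ hPC (by omega)
  obtain ⟨r, hr, r', hr', hrr⟩ := one_lt_card.1 hW
  let V' := {x : V // x ∉ W1 ∨ x = r}
  let c : V → V' := fun x => if h : x ∈ W1 then ⟨r, Or.inr rfl⟩ else ⟨x, Or.inl h⟩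
  have hc1 : ∀ x ∈ W1, c x = ⟨r, Or.inr rfl⟩ := fun x hx => dif_pos hx
  have hc2 : ∀ x : V', c x.1 = x := fun x => by
    by_cases h : x.1 ∈ W1
    · rw [hc1 _ h]
      exact Subtype.ext (x.2.resolve_left (not_not.2 h)).symm
    · exact dif_neg h
  have himg : ∀ p : V' → ℕ, univ.image (p ∘ c) = univ.image p := fun p => by
    ext a
    simp only [mem_image, mem_univ, true_and, Function.comp]
    exact ⟨fun ⟨x, hx⟩ => ⟨c x, hx⟩, fun ⟨x, hx⟩ => ⟨x.1, by rw [hc2, hx]⟩⟩
  have hlt : Fintype.card V' < n := by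
    rw [← hn]
    exact Fintype.card_subtype_lt (x := r') fun h => h.elim (fun h => h hr') fun h => hrr h.symm
  obtain ⟨F2, B2, hFY2, hC, hC', hd2, hsupp2, hT2⟩ :=
    ih _ hlt V' (c ∘ u) (c ∘ v) (Y \ F1) rfl fun p => by
      have h3 := hPC (p ∘ c)
      rw [himg] at h3
      refine h3.trans (Nat.cast_le.2 (card_le_card fun e he => ?_))
      simp only [mem_cr, mem_sdiff, mem_univ, true_and, Function.comp] at he ⊢
      refine ⟨⟨he.1, fun h => he.2 ?_⟩, he.2⟩
      rw [hc1 _ (hends e h).1, hc1 _ (hends e h).2]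
  have hdisj : Disjoint F1 F2 := disjoint_left.2 fun e h1 h2 => (mem_sdiff.1 (hFY2 h2)).2 h1
  refine ⟨F1 ∪ F2, B1 + B2, union_subset hFY (hFY2.trans sdiff_subset), hB.add hC, ?_,
    fun e => ?_, fun e e' h => ?_, fun T x hx0 hx1 hS => ?_⟩
  · refine PosSemidef.of_dotProduct_mulVec_nonneg
      (isHermitian_one.sub (hB.add hC).isHermitian) fun z => ?_
    rw [star_trivial, sub_mulVec, one_mulVec, dotProduct_sub, add_mulVec, dotProduct_add]
    have h3 := form_cut hsupp hB' z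
    have h4 := form_cut hsupp2 hC' z
    have h5 : ∑ e ∈ F1 ∪ F2, z e ^ 2 ≤ z ⬝ᵥ z := by
      simp only [dotProduct, ← sq]
      exact sum_le_sum_of_subset_of_nonneg (subset_univ _) fun _ _ _ => sq_nonneg _
    rw [sum_union hdisj] at h5
    linarith
  · rw [Matrix.add_apply]
    by_cases h : e ∈ F1
    · rw [hsupp2 e e (Or.inl (disjoint_left.1 hdisj h)), add_zero]; exact hd e
    · rw [hsupp e e (Or.inl h), zero_add]; exact hd2 e
  · simp only [mem_union, not_or] at h
    rw [Matrix.add_apply, hsupp e e' (h.imp And.left And.left),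
      hsupp2 e e' (h.imp And.right And.right), add_zero]
  · have hS1 : SubLe B1 T x := fun z hz => by
      have h3 := hS z hz
      have h4 := hC.dotProduct_mulVec_nonneg z
      rw [add_mulVec, dotProduct_add] at h3
      rw [star_trivial] at h4
      linarith
    have hS2 : SubLe B2 T x := fun z hz => by
      have h3 := hS z hz
      have h4 := hB.dotProduct_mulVec_nonneg z
      rw [add_mulVec, dotProduct_add] at h3
      rw [star_trivial] at h4
      linarith
    refine PC.combine (subset_univ W1) ⟨r, hr⟩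
      ((hT T x hx0 hx1 hS1).mono (sdiff_subset_sdiff subset_union_left Subset.rfl)) fun p hp => ?_
    have h3 : p = (p ∘ Subtype.val) ∘ c := by
      funext z
      by_cases h : z ∈ W1
      · simp only [Function.comp, hc1 z h]
        exact hp z h r hr
      · simp only [Function.comp, c, dif_neg h]
    have h4 := hT2 T x hx0 hx1 hS2 (p ∘ Subtype.val)
    rw [← himg, ← h3] at h4
    refine h4.trans (Nat.cast_le.2 (card_le_card fun e he => ?_))
    simp only [mem_cr, mem_sdiff, mem_univ, true_and, mem_union] at he ⊢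
    refine ⟨⟨Or.inr he.1.1, he.1.2⟩, ?_⟩
    rw [h3]
    exact he.2

end W

/-- A partition connected graph has a subgraph with a small leverage certificate. -/
theorem lemW {V E : Type} [Fintype V] [DecidableEq V] [Fintype E] [DecidableEq E] (u v : E → V)
    (Y : Finset E) (κ η δ : ℝ) (hη : 0 < η) (hη' : η ≤ 1 / 2) (hδ : 0 < δ) (hδ' : δ ≤ 1)
    (hκ : 24 / (δ * η) ^ 2 < κ) (hPC : PC u v κ Y univ) :
    ∃ (F : Finset E) (B : Matrix E E ℝ), F ⊆ Y ∧ B.PosSemidef ∧ (1 - B).PosSemidef ∧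
      (∀ e, B e e ≤ δ) ∧ ∀ (T : Finset E) (x : ℝ), 0 ≤ x → x ≤ 1 → SubLe B T x →
        PC u v ((1 - x) * ((1 - η) * κ)) (F \ T) univ := by
  obtain ⟨F, B, h1, h2, h3, h4, -, h5⟩ := W.main κ η δ hη hη' hδ hδ' hκ _ V u v Y rfl hPC
  exact ⟨F, B, h1, h2, h3, h4, h5⟩

end Vale.Agent.P061
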