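import Vale.Agent.P061.Avg2
import Vale.Agent.P061.MSS
import Vale.Agent.P061.W
import Vale.Agent.P061.VI

/-!
The halving lemma.
-/

namespace Vale.Agent.P061

open Finset Relation Matrix

set_option linter.unusedSectionVars false

variable {V E : Type} [Fintype V] [DecidableEq V] [Fintype E] [DecidableEq E]

theorem PC.const_of_cr {α : Type} [DecidableEq α] {u v : E → V} {κ : ℝ} (hκ : 0 < κ)
    {Y : Finset E} (h : PC u v κ Y univ) {p : V → α} (h0 : cr u v Y univ p = ∅) (x y : V) :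
    p x = p y := by
  have h1 := h.gen p
  rw [h0, card_empty, Nat.cast_zero] at h1
  have h3 : ((univ.image p).card : ℝ) ≤ 1 := by
    by_contra h4
    push Not at h4
    nlinarith
  exact card_le_one.1 (by exact_mod_cast h3) _ (mem_image_of_mem p (mem_univ _))
    _ (mem_image_of_mem p (mem_univ _))

theorem PC.cut_pos {u v : E → V} {κ : ℝ} (hκ : 0 < κ) {Y : Finset E} (h : PC u v κ Y univ)
    (S : Finset V) (h1 : S.Nonempty) (h2 : S ≠ univ) : 0 < cut u v Y S := by
  by_contra h3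
  obtain ⟨x, hx⟩ := h1
  obtain ⟨y, hy⟩ : ∃ y, y ∉ S := by
    by_contra h4
    push Not at h4
    exact h2 (eq_univ_iff_forall.2 h4)
  have h4 := h.const_of_cr hκ (p := fun x => decide (x ∈ S)) (by
    rw [cut, not_lt, Nat.le_zero, card_eq_zero] at h3
    rw [← h3, cr]
    exact filter_congr fun e _ => by simp) x y
  simp [hx, hy] at h4

theorem pow_sum_le (N : ℝ) (hN : 0 ≤ N) (G : ℕ) :
    ∑ g ∈ range G, (if (2 : ℝ) ^ g ≤ N then (2 : ℝ) ^ g else 0) ≤ min (2 * N) (2 ^ G) := by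
  induction G with
  | zero => simp [hN]
  | succ G ih =>
    rw [sum_range_succ, pow_succ]
    have h1 := ih.trans (min_le_left _ _)
    have h2 := ih.trans (min_le_right _ _)
    have h3 : (0 : ℝ) < 2 ^ G := by positivity
    split_ifs with h <;> exact le_min (by linarith) (by linarith)

theorem no_dual [Nonempty V] (u v : E → V) {ξ κ : ℝ} (h0 : 0 < ξ) (h1 : ξ ≤ 1 / 8)
    (hκ : 10 ^ 22 ≤ ξ ^ 35 * κ) (hPC : PC u v κ univ univ)
    (a : Finset E → ℝ) (φ : E → V → ℝ) (m : Finset V → ℝ) (X : Finset E → Finset E)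
    (hX : X = fun Y => cr u v univ univ (cls u v ((1 - ξ) * κ) Y))
    (ha0 : ∀ Y, 0 ≤ a Y) (ha1 : ∑ Y, a Y = 1) (hch : ∀ Y Y', 0 < a Y → 0 < a Y' → Y ⊆ Y' ∨ Y' ⊆ Y)
    (hlo : ∀ Y, 0 < a Y → (X Y).Nonempty ∧ ∀ e, e ∉ Y → ξ ^ 3 / 2 ≤ φ e (u e) - φ e (v e))
    (hR : ∀ e, 0 ≤ φ e (u e) - φ e (v e) ∧ φ e (u e) - φ e (v e) ≤ 1) (hm : ∀ S, 0 ≤ m S)
    (hcap : ξ * ∑ S, m S * cut u v univ S ≤ 2)
    (hc : ∀ z : V → ℝ, ∑ e, (∑ Y, if e ∈ X Y then a Y / (X Y).card else 0) * (φ e ⬝ᵥ z) ^ 2 ≤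
      ∑ S, m S * (∑ i ∈ S, z i) ^ 2) : False := by
  have hκ0 : 0 < κ := by
    by_contra h
    push Not at h
    nlinarith [pow_pos h0 35]
  set κ' := (1 - ξ) * κ with hκ'
  have hκ1 : κ' ≤ κ := by nlinarith
  have hκ2 : 0 < κ' := mul_pos (by linarith) hκ0
  have hPC' := hPC.anti univ_nonempty hκ1
  have hXa : ∀ Y Y', Y ⊆ Y' → X Y' ⊆ X Y := fun Y Y' h e he => by
    simp only [hX, mem_cr] at he ⊢
    exact ⟨he.1, he.2.1, he.2.2.1, fun h2 => he.2.2.2 (cls_ref h _ _ h2)⟩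
  set μ := fun e => ∑ Y, if e ∈ X Y then a Y / (X Y).card else 0 with hμ
  have hq : ∀ Y, 0 ≤ a Y / (X Y).card := fun Y => div_nonneg (ha0 Y) (Nat.cast_nonneg _)
  have hμf : ∀ f : E → ℝ, ∑ e, μ e * f e = ∑ Y, a Y / (X Y).card * ∑ e ∈ X Y, f e := fun f => by
    simp only [hμ, sum_mul, ite_mul, zero_mul]
    rw [sum_comm]
    simp only [sum_ite_mem, univ_inter, mul_sum]
  have hdiv : ∀ Y, a Y / (X Y).card * (X Y).card = a Y := fun Y => by
    rcases (ha0 Y).eq_or_lt with h | h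
    · rw [← h]; simp
    · exact div_mul_cancel₀ _ (by exact_mod_cast (card_pos.2 (hlo Y h).1).ne')
  let T : (V → ℝ) →ₗ[ℝ] EuclideanSpace ℝ (Finset V) :=
    (WithLp.linearEquiv 2 ℝ (Finset V → ℝ)).symm.toLinearMap ∘ₗ
      Matrix.mulVecLin (Matrix.of fun S i => if i ∈ S then √(m S) else 0)
  have hT : ∀ z, ‖T z‖ ^ 2 = ∑ S, m S * (∑ i ∈ S, z i) ^ 2 := fun z => by
    rw [EuclideanSpace.real_norm_sq_eq]
    refine sum_congr rfl fun S _ => ?_
    simp [T, mulVec, dotProduct, ← mul_sum, mul_pow, Real.sq_sqrt (hm S)]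
  let pos : V → PiLp 1 fun _ : Finset V => ℝ := fun x =>
    WithLp.toLp 1 fun S => if x ∈ S then m S else 0
  have hpos : ∀ x y, dist (pos x) (pos y) = ∑ S, if ¬ (x ∈ S ↔ y ∈ S) then m S else 0 :=
    fun x y => by
      rw [PiLp.dist_eq_of_L1]
      refine sum_congr rfl fun S _ => ?_
      by_cases hx : x ∈ S <;> by_cases hy : y ∈ S <;> simp [pos, hx, hy, abs_of_nonneg (hm S)]
  have hY : ∀ g : ℕ, ∃ Y, ((X Y).card : ℝ) ≤ 2 ^ g ∧ (g = 0 → X Y = ∅) ∧ (Y = univ ∨ 0 < a Y ∧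
      ((X Y).card : ℝ) < 2 ^ g) ∧ ∀ Y', 0 < a Y' → ((X Y').card : ℝ) < 2 ^ g → Y ⊆ Y' := by
    intro g
    have hu : X univ = ∅ := by
      rw [hX, eq_empty_iff_forall_notMem]
      exact fun e he => (mem_cr.1 he).2.2.2
        (cls_eq_iff.2 (mem_cls.2 ⟨univ, mem_univ _, mem_univ _, hPC'⟩))
    by_cases h : (univ.filter fun Y => 0 < a Y ∧ ((X Y).card : ℝ) < 2 ^ g).Nonempty
    · obtain ⟨Y, h2, h3⟩ := exists_min_image _ card h
      obtain ⟨-, h4, h5⟩ := mem_filter.1 h2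
      refine ⟨Y, h5.le, fun h6 => ?_, Or.inr ⟨h4, h5⟩, fun Y' h6 h7 => ?_⟩
      · rw [h6, pow_zero, Nat.cast_lt_one, card_eq_zero] at h5
        exact h5
      · rcases hch Y Y' h4 h6 with h8 | h8
        · exact h8
        · rw [eq_of_subset_of_card_le h8 (h3 Y' (mem_filter.2 ⟨mem_univ _, h6, h7⟩))]
    · exact ⟨univ, by rw [hu]; simp, fun _ => hu, Or.inl rfl,
        fun Y' h6 h7 => absurd ⟨Y', mem_filter.2 ⟨mem_univ _, h6, h7⟩⟩ h⟩
  choose Yg hY1 hY2 hY3 hY4 using hY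
  set G := Fintype.card E + 1 with hG
  let π : ℕ → V → Finset V := fun g => if g < G then cls u v κ' (Yg g) else fun x => {x}
  have hπ : ∀ g < G, π g = cls u v κ' (Yg g) := fun g hg => if_pos hg
  have hπG : π G = fun x => {x} := if_neg (lt_irrefl G)
  have hcr : ∀ g < G, ((cr u v univ univ (π (g + 1))).card : ℝ) ≤ 2 * 2 ^ g := fun g hg => by
    rw [← pow_succ']
    rcases (Nat.succ_le_of_lt hg).eq_or_lt with h | h
    · have h2 : (cr u v univ univ (π (g + 1))).card ≤ 2 ^ (g + 1) :=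
        (card_le_univ _).trans ((Nat.lt_two_pow_self).le.trans
          (Nat.pow_le_pow_right (by norm_num) (by omega)))
      exact_mod_cast h2
    · rw [hπ _ h]
      simpa only [hX] using hY1 (g + 1)
  have key := average (T := T) (φ := φ) (μ := μ) (pos := pos) (κ := κ') (Ξ := 2 / ξ)
    (ε := ξ ^ 4 / 2) (fun e => sum_nonneg fun Y _ => by split_ifs; exacts [hq Y, le_rfl])
    (by
      have := hμf fun _ => 1
      simp only [mul_one, sum_const, nsmul_eq_mul, hdiv] at this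
      rw [this, ha1])
    (fun z => (hc z).trans (hT z).ge)
    (fun x y => by
      rw [hpos, hT]
      refine sum_congr rfl fun S _ => ?_
      by_cases hx : x ∈ S <;> by_cases hy : y ∈ S <;> simp [dv, Pi.single_apply, hx, hy])
    u v (fun e => by rw [dot_dv]; exact (hR e).2) (by positivity)
    (by linarith [pow_le_one₀ (n := 4) h0.le (show ξ ≤ 1 by linarith)])
    (by rw [le_div_iff₀ h0]; linarith)
    (by
      rw [le_div_iff₀ h0, mul_comm]
      refine le_trans (le_of_eq ?_) hcap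
      simp only [hpos]
      rw [sum_comm]
      congr 1
      refine sum_congr rfl fun S _ => ?_
      rw [← sum_filter, sum_const, nsmul_eq_mul, mul_comm, cut])
    (by
      have h2 : 10 ^ 18 * (2 / ξ) ^ 3 = (10 ^ 18 * 8 * 256) / (256 * ξ ^ 3) := by
        field_simp; norm_num
      have h3 : (ξ ^ 4 / 2) ^ 8 * κ' = ((1 - ξ) * (ξ ^ 35 * κ)) / (256 * ξ ^ 3) := by
        rw [hκ']; field_simp; ring
      rw [h2, h3]
      refine div_le_div_of_nonneg_right ?_ (by positivity)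
      nlinarith)
    G π
    (fun g hg => by
      rcases (Nat.succ_le_of_lt hg).eq_or_lt with h | h
      · intro x y hxy
        rw [show g + 1 = G from h, hπG] at hxy
        rw [singleton_injective hxy]
      · rw [hπ _ h, hπ _ hg]
        refine cls_ref ?_
        rcases hY3 g with h2 | h2
        · rw [h2]; exact subset_univ _
        · exact hY4 _ _ h2.1 (h2.2.trans (pow_lt_pow_right₀ (by norm_num) (by omega))))
    (by rw [hπG]; exact singleton_injective)
    (by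
      rw [hπ 0 (by omega)]
      exact hPC.const_of_cr hκ0 (by simpa only [hX] using hY2 0 rfl))
    (fun g hg => by rw [hπ g hg]; exact (cls_cpc _ _ _ _).mono (subset_univ _))
    (fun g hg => (hPC'.gen _).trans (hcr g hg))
    (fun g hg => le_trans (by
      exact_mod_cast card_le_card fun e he =>
        mem_cr.2 ⟨mem_univ _, mem_univ _, mem_univ _, (mem_lev.1 he).2.1⟩) (hcr g hg))
    (fun g => ∑ Y, if (2 : ℝ) ^ g ≤ (X Y).card then a Y / (X Y).card else 0)
    (fun g => sum_nonneg fun Y _ => by split_ifs; exacts [hq Y, le_rfl])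
    (fun g hg e he => sum_le_sum fun Y _ => by
      rcases (ha0 Y).eq_or_lt with h | h
      · rw [← h]; simp
      · split_ifs with h2 h3 h3
        · exact le_rfl
        · have h4 := hXa _ _ (hY4 g Y h (not_le.1 h3)) h2
          rw [hX] at h4
          rw [hπ g hg] at he
          exact absurd (mem_lev.1 he).2.2 (mem_cr.1 h4).2.2.2
        · exact hq Y
        · exact le_rfl)
    (by
      simp only [sum_mul]
      have h20 : ∑ Y, 2 * a Y = 2 := by rw [← mul_sum, ha1, mul_one]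
      rw [sum_comm]
      refine le_trans (sum_le_sum fun Y _ => ?_) h20.le
      have h2 := mul_le_mul_of_nonneg_left ((pow_sum_le _ (Nat.cast_nonneg (X Y).card) G).trans
        (min_le_left _ _)) (hq Y)
      rw [mul_sum, mul_left_comm, hdiv] at h2
      refine le_trans (le_of_eq (sum_congr rfl fun g _ => ?_)) h2
      rw [ite_mul, mul_ite, zero_mul, mul_zero])
  rw [hμf, ← one_mul (ξ ^ 4 / 2), ← ha1, sum_mul] at key
  refine absurd key (not_lt.2 (sum_le_sum fun Y _ => ?_))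
  rcases (ha0 Y).eq_or_lt with h | h
  · rw [← h]; simp
  · have h2 := cls_cross u v κ' Y
    have h3 := hPC.gen (cls u v κ' Y)
    have h4 : (X Y \ Y).card + (cr u v Y univ (cls u v κ' Y)).card = (X Y).card := by
      rw [← card_sdiff_add_card_inter (X Y) Y]
      congr 2
      ext e
      simp [hX, mem_cr, and_comm]
    have h5 : ((X Y \ Y).card : ℝ) + (cr u v Y univ (cls u v κ' Y)).card = (X Y).card := by
      exact_mod_cast h4
    have h6 : κ * (sz (cls u v κ' Y) - 1) ≤ (X Y).card := by simpa only [hX, sz] using h3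
    have h7 : ξ * (X Y).card ≤ (X Y \ Y).card := by
      nlinarith [mul_le_mul_of_nonneg_left h6 (show 0 ≤ 1 - ξ by linarith)]
    have h8 : (X Y \ Y).card • (ξ ^ 3 / 2) ≤ ∑ e ∈ X Y, φ e ⬝ᵥ dv (u e) (v e) :=
      (card_nsmul_le_sum _ _ _ fun e he => by
        rw [dot_dv]; exact (hlo Y h).2 e (mem_sdiff.1 he).2).trans
        (sum_le_sum_of_subset_of_nonneg sdiff_subset fun e _ _ => by rw [dot_dv]; exact (hR e).1)
    rw [nsmul_eq_mul] at h8
    conv_lhs => rw [← hdiv Y, mul_assoc]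
    refine mul_le_mul_of_nonneg_left (le_trans ?_ h8) (hq Y)
    nlinarith [mul_le_mul_of_nonneg_right h7 (show 0 ≤ ξ ^ 3 / 2 by positivity)]

/-- Halving: half of the partition connectivity with half of every cut. -/
theorem halving [Nonempty V] (u v : E → V) {ξ κ : ℝ} (h0 : 0 < ξ) (h1 : ξ ≤ 1 / 8)
    (hκ : 10 ^ 22 ≤ ξ ^ 35 * κ) (hPC : PC u v κ univ univ) :
    ∃ H : Finset E, PC u v ((1 - 8 * ξ) / 2 * κ) H univ ∧
      ∀ S, (cut u v H S : ℝ) ≤ (1 + 8 * ξ) / 2 * cut u v univ S := by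
  have hκ0 : 0 < κ := by
    by_contra h
    push Not at h
    nlinarith [pow_pos h0 35]
  rcases lemVI u v (hPC.cut_pos hκ0) (fun Y => cr u v univ univ (cls u v ((1 - ξ) * κ) Y))
    (fun Y Y' h e he => by
      simp only [mem_cr] at he ⊢
      exact ⟨he.1, he.2.1, he.2.2.1, fun h2 => he.2.2.2 (cls_ref h _ _ h2)⟩)
    (ξ ^ 3 / 2) ξ (by positivity) h0 with ⟨A, hA1, hA2, hA3, hA4⟩ |
      ⟨a, φ, m, h2, h3, h4, h5, h6, h7, h8, h9⟩
  swap
  · exact (no_dual u v h0 h1 hκ hPC a φ m _ rfl h2 h3 h4 h5 h6 h7 h8 h9).elim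
  set Y := univ.filter fun e => A e e ≤ 2 * (ξ ^ 3 / 2)
  have hY : PC u v ((1 - ξ) * κ) Y univ := by
    obtain ⟨x⟩ := ‹Nonempty V›
    have h2 : cls u v ((1 - ξ) * κ) Y x = univ :=
      eq_univ_iff_forall.2 fun y => cls_eq_iff.1 (hPC.const_of_cr hκ0 hA3 y x)
    exact h2 ▸ cls_pc u v _ Y x
  obtain ⟨F, B, hF, hB1, hB2, hB3, hB4⟩ := lemW u v Y ((1 - ξ) * κ) ξ (ξ ^ 3) h0 (by linarith)
    (by positivity) (pow_le_one₀ h0.le (by linarith)) (by
      rw [div_lt_iff₀ (by positivity)]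
      have h2 : ξ ^ 35 ≤ ξ ^ 8 := pow_le_pow_of_le_one h0.le (by linarith) (by norm_num)
      have h3 := hκ.trans (mul_le_mul_of_nonneg_right h2 hκ0.le)
      nlinarith) hY
  let D : Matrix E E ℝ := diagonal fun e => if e ∈ F then 1 else 0
  have hD : ∀ z : E → ℝ, z ⬝ᵥ (Dᴴ * A * D) *ᵥ z = (D *ᵥ z) ⬝ᵥ A *ᵥ (D *ᵥ z) := fun z => by
    rw [← mulVec_mulVec, ← mulVec_mulVec, dotProduct_mulVec, conjTranspose_eq_transpose_of_trivial,
      vecMul_transpose]
  obtain ⟨S, hS1, hS2⟩ := paving ξ h0 h1 (Dᴴ * A * D) B (hA1.conjTranspose_mul_mul_same D)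
    (by
      refine PosSemidef.of_dotProduct_mulVec_nonneg (isHermitian_one.sub
        (hA1.conjTranspose_mul_mul_same D).isHermitian) fun z => ?_
      have h2 := hA2.dotProduct_mulVec_nonneg (D *ᵥ z)
      rw [star_trivial, sub_mulVec, one_mulVec, dotProduct_sub] at h2 ⊢
      rw [hD]
      have h3 : (D *ᵥ z) ⬝ᵥ (D *ᵥ z) ≤ z ⬝ᵥ z := sum_le_sum fun e _ => by
        simp only [D, mulVec_diagonal]
        split_ifs
        · simp
        · simpa using mul_self_nonneg (z e)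
      linarith) hB1 hB2
    (fun e => by
      simp only [D, diagonal_conjTranspose, mul_diagonal, diagonal_mul, star_trivial]
      split_ifs with h
      · have := (mem_filter.1 (hF h)).2
        linarith
      · simp only [mul_zero]; positivity) hB3
  refine ⟨F \ Sᶜ, (hB4 _ _ (by positivity) (by linarith) hS2).anti univ_nonempty ?_, fun W => ?_⟩
  · have : (1 - 8 * ξ) / 2 ≤ (1 - (1 + 4 * ξ) / 2) * ((1 - ξ) * (1 - ξ)) := by
      nlinarith [mul_nonneg (sq_nonneg ξ) (show 0 ≤ 1 - ξ by linarith)]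
    nlinarith
  · refine (hA4 _ ((1 + 4 * ξ) / 2) (by positivity) (fun z hz => ?_) W).trans
      (mul_le_mul_of_nonneg_right (by nlinarith) (Nat.cast_nonneg _))
    have h2 := hS1 z fun e he => hz e fun h => (mem_sdiff.1 h).2 (mem_compl.2 he)
    have h3 : D *ᵥ z = z := funext fun e => by
      simp only [D, mulVec_diagonal]
      split_ifs with h
      · simp
      · rw [hz e fun h' => h (mem_sdiff.1 h').1, mul_zero]
    rwa [hD, h3] at h2

end Vale.Agent.P061
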