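import Vale.Agent.P061.Basic

/-!
Partitions given by labelings: relative partition connectivity, the spanning tree lemma, and the
partition into maximal partition connected sets.
-/

namespace Vale.Agent.P061

open Finset Relation

set_option linter.unusedSectionVars false

theorem eqv_trans {A : Type} {r : A → A → Prop} {a b c : A} (h1 : EqvGen r a b)
    (h2 : EqvGen r b c) : EqvGen r a c := h1.trans _ _ _ h2

theorem eqv_symm {A : Type} {r : A → A → Prop} {a b : A} (h1 : EqvGen r a b) : EqvGen r b a :=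
  h1.symm _ _

theorem eqv_lift {A B : Type} {r : A → A → Prop} {r' : B → B → Prop} (f : A → B)
    (h : ∀ a b, r a b → EqvGen r' (f a) (f b)) {a b : A} (hab : EqvGen r a b) :
    EqvGen r' (f a) (f b) := by
  induction hab with
  | rel a b h1 => exact h a b h1
  | refl a => exact .refl _
  | symm a b _ ih => exact ih.symm _ _
  | trans a b c _ _ ih1 ih2 => exact ih1.trans _ _ _ ih2

theorem eqv_mono {A : Type} {r r' : A → A → Prop} (h : ∀ a b, r a b → r' a b) {a b : A}
    (hab : EqvGen r a b) : EqvGen r' a b := eqv_lift id (fun a b h' => .rel _ _ (h a b h')) hab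

variable {V E α β : Type} [Fintype V] [DecidableEq V] [DecidableEq E] [DecidableEq α]
  [DecidableEq β]

/-- Number of classes. -/
def sz (p : V → α) : ℕ := (univ.image p).card

/-- Edges of `Y` that cross `p` and do not cross `p'`. -/
def lev (u v : E → V) (Y : Finset E) (p : V → α) (p' : V → β) : Finset E :=
  Y.filter fun e => p (u e) ≠ p (v e) ∧ p' (u e) = p' (v e)

/-- `p` refines `p'`. -/
def Ref (p : V → α) (p' : V → β) : Prop := ∀ x y, p x = p y → p' x = p' y

/-- All classes are partition connected. -/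
def CPC (u v : E → V) (κ : ℝ) (Y : Finset E) (p' : V → β) : Prop :=
  ∀ x, PC u v κ Y (univ.filter fun y => p' y = p' x)

theorem mem_lev {u v : E → V} {Y : Finset E} {p : V → α} {p' : V → β} {e : E} :
    e ∈ lev u v Y p p' ↔ e ∈ Y ∧ p (u e) ≠ p (v e) ∧ p' (u e) = p' (v e) := by
  simp [lev]

theorem Ref.exists_map [Nonempty β] {p : V → α} {p' : V → β} (h : Ref p p') :
    ∃ ρ : α → β, ∀ x, ρ (p x) = p' x := by
  classical
  refine ⟨fun a => if ha : ∃ x, p x = a then p' ha.choose else Classical.arbitrary β, fun x => ?_⟩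
  have hx : ∃ y, p y = p x := ⟨x, rfl⟩
  simp only [dif_pos hx]
  exact h _ _ hx.choose_spec

theorem Ref.sz_le {p : V → α} {p' : V → β} (h : Ref p p') : sz p' ≤ sz p := by
  rcases isEmpty_or_nonempty V with hV | ⟨⟨x⟩⟩
  · simp [sz]
  · have : Nonempty β := ⟨p' x⟩
    obtain ⟨ρ, hρ⟩ := h.exists_map
    have : p' = ρ ∘ p := funext fun x => (hρ x).symm
    rw [this, sz, ← image_image]
    exact card_image_le

theorem CPC.rpc {u v : E → V} {κ : ℝ} {Y : Finset E} {p' : V → β} (h : CPC u v κ Y p')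
    {p : V → α} (hp : Ref p p') : κ * ((sz p : ℝ) - sz p') ≤ (lev u v Y p p').card := by
  have h1 : univ.image p = (univ.image p').biUnion
      fun a => (univ.filter fun y => p' y = a).image p := by
    ext t
    simp only [mem_image, mem_univ, true_and, mem_biUnion, mem_filter]
    exact ⟨fun ⟨x, hx⟩ => ⟨_, ⟨x, rfl⟩, x, rfl, hx⟩, fun ⟨_, _, x, _, hx⟩ => ⟨x, hx⟩⟩
  have h2 : lev u v Y p p' = (univ.image p').biUnion
      fun a => cr u v Y (univ.filter fun y => p' y = a) p := by
    ext e
    simp only [mem_lev, mem_image, mem_univ, true_and, mem_biUnion, mem_filter, mem_cr]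
    exact ⟨fun ⟨h1, h2, h3⟩ => ⟨_, ⟨u e, rfl⟩, h1, rfl, h3.symm, h2⟩,
      fun ⟨_, _, h1, h2, h3, h4⟩ => ⟨h1, h4, h2.trans h3.symm⟩⟩
  rw [h2, card_biUnion, sz, h1, card_biUnion, sz, card_eq_sum_ones (univ.image p')]
  · push_cast
    rw [← sum_sub_distrib, mul_sum]
    refine sum_le_sum fun a ha => ?_
    obtain ⟨x, -, rfl⟩ := mem_image.1 ha
    exact (h x).gen p
  · intro a _ b _ hab
    rw [Function.onFun, disjoint_left]
    intro t h1 h2
    obtain ⟨x, hx, rfl⟩ := mem_image.1 h1
    obtain ⟨y, hy, h3⟩ := mem_image.1 h2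
    exact hab ((mem_filter.1 hx).2.symm.trans ((hp _ _ h3).symm.trans (mem_filter.1 hy).2))
  · intro a _ b _ hab
    rw [Function.onFun, disjoint_left]
    intro e h1 h2
    rw [mem_cr] at h1 h2
    exact hab ((mem_filter.1 h1.2.1).2.symm.trans (mem_filter.1 h2.2.1).2)

/-- Cheap connecting edge set (Kruskal). -/
theorem mst {u v : E → V} {κ : ℝ} (hκ : 0 < κ) {Y : Finset E} {p' : V → β}
    (h : CPC u v κ Y p') (d : E → ℝ) : ∀ (n : ℕ) (p : V → α), sz p = n → Ref p p' →
    ∃ J ⊆ lev u v Y p p', (J.card : ℝ) ≤ sz p - sz p' ∧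
      (∀ x y, p' x = p' y → EqvGen (fun a b => p a = p b ∨ ∃ e ∈ J, a = u e ∧ b = v e) x y) ∧
      ∀ t, (∀ e ∈ lev u v Y p p', t ≤ d e) →
        κ * ∑ e ∈ J, (d e - t) ≤ ∑ e ∈ lev u v Y p p', (d e - t) := by
  intro n
  induction n using Nat.strong_induction_on with
  | _ n ih =>
  intro p hn hp
  rcases (lev u v Y p p').eq_empty_or_nonempty with h0 | h0
  · refine ⟨∅, empty_subset _, ?_, fun x y hxy => .rel _ _ (Or.inl ?_), fun t _ => by simp [h0]⟩
    · have : (sz p' : ℝ) ≤ sz p := by exact_mod_cast hp.sz_le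
      simpa using this
    · have h1 := (h x).gen p
      have h2 : cr u v Y (univ.filter fun y => p' y = p' x) p = ∅ := by
        rw [eq_empty_iff_forall_notMem] at h0 ⊢
        intro e he
        rw [mem_cr] at he
        exact h0 e (mem_lev.2 ⟨he.1, he.2.2.2,
          (mem_filter.1 he.2.1).2.trans (mem_filter.1 he.2.2.1).2.symm⟩)
      rw [h2, card_empty, Nat.cast_zero] at h1
      have h3 : (((univ.filter fun y => p' y = p' x).image p).card : ℝ) ≤ 1 := by
        by_contra h4
        push Not at h4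
        nlinarith
      exact card_le_one.1 (by exact_mod_cast h3) _ (mem_image_of_mem p (by simp))
        _ (mem_image_of_mem p (by simp [hxy]))
  · obtain ⟨e0, he0, hmin⟩ := exists_min_image _ d h0
    have he := mem_lev.1 he0
    let p1 : V → α := fun x => if p x = p (v e0) then p (u e0) else p x
    have hp1 : Ref p p1 := fun x y hxy => by simp only [p1, hxy]
    have hp1' : Ref p1 p' := by
      intro x y hxy
      simp only [p1] at hxy
      split_ifs at hxy with h1 h2 h2
      · exact hp _ _ (h1.trans h2.symm)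
      · exact (hp _ _ h1).trans (he.2.2.symm.trans (hp _ _ hxy))
      · exact (hp _ _ hxy).trans (he.2.2.trans (hp _ _ h2).symm)
      · exact hp _ _ hxy
    have hs : sz p1 + 1 ≤ sz p := by
      apply card_lt_card
      refine ⟨fun t ht => ?_, fun hh => ?_⟩
      · obtain ⟨x, -, rfl⟩ := mem_image.1 ht
        simp only [p1]
        split_ifs <;> exact mem_image_of_mem p (mem_univ _)
      · obtain ⟨x, -, hx⟩ := mem_image.1 (hh (mem_image_of_mem p (mem_univ (v e0))))
        simp only [p1] at hx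
        split_ifs at hx with h1
        · exact he.2.1 hx
        · exact h1 hx
    obtain ⟨J, hJ1, hJ2, hJ3, hJ4⟩ := ih (sz p1) (by omega) p1 rfl hp1'
    have hsub : lev u v Y p1 p' ⊆ lev u v Y p p' := fun e h1 => by
      rw [mem_lev] at h1 ⊢
      exact ⟨h1.1, fun h2 => h1.2.1 (hp1 _ _ h2), h1.2.2⟩
    have hnot : e0 ∉ J := fun h1 => by
      have := (mem_lev.1 (hJ1 h1)).2.1
      simp [p1] at this
    have hcard : ((insert e0 J).card : ℝ) ≤ sz p - sz p' := by
      rw [card_insert_of_notMem hnot]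
      have : (sz p1 : ℝ) + 1 ≤ sz p := by exact_mod_cast hs
      push_cast
      linarith
    refine ⟨insert e0 J, insert_subset he0 (hJ1.trans hsub), hcard, fun x y hxy => ?_,
      fun t ht => ?_⟩
    · refine eqv_lift id (fun a b hab => ?_) (hJ3 x y hxy)
      have h0 : EqvGen (fun a b => p a = p b ∨ ∃ e ∈ insert e0 J, a = u e ∧ b = v e)
          (u e0) (v e0) := .rel _ _ (Or.inr ⟨e0, mem_insert_self _ _, rfl, rfl⟩)
      rcases hab with hab | ⟨e, he, h1⟩
      · simp only [p1] at hab
        split_ifs at hab with h1 h2 h2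
        · exact .rel _ _ (Or.inl (h1.trans h2.symm))
        · exact eqv_trans (b := v e0) (.rel _ _ (Or.inl h1))
            (eqv_trans (eqv_symm h0) (.rel _ _ (Or.inl hab)))
        · exact eqv_trans (b := u e0) (.rel _ _ (Or.inl hab))
            (eqv_trans h0 (.rel _ _ (Or.inl h2.symm)))
        · exact .rel _ _ (Or.inl hab)
      · exact .rel _ _ (Or.inr ⟨e, mem_insert_of_mem he, h1⟩)
    · have h1 := hJ4 (d e0) fun e he => hmin e (hsub he)
      have h2 : ∑ e ∈ lev u v Y p1 p', (d e - d e0) ≤ ∑ e ∈ lev u v Y p p', (d e - d e0) :=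
        sum_le_sum_of_subset_of_nonneg hsub fun e he _ => sub_nonneg.2 (hmin e he)
      have h3 := h.rpc hp
      have h4 := ht e0 he0
      have h5 : ∀ S : Finset E, ∑ e ∈ S, (d e - t) =
          ∑ e ∈ S, (d e - d e0) + S.card * (d e0 - t) := fun S => by
        rw [← nsmul_eq_mul, ← sum_const, ← sum_add_distrib]
        exact sum_congr rfl fun _ _ => by ring
      rw [h5, h5 (lev u v Y p p'), sum_insert hnot, sub_self, zero_add]
      have h6 : κ * (insert e0 J).card ≤ (lev u v Y p p').card :=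
        (mul_le_mul_of_nonneg_left hcard hκ.le).trans h3
      nlinarith [mul_le_mul_of_nonneg_right h6 (sub_nonneg.2 h4)]

theorem PC.union {u v : E → V} {κ : ℝ} {Y : Finset E} {W1 W2 : Finset V} (h1 : PC u v κ Y W1)
    (h2 : PC u v κ Y W2) {x : V} (hx1 : x ∈ W1) (hx2 : x ∈ W2) : PC u v κ Y (W1 ∪ W2) := by
  refine PC.combine subset_union_left ⟨x, hx1⟩ h1 fun p hp => ?_
  have h3 : (W1 ∪ W2).image p = W2.image p := by
    rw [image_union]
    refine union_eq_right.2 fun t ht => ?_
    obtain ⟨y, hy, rfl⟩ := mem_image.1 ht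
    exact mem_image.2 ⟨x, hx2, hp _ hx1 _ hy⟩
  rw [h3]
  refine (h2 p).trans ?_
  have : cr u v Y W2 p ⊆ cr u v Y (W1 ∪ W2) p := fun e he => by
    rw [mem_cr] at he ⊢
    exact ⟨he.1, mem_union_right _ he.2.1, mem_union_right _ he.2.2.1, he.2.2.2⟩
  exact_mod_cast card_le_card this

open Classical in
/-- The maximal partition connected set through `x`. -/
noncomputable def cls (u v : E → V) (κ : ℝ) (Y : Finset E) (x : V) : Finset V :=
  univ.filter fun y => ∃ W, x ∈ W ∧ y ∈ W ∧ PC u v κ Y W

theorem mem_cls {u v : E → V} {κ : ℝ} {Y : Finset E} {x y : V} :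
    y ∈ cls u v κ Y x ↔ ∃ W, x ∈ W ∧ y ∈ W ∧ PC u v κ Y W := by
  simp [cls]

theorem self_mem_cls (u v : E → V) (κ : ℝ) (Y : Finset E) (x : V) : x ∈ cls u v κ Y x :=
  mem_cls.2 ⟨{x}, by simp, by simp, PC.singleton _ _ _ _ _⟩

theorem cls_pc (u v : E → V) (κ : ℝ) (Y : Finset E) (x : V) : PC u v κ Y (cls u v κ Y x) := by
  classical
  obtain ⟨W, hW, hmax⟩ := exists_max_image
    (univ.filter fun W : Finset V => x ∈ W ∧ PC u v κ Y W) card
    ⟨{x}, by simp [PC.singleton]⟩
  obtain ⟨-, h1, h2⟩ := mem_filter.1 hW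
  have : cls u v κ Y x = W := by
    ext y
    rw [mem_cls]
    refine ⟨fun ⟨W', h3, h4, h5⟩ => ?_, fun h => ⟨W, h1, h, h2⟩⟩
    have h6 := hmax (W ∪ W') (mem_filter.2 ⟨mem_univ _, mem_union_left _ h1, h2.union h5 h1 h3⟩)
    rw [eq_of_subset_of_card_le subset_union_left h6]
    exact mem_union_right _ h4
  rwa [this]

theorem cls_eq_iff {u v : E → V} {κ : ℝ} {Y : Finset E} {x y : V} :
    cls u v κ Y y = cls u v κ Y x ↔ y ∈ cls u v κ Y x := by
  refine ⟨fun h => h ▸ self_mem_cls _ _ _ _ _, fun h => ?_⟩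
  obtain ⟨W, h1, h2, h3⟩ := mem_cls.1 h
  ext z
  simp only [mem_cls]
  exact ⟨fun ⟨W', h4, h5, h6⟩ => ⟨W ∪ W', mem_union_left _ h1, mem_union_right _ h5,
      h3.union h6 h2 h4⟩,
    fun ⟨W', h4, h5, h6⟩ => ⟨W ∪ W', mem_union_left _ h2, mem_union_right _ h5,
      h3.union h6 h1 h4⟩⟩

theorem cls_cpc (u v : E → V) (κ : ℝ) (Y : Finset E) : CPC u v κ Y (cls u v κ Y) := by
  intro x
  have : (univ.filter fun y => cls u v κ Y y = cls u v κ Y x) = cls u v κ Y x := by
    ext y
    simp [cls_eq_iff]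
  rw [this]
  exact cls_pc _ _ _ _ _

theorem CPC.ref_cls {u v : E → V} {κ : ℝ} {Y : Finset E} {p : V → α} (h : CPC u v κ Y p) :
    Ref p (cls u v κ Y) := fun x y hxy =>
  cls_eq_iff.2 (mem_cls.2 ⟨_, by simp, by simp [hxy], h y⟩)

theorem CPC.mono {u v : E → V} {κ : ℝ} {Y Y' : Finset E} {p : V → α} (h : CPC u v κ Y p)
    (hY : Y ⊆ Y') : CPC u v κ Y' p := fun x => (h x).mono hY

theorem cls_ref {u v : E → V} {κ : ℝ} {Y Y' : Finset E} (hY : Y ⊆ Y') :
    Ref (cls u v κ Y) (cls u v κ Y') := ((cls_cpc u v κ Y).mono hY).ref_cls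

/-- Few edges of `Y` cross the partition into maximal partition connected sets. -/
theorem cls_cross [Nonempty V] (u v : E → V) (κ : ℝ) (Y : Finset E) :
    ((cr u v Y univ (cls u v κ Y)).card : ℝ) ≤ κ * ((sz (cls u v κ Y) : ℝ) - 1) := by
  let f : (V → ℕ) → ℝ := fun p => κ * sz p - (cr u v Y univ p).card
  obtain ⟨p, -, hmax⟩ := Set.Finite.exists_maximalFor' f Set.univ (by
    refine ((((range (Fintype.card V + 1)) ×ˢ (range (Y.card + 1))).image
      fun t : ℕ × ℕ => κ * t.1 - (t.2 : ℝ)).finite_toSet).subset ?_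
    rintro _ ⟨p, -, rfl⟩
    simp only [coe_image, Set.mem_image, mem_coe, mem_product, mem_range]
    refine ⟨(sz p, (cr u v Y univ p).card), ⟨?_, ?_⟩, rfl⟩
    · exact Nat.lt_succ_of_le card_image_le
    · exact Nat.lt_succ_of_le (card_filter_le _ _)) ⟨fun _ => 0, trivial⟩
  have hm : ∀ q, f q ≤ f p := fun q => by
    by_contra h
    push Not at h
    exact absurd (hmax (Set.mem_univ q) h.le) (not_le.2 h)
  have hc : CPC u v κ Y p := by
    intro x q
    set W := univ.filter fun y => p y = p x with hW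
    let p' : V → ℕ := fun y => if p y = p x then 2 * q y + 1 else 2 * p y
    have h1 : univ.image p' = (W.image q).image (fun n => 2 * n + 1) ∪
        ((univ.image p).erase (p x)).image (fun n => 2 * n) := by
      ext t
      simp only [mem_image, mem_univ, true_and, mem_union, mem_erase, hW, mem_filter, p']
      constructor
      · rintro ⟨y, rfl⟩
        split_ifs with h
        · exact Or.inl ⟨_, ⟨y, h, rfl⟩, rfl⟩
        · exact Or.inr ⟨_, ⟨h, y, rfl⟩, rfl⟩
      · rintro (⟨_, ⟨y, h, rfl⟩, rfl⟩ | ⟨_, ⟨h, y, rfl⟩, rfl⟩)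
        · exact ⟨y, if_pos h⟩
        · exact ⟨y, if_neg h⟩
    have h2 : sz p' + 1 = (W.image q).card + sz p := by
      rw [sz, h1, card_union_of_disjoint, card_image_of_injective (W.image q),
        card_image_of_injective ((univ.image p).erase (p x)),
        add_assoc, card_erase_add_one (mem_image_of_mem p (mem_univ x)), sz]
      · intro a b h; simp only at h; omega
      · intro a b h; simp only at h; omega
      · rw [disjoint_left]
        intro t h3 h4
        obtain ⟨a, -, rfl⟩ := mem_image.1 h3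
        obtain ⟨b, -, h5⟩ := mem_image.1 h4
        omega
    have h3 : (cr u v Y univ p').card ≤ (cr u v Y univ p).card + (cr u v Y W q).card := by
      refine le_trans (card_le_card fun e he => ?_) (card_union_le _ _)
      simp only [mem_union, mem_cr, mem_univ, true_and, hW, mem_filter, p'] at he ⊢
      by_cases h4 : p (u e) = p (v e)
      · right
        have h5 := he.2
        rw [h4] at h5 ⊢
        by_cases h6 : p (v e) = p x
        · rw [if_pos h6, if_pos h6] at h5
          exact ⟨he.1, h6, h6, fun h7 => h5 (by rw [h7])⟩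
        · rw [if_neg h6, if_neg h6] at h5
          exact absurd rfl h5
      · exact Or.inl ⟨he.1, h4⟩
    have h4 := hm p'
    simp only [f] at h4
    have h5 : (sz p' : ℝ) + 1 = (W.image q).card + sz p := by exact_mod_cast h2
    have h6 : ((cr u v Y univ p').card : ℝ) ≤ (cr u v Y univ p).card + (cr u v Y W q).card := by
      exact_mod_cast h3
    have h7 : (sz p' : ℝ) = (W.image q).card + sz p - 1 := by linarith
    rw [h7] at h4
    nlinarith
  have h1 := (cls_cpc u v κ Y).rpc hc.ref_cls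
  have h2 := hm fun _ => 0
  have h3 : sz (fun _ : V => 0) = 1 := by rw [sz, image_const univ_nonempty, card_singleton]
  have h4 : cr u v Y univ (fun _ : V => 0) = ∅ := by simp [cr]
  simp only [f, h3, h4] at h2
  have h5 : (lev u v Y p (cls u v κ Y)).card + (cr u v Y univ (cls u v κ Y)).card ≤
      (cr u v Y univ p).card := by
    rw [← card_union_of_disjoint]
    · refine card_le_card fun e he => ?_
      simp only [mem_union, mem_cr, mem_lev, mem_univ, true_and] at he ⊢
      rcases he with he | he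
      · exact ⟨he.1, he.2.1⟩
      · exact ⟨he.1, fun h => he.2 (hc.ref_cls _ _ h)⟩
    · rw [disjoint_left]
      intro e h6 h7
      exact (mem_cr.1 h7).2.2.2 (mem_lev.1 h6).2.2
  have h6 : ((lev u v Y p (cls u v κ Y)).card : ℝ) + (cr u v Y univ (cls u v κ Y)).card ≤
      (cr u v Y univ p).card := by exact_mod_cast h5
  simp at h2
  nlinarith

end Vale.Agent.P061
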