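import Vale.Agent.P061.Comb

/-!
Discretised Steiner trees for the classes of a partition; merging and surgery.
-/

namespace Vale.Agent.P061

open Finset Relation

set_option linter.unusedSectionVars false

variable {V E α X : Type} [Fintype V] [DecidableEq V] [DecidableEq E] [DecidableEq α]
  [NormedAddCommGroup X] [NormedSpace ℝ X] [DecidableEq X]

/-- Tagged points with the same tag at distance at most `η`. -/
def Adj (η : ℝ) (N : Finset (α × X)) (a b : α × X) : Prop :=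
  a ∈ N ∧ b ∈ N ∧ a.1 = b.1 ∧ dist a.2 b.2 ≤ η

/-- Chain connected nets covering the classes of `π`. -/
structure St (pos : V → X) (π : V → α) (η δ : ℝ) (N : Finset (α × X)) : Prop where
  con : ∀ a ∈ N, ∀ b ∈ N, a.1 = b.1 → EqvGen (Adj η N) a b
  cov : ∀ x, ∃ q, (π x, q) ∈ N ∧ dist (pos x) q ≤ δ
  tag : ∀ a ∈ N, ∃ x, π x = a.1

theorem seg {η : ℝ} (hη : 0 < η) (c : α) (p : X) (n : ℕ) : ∀ q : X, dist p q ≤ (n + 1) * η →
    ∃ P : Finset X, P.card ≤ n ∧ ∀ N : Finset (α × X), (c, p) ∈ N → (c, q) ∈ N →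
      (∀ z ∈ P, (c, z) ∈ N) → EqvGen (Adj η N) (c, p) (c, q) ∧
        ∀ z ∈ P, EqvGen (Adj η N) (c, p) (c, z) := by
  induction n with
  | zero =>
    intro q h
    exact ⟨∅, le_rfl, fun N h1 h2 _ => ⟨.rel _ _ ⟨h1, h2, rfl, by simpa using h⟩, by simp⟩⟩
  | succ n ih =>
    intro q h
    obtain ⟨y, h1, h2⟩ := exists_dist_le_le (x := p) (z := q) (δ := (n + 1) * η) (ε := η)
      (by positivity) hη.le (by push_cast at h; linarith)
    obtain ⟨P, h3, h4⟩ := ih y h1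
    refine ⟨insert y P, (card_insert_le _ _).trans (by omega), fun N h5 h6 h7 => ?_⟩
    have h8 := h7 y (mem_insert_self _ _)
    obtain ⟨h9, h10⟩ := h4 N h5 h8 fun z hz => h7 z (mem_insert_of_mem hz)
    refine ⟨eqv_trans h9 (.rel _ _ ⟨h8, h6, rfl, h2⟩), fun z hz => ?_⟩
    rcases mem_insert.1 hz with rfl | hz
    · exact h9
    · exact h10 z hz

theorem assemble {η : ℝ} (hη : 0 < η) (K : Finset (α × X)) (ρ : α → α) {ι : Type} (A : Finset ι)
    (s t : ι → α × X) (hs : ∀ i ∈ A, s i ∈ K ∧ t i ∈ K ∧ ρ (s i).1 = ρ (t i).1)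
    (hc : ∀ a ∈ K, ∀ b ∈ K, ρ a.1 = ρ b.1 →
      EqvGen (fun a b => Adj η K a b ∨ ∃ i ∈ A, a = s i ∧ b = t i) a b) :
    ∃ N : Finset (α × X), (∀ a ∈ N, ∀ b ∈ N, a.1 = b.1 → EqvGen (Adj η N) a b) ∧
      (∀ a ∈ K, (ρ a.1, a.2) ∈ N) ∧ (∀ a ∈ N, ∃ b ∈ K, ρ b.1 = a.1) ∧
      η * N.card ≤ η * K.card + ∑ i ∈ A, dist (s i).2 (t i).2 := by
  have h1 := fun i => seg hη (ρ (s i).1) (s i).2 ⌊dist (s i).2 (t i).2 / η⌋₊ (t i).2
    (by rw [← div_le_iff₀ hη]; exact (Nat.lt_floor_add_one _).le)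
  choose P hP1 hP2 using h1
  let f : α × X → α × X := fun a => (ρ a.1, a.2)
  set N := K.image f ∪ A.biUnion fun i => (P i).image fun z => (ρ (s i).1, z) with hN
  have h2 : ∀ a ∈ K, f a ∈ N := fun a ha => mem_union_left _ (mem_image_of_mem f ha)
  have h3 : ∀ i ∈ A, EqvGen (Adj η N) (f (s i)) (f (t i)) ∧
      ∀ z ∈ P i, EqvGen (Adj η N) (f (s i)) (ρ (s i).1, z) := fun i hi => by
    have h4 : f (t i) = (ρ (s i).1, (t i).2) := by rw [(hs i hi).2.2]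
    rw [h4]
    exact hP2 i N (h2 _ (hs i hi).1) (h4 ▸ h2 _ (hs i hi).2.1) fun z hz =>
      mem_union_right _ (mem_biUnion.2 ⟨i, hi, mem_image_of_mem _ hz⟩)
  have h4 : ∀ a ∈ N, ∃ b ∈ K, ρ b.1 = a.1 ∧ EqvGen (Adj η N) (f b) a := fun a ha => by
    rcases mem_union.1 ha with h | h
    · obtain ⟨b, hb, rfl⟩ := mem_image.1 h
      exact ⟨b, hb, rfl, .refl _⟩
    · obtain ⟨i, hi, h⟩ := mem_biUnion.1 h
      obtain ⟨z, hz, rfl⟩ := mem_image.1 h
      exact ⟨s i, (hs i hi).1, rfl, (h3 i hi).2 z hz⟩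
  refine ⟨N, fun a ha b hb hab => ?_, h2, fun a ha => ?_, ?_⟩
  · obtain ⟨a', ha', h5, h6⟩ := h4 a ha
    obtain ⟨b', hb', h7, h8⟩ := h4 b hb
    refine eqv_trans (eqv_symm h6) (eqv_trans (eqv_lift f (fun x y hxy => ?_)
      (hc a' ha' b' hb' (h5.trans (hab.trans h7.symm)))) h8)
    rcases hxy with ⟨h9, h10, h11, h12⟩ | ⟨i, hi, rfl, rfl⟩
    · exact .rel _ _ ⟨h2 _ h9, h2 _ h10, congrArg ρ h11, h12⟩
    · exact (h3 i hi).1
  · obtain ⟨b, hb, h5, -⟩ := h4 a ha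
    exact ⟨b, hb, h5⟩
  · have h5 : N.card ≤ K.card + ∑ i ∈ A, ⌊dist (s i).2 (t i).2 / η⌋₊ :=
      (card_union_le _ _).trans (Nat.add_le_add card_image_le (card_biUnion_le.trans
        (sum_le_sum fun i _ => card_image_le.trans (hP1 i))))
    have h6 : (N.card : ℝ) ≤ K.card + ∑ i ∈ A, (⌊dist (s i).2 (t i).2 / η⌋₊ : ℝ) := by
      exact_mod_cast h5
    refine (mul_le_mul_of_nonneg_left h6 hη.le).trans ?_
    rw [mul_add, mul_sum]
    refine add_le_add le_rfl (sum_le_sum fun i _ => ?_)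
    rw [mul_comm, ← le_div_iff₀ hη]
    exact Nat.floor_le (by positivity)

theorem merge_con {u v : E → V} {π π' : V → α} {ρ : α → α} (hρ : ∀ x, ρ (π x) = π' x)
    {J : Finset E} (hJ : ∀ x y, π' x = π' y →
      EqvGen (fun a b => π a = π b ∨ ∃ e ∈ J, a = u e ∧ b = v e) x y)
    {K : Finset (α × X)} {r : α × X → α × X → Prop} {q : V → X}
    (h1 : ∀ a ∈ K, ∀ b ∈ K, a.1 = b.1 → EqvGen r a b) (h2 : ∀ x, ∃ b ∈ K, b.1 = π x)
    (h3 : ∀ a ∈ K, ∃ x, π x = a.1)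
    (h4 : ∀ e ∈ J, (π (u e), q (u e)) ∈ K ∧ (π (v e), q (v e)) ∈ K ∧
      r (π (u e), q (u e)) (π (v e), q (v e))) :
    ∀ a ∈ K, ∀ b ∈ K, ρ a.1 = ρ b.1 → EqvGen r a b := by
  choose g hg1 hg2 using h2
  intro a ha b hb hab
  obtain ⟨x, hx⟩ := h3 a ha
  obtain ⟨y, hy⟩ := h3 b hb
  have h5 := eqv_lift (r' := r) g (fun s t hst => by
    rcases hst with h | ⟨e, he, rfl, rfl⟩
    · exact h1 _ (hg1 s) _ (hg1 t) (by rw [hg2, hg2, h])
    · exact eqv_trans (h1 _ (hg1 _) _ (h4 e he).1 (hg2 _)) (eqv_trans (.rel _ _ (h4 e he).2.2)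
        (h1 _ (h4 e he).2.1 _ (hg1 _) (hg2 _).symm)))
    (hJ x y (by rw [← hρ, ← hρ, hx, hy, hab]))
  exact eqv_trans (h1 _ ha _ (hg1 x) (by rw [hg2, hx])) (eqv_trans h5
    (h1 _ (hg1 y) _ hb (by rw [hg2, hy])))

theorem junction {u v : E → V} {κ : ℝ} (hκ : 0 < κ) {Y : Finset E} {π π' : V → α} (hr : Ref π π')
    (h : CPC u v κ Y π') (pos q : V → X) {δ : ℝ} (hδ : 0 ≤ δ) (hq : ∀ x, dist (pos x) (q x) ≤ δ) :
    ∃ J : Finset E, (∀ e ∈ J, π' (u e) = π' (v e)) ∧ (J.card : ℝ) ≤ sz π - sz π' ∧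
      (∀ x y, π' x = π' y → EqvGen (fun a b => π a = π b ∨ ∃ e ∈ J, a = u e ∧ b = v e) x y) ∧
      ∑ e ∈ J, dist (q (u e)) (q (v e)) ≤
        (∑ e ∈ lev u v Y π π', dist (pos (u e)) (pos (v e))) / κ + 2 * δ * (sz π - sz π') := by
  obtain ⟨J, h1, h2, h3, h4⟩ := mst hκ h (fun e => dist (pos (u e)) (pos (v e))) _ π rfl hr
  refine ⟨J, fun e he => (mem_lev.1 (h1 he)).2.2, h2, h3, ?_⟩
  have h5 := h4 0 fun _ _ => dist_nonneg
  simp only [sub_zero] at h5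
  have h6 : ∑ e ∈ J, dist (q (u e)) (q (v e)) ≤
      ∑ e ∈ J, (dist (pos (u e)) (pos (v e)) + 2 * δ) := sum_le_sum fun e _ => by
    have h7 := dist_triangle4 (q (u e)) (pos (u e)) (pos (v e)) (q (v e))
    rw [dist_comm (q (u e)) (pos (u e))] at h7
    linarith [hq (u e), hq (v e)]
  rw [sum_add_distrib, sum_const, nsmul_eq_mul] at h6
  have h7 : ∑ e ∈ J, dist (pos (u e)) (pos (v e)) ≤
      (∑ e ∈ lev u v Y π π', dist (pos (u e)) (pos (v e))) / κ := by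
    rw [le_div_iff₀ hκ]; linarith
  nlinarith

/-- Merging without surgery. -/
theorem step_plain [Nonempty α] {u v : E → V} {κ : ℝ} (hκ : 0 < κ) {Y : Finset E} {π π' : V → α}
    (hr : Ref π π') (h : CPC u v κ Y π') {pos : V → X} {η δ : ℝ} (hη : 0 < η) (hδ : 0 ≤ δ)
    {N : Finset (α × X)} (S : St pos π η δ N) : ∃ N', St pos π' η δ N' ∧ η * N'.card ≤ η * N.card +
      ((∑ e ∈ lev u v Y π π', dist (pos (u e)) (pos (v e))) / κ + 2 * δ * (sz π - sz π')) := by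
  obtain ⟨ρ, hρ⟩ := hr.exists_map
  choose q hq1 hq2 using S.cov
  obtain ⟨J, h1, -, h3, h4⟩ := junction hκ hr h pos q hδ hq2
  obtain ⟨N', h5, h6, h7, h8⟩ := assemble hη N ρ J (fun e => (π (u e), q (u e)))
    (fun e => (π (v e), q (v e))) (fun e he => ⟨hq1 _, hq1 _, by simp only [hρ, h1 e he]⟩)
    (merge_con hρ h3 (q := q) (fun a ha b hb hab =>
      eqv_mono (fun s t hst => Or.inl hst) (S.con a ha b hb hab))
      (fun x => ⟨_, hq1 x, rfl⟩) S.tag fun e he => ⟨hq1 _, hq1 _, Or.inr ⟨e, he, rfl, rfl⟩⟩)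
  refine ⟨N', ⟨h5, fun x => ⟨q x, by simpa only [hρ] using h6 _ (hq1 x), hq2 x⟩, fun a ha => ?_⟩,
    by linarith⟩
  obtain ⟨b, hb, h9⟩ := h7 a ha
  obtain ⟨x, hx⟩ := S.tag b hb
  exact ⟨x, by rw [← hρ, hx, h9]⟩

theorem St.forest {pos : V → X} {π : V → α} {η δ : ℝ} (hη : 0 < η) {N : Finset (α × X)}
    (S : St pos π η δ N) : ∃ (par : α × X → α × X) (ht : α × X → ℕ) (rt : α → α × X),
      Fo N par ht ∧ (∀ a ∈ N, ∀ k, (par^[k] a).1 = a.1 ∧ dist a.2 (par^[k] a).2 ≤ k * η) ∧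
      ∀ a ∈ N, par^[ht a] a = rt a.1 := by
  classical
  let rt : α → α × X := fun c => if h : ∃ b ∈ N, b.1 = c then h.choose else (c, 0)
  have h1 : ∀ c, (rt c).1 = c := fun c => by
    simp only [rt]
    split_ifs with h
    · exact h.choose_spec.2
    · rfl
  have h2 : ∀ a ∈ N, rt a.1 ∈ N := fun a ha => by
    have h : ∃ b ∈ N, b.1 = a.1 := ⟨a, ha, rfl⟩
    simp only [rt, dif_pos h]
    exact h.choose_spec.1
  have : Std.Symm (Adj η N) := ⟨fun a b h => ⟨h.2.1, h.1, h.2.2.1.symm, dist_comm a.2 b.2 ▸ h.2.2.2⟩⟩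
  obtain ⟨par, ht, F, h3, h4⟩ := bfs N (Adj η N) (fun a => rt a.1)
    (fun a b h => ⟨h.2.1, by rw [h.2.2.1]⟩) (fun a => by rw [h1]) fun a ha => by
      rw [← EqvGen.eqvGen_eq_reflTransGen]
      exact S.con a ha _ (h2 a ha) (h1 _).symm
  refine ⟨par, ht, rt, F, fun a ha k => ?_, h4⟩
  induction k with
  | zero => simp
  | succ k ih =>
    rw [Function.iterate_succ_apply']
    push_cast
    rcases h3 _ (F.it_mem ha k) with h | h
    · rw [h]
      exact ⟨ih.1, by linarith [ih.2]⟩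
    · exact ⟨h.2.2.1.symm.trans ih.1, (dist_triangle _ (par^[k] a).2 _).trans
        (by linarith [ih.2, h.2.2.2])⟩

theorem surg_arith {η δ β Λ b L K Z I I' Nr Jr s : ℝ} (hη : 0 < η) (hδ : η ≤ δ)
    (hβ : 100 * δ ≤ β) (hΛ : 1 ≤ Λ) (hb1 : b * η ≤ β / 4) (hb2 : β / 8 ≤ b * η)
    (hL2 : L * η ≤ (2 * Λ + 1) * β + η) (hL3 : 2 ≤ L) (hZ : 0 ≤ Z) (hI : 0 ≤ I') (hJ : 0 ≤ Jr)
    (hJc : Jr ≤ 3 * s) (h13 : I ≤ 4 * I')
    (h12 : 7 * K + 7 * ((2 * L + 1) * Z) + b * I' ≤ 7 * Nr + (b + 6 * L) * Jr + (2 * L + 3) * Z) :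
    η * K + Z * ((3 * L / 2 + 1) * η) ≤ η * Nr - β * I / 224 + 9 * Λ * β * s := by
  have hβ0 : 0 < β := by linarith
  have h15 : 7 * K + 7 * (Z * (3 * L / 2 + 1)) + b * I' ≤ 7 * Nr + (b + 6 * L) * Jr := by
    nlinarith [mul_nonneg hZ (sub_nonneg.2 hL3)]
  have h16 := mul_le_mul_of_nonneg_left h15 hη.le
  have h17 : β * I / 32 ≤ η * (b * I') := by
    nlinarith [mul_le_mul_of_nonneg_right hb2 hI, mul_le_mul_of_nonneg_left h13 hβ0.le]
  have h18 : η * ((b + 6 * L) * Jr) ≤ 63 * Λ * β * s := by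
    have h19 : η * (b + 6 * L) ≤ 21 * Λ * β := by
      nlinarith [mul_le_mul_of_nonneg_right hΛ hβ0.le]
    have h21 : 0 ≤ 21 * Λ * β := by positivity
    nlinarith [mul_le_mul_of_nonneg_right h19 hJ, mul_le_mul_of_nonneg_left hJc h21]
  linarith

/-- Merging with surgery. -/
theorem step_surg [Nonempty α] [Nonempty V] {u v : E → V} {κ : ℝ} (hκ : 0 < κ) {Y : Finset E} {π π' : V → α}
    (hr : Ref π π') (h : CPC u v κ Y π') {pos : V → X} {η δ β Λ : ℝ} (hη : 0 < η) (hδ : η ≤ δ)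
    (hβ : 100 * δ ≤ β) (hΛ : 1 ≤ Λ) {N : Finset (α × X)} (S : St pos π η δ N)
    (I : Finset (V × V)) (hI : ∀ i ∈ I, π i.1 ≠ π i.2 ∧ π' i.1 = π' i.2 ∧
      dist (pos i.1) (pos i.2) ≤ Λ * β)
    (hsep : ∀ i ∈ I, ∀ j ∈ I, dist (pos i.1) (pos j.1) < β → i = j) :
    ∃ N', St pos π' η ((6 * Λ + 4) * β) N' ∧ η * N'.card ≤ η * N.card +
      ((∑ e ∈ lev u v Y π π', dist (pos (u e)) (pos (v e))) / κ + 2 * δ * (sz π - sz π')) -
      β * I.card / 224 + 9 * Λ * β * sz π := by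
  obtain ⟨ρ, hρ⟩ := hr.exists_map
  choose q hq1 hq2 using S.cov
  have hβ0 : 0 < β := by linarith
  obtain ⟨J, hJ1, hJ2, hJ3, hJ4⟩ := junction hκ hr h pos q (by linarith) hq2
  obtain ⟨par, ht, rt, F, hit, hrt⟩ := S.forest hη
  obtain ⟨R, hR⟩ := red_blue I (fun i => π i.1) (fun i => π i.2) fun i hi => (hI i hi).1
  set I' := I.filter fun i => π i.1 ∈ R ∧ π i.2 ∉ R
  set Nr := N.filter fun a => a.1 ∈ R
  set Nb := N.filter fun a => ¬ a.1 ∈ R
  have Fr : Fo Nr par ht := ⟨fun a ha => mem_filter.2 ⟨F.mem a (mem_filter.1 ha).1, by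
      have := (hit a (mem_filter.1 ha).1 1).1
      simp only [Function.iterate_one] at this
      rw [this]; exact (mem_filter.1 ha).2⟩,
    fun a ha => F.ht_par a (mem_filter.1 ha).1, fun a ha => F.root a (mem_filter.1 ha).1⟩
  let f : V → α × X := fun x => (π x, q x)
  set Jr := (Nr.filter fun a => ht a = 0) ∪
    (J.image (fun e => f (u e)) ∪ J.image fun e => f (v e)).filter fun a => a.1 ∈ R
  have hJr : Jr ⊆ Nr := union_subset (filter_subset _ _) fun a ha => by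
    obtain ⟨h1, h2⟩ := mem_filter.1 ha
    refine mem_filter.2 ⟨?_, h2⟩
    rcases mem_union.1 h1 with h3 | h3 <;> obtain ⟨e, -, rfl⟩ := mem_image.1 h3 <;> exact hq1 _
  have hJc : (Jr.card : ℝ) ≤ 3 * sz π := by
    have h1 : (Nr.filter fun a => ht a = 0).card ≤ sz π := by
      refine card_le_card_of_injOn Prod.fst (fun a ha => ?_) fun a ha c hc hac => ?_
      · obtain ⟨x, hx⟩ := S.tag a (mem_filter.1 (mem_filter.1 (mem_coe.1 ha)).1).1
        exact mem_coe.2 (mem_image.2 ⟨x, mem_univ _, hx⟩)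
      · obtain ⟨h1, h2⟩ := mem_filter.1 (mem_coe.1 ha)
        obtain ⟨h3, h4⟩ := mem_filter.1 (mem_coe.1 hc)
        have h5 := hrt a (mem_filter.1 h1).1
        have h6 := hrt c (mem_filter.1 h3).1
        rw [h2] at h5
        rw [h4] at h6
        exact h5.trans (hac ▸ h6.symm)
    have h2 : Jr.card ≤ sz π + (J.card + J.card) := (card_union_le _ _).trans (Nat.add_le_add h1
      ((card_filter_le _ _).trans ((card_union_le _ _).trans
        (Nat.add_le_add card_image_le card_image_le))))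
    have h3 : (Jr.card : ℝ) ≤ sz π + (J.card + J.card) := by exact_mod_cast h2
    have h4 : (0 : ℝ) ≤ sz π' := Nat.cast_nonneg _
    linarith
  obtain ⟨b, hb1, hb2⟩ : ∃ b : ℕ, b * η ≤ β / 4 ∧ β / 8 ≤ b * η := by
    refine ⟨⌊β / 4 / η⌋₊, (le_div_iff₀ hη).1 (Nat.floor_le (by positivity)), ?_⟩
    have := (div_lt_iff₀ hη).1 (Nat.lt_floor_add_one (β / 4 / η))
    linarith
  obtain ⟨L, hL1, hL2⟩ : ∃ L : ℕ, (2 * Λ + 1) * β ≤ L * η ∧ L * η ≤ (2 * Λ + 1) * β + η := by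
    refine ⟨⌈(2 * Λ + 1) * β / η⌉₊, (div_le_iff₀ hη).1 (Nat.le_ceil _), ?_⟩
    have h1 := Nat.ceil_lt_add_one (a := (2 * Λ + 1) * β / η) (by positivity)
    have h2 := mul_le_mul_of_nonneg_right h1.le hη.le
    rwa [add_mul _ 1 η, div_mul_cancel₀ _ hη.ne', one_mul] at h2
  have hL3 : (2 : ℝ) ≤ L := by
    by_contra h1
    push Not at h1
    nlinarith
  have hL4 : 2 ≤ L := by exact_mod_cast hL3
  have hpd : ∀ x, ∀ j < b, dist (pos x) (par^[j] (f x)).2 ≤ δ + β / 4 := fun x j hj => by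
    have h1 := (hit _ (hq1 x) j).2
    have h2 : (j : ℝ) * η ≤ b * η := mul_le_mul_of_nonneg_right (by exact_mod_cast hj.le) hη.le
    exact (dist_triangle _ (q x) _).trans (by linarith [hq2 x])
  obtain ⟨K, Z, lo, hK1, hK2, hK3, hK4, hK5, hK6⟩ := Fr.forest hJr
    (fun a ha h0 => mem_union_left _ (mem_filter.2 ⟨ha, h0⟩)) (L := L) (by omega) b I'
    (fun i => f i.1) (fun i hi => mem_filter.2 ⟨hq1 _, (mem_filter.1 hi).2.1⟩)
    fun i hi i' hi' j hj j' hj' he => hsep i (mem_filter.1 hi).1 i' (mem_filter.1 hi').1 (by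
      have h1 := hpd i.1 j hj
      have h2 := hpd i'.1 j' hj'
      rw [he] at h1
      exact (dist_triangle_right _ _ (par^[j'] (f i'.1)).2).trans_lt (by linarith))
  have hK7 := fun x hx => (hK4 x hx).2.2.2
  choose! nd hnd1 jj hnd2 hnd3 using hK7
  set Kp := K ∪ Nb
  have hKN : Kp ⊆ N := union_subset (hK1.trans (filter_subset _ _)) (filter_subset _ _)
  have hstep : ∀ a ∈ Kp, par a ∈ Kp → Adj η Kp a (par a) := fun a ha hp => by
    have := hit a (hKN ha) 1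
    simp only [Function.iterate_one, Nat.cast_one, one_mul] at this
    exact ⟨ha, hp, this.1.symm, this.2⟩
  have hfJ : ∀ e ∈ J, f (u e) ∈ Kp ∧ f (v e) ∈ Kp := fun e he => by
    have h1 : ∀ a ∈ J.image (fun e => f (u e)) ∪ J.image fun e => f (v e), a ∈ N → a ∈ Kp :=
      fun a ha h2 => by
        by_cases h3 : a.1 ∈ R
        · exact mem_union_left _ (hK2 (mem_union_right _ (mem_filter.2 ⟨ha, h3⟩)))
        · exact mem_union_right _ (mem_filter.2 ⟨h2, h3⟩)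
    exact ⟨h1 _ (mem_union_left _ (mem_image_of_mem _ he)) (hq1 _),
      h1 _ (mem_union_right _ (mem_image_of_mem _ he)) (hq1 _)⟩
  have hcov : ∀ a ∈ N, ∃ k ≤ 3 * L + 2, par^[k] a ∈ Kp := fun a ha => by
    by_cases h1 : a.1 ∈ R
    · obtain ⟨k, h2, h3⟩ := hK3 a (mem_filter.2 ⟨ha, h1⟩)
      exact ⟨k, h2, mem_union_left _ h3⟩
    · exact ⟨0, by omega, mem_union_right _ (mem_filter.2 ⟨ha, h1⟩)⟩
  let r : α × X → α × X → Prop := fun a c => Adj η Kp a c ∨ ∃ e ∈ J, a = f (u e) ∧ c = f (v e)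
  have hroot : ∀ a ∈ Kp, EqvGen (fun a c => r a c ∨ ∃ z ∈ Z, a = lo z ∧ c = par^[L + 1] z)
      a (rt a.1) := fun a ha => by
    rw [← hrt a (hKN ha)]
    rcases mem_union.1 ha with h1 | h1
    · refine eqv_lift id (fun s t hst => .rel _ _ (hst.imp (fun h2 => Or.inl ?_) id)) (hK5 a h1)
      obtain ⟨h3, h4, rfl⟩ := h2
      exact hstep s (mem_union_left _ h3) (mem_union_left _ h4)
    · have h2 : ∀ k, par^[k] a ∈ Kp := fun k => mem_union_right _ (mem_filter.2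
        ⟨F.it_mem (hKN ha) k, by rw [(hit a (hKN ha) k).1]; exact (mem_filter.1 h1).2⟩)
      induction ht a with
      | zero => exact .refl _
      | succ k ih =>
        have h3 := h2 (k + 1)
        rw [Function.iterate_succ_apply'] at h3 ⊢
        exact eqv_trans ih (.rel _ _ (Or.inl (Or.inl (hstep _ (h2 k) h3))))
  have hcon := merge_con hρ hJ3 (q := q) (K := Kp)
    (r := fun a c => r a c ∨ ∃ z ∈ Z, a = lo z ∧ c = par^[L + 1] z)
    (fun a ha c hc hac => eqv_trans (hroot a ha) (hac ▸ eqv_symm (hroot c hc)))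
    (fun x => by
      obtain ⟨k, -, h1⟩ := hcov _ (hq1 x)
      exact ⟨_, h1, (hit _ (hq1 x) k).1⟩)
    (fun a ha => S.tag a (hKN ha))
    fun e he => ⟨(hfJ e he).1, (hfJ e he).2, Or.inl (Or.inr ⟨e, he, rfl, rfl⟩)⟩
  have hZ : ∀ z ∈ Z, z ∈ N ∧ z.1 = π (nd z).1 ∧ (lo z).1 = z.1 ∧ f (nd z).2 ∈ Kp ∧
      ρ z.1 = ρ (π (nd z).2) := fun z hz => by
    have h1 : z.1 = π (nd z).1 := by
      conv_lhs => rw [← hnd3 z hz]
      exact (hit _ (hq1 _) _).1
    refine ⟨hnd3 z hz ▸ F.it_mem (hq1 _) _, h1, ?_, mem_union_right _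
      (mem_filter.2 ⟨hq1 _, (mem_filter.1 (hnd1 z hz)).2.2⟩), ?_⟩
    · conv_rhs => rw [← (hK4 z hz).2.1]
      exact (hit _ (hKN (mem_union_left _ (hK4 z hz).1)) _).1.symm
    · rw [h1, hρ, hρ, (hI _ (mem_filter.1 (hnd1 z hz)).1).2.1]
  obtain ⟨c, hc1, hc2⟩ := exchange lo (fun z => par^[L + 1] z) (fun z => f (nd z).2) Z r
    fun z hz => hcon _ (hZ z hz).2.2.2.1 _ (mem_union_left _ (hK4 z hz).1)
      (by rw [(hZ z hz).2.2.1]; exact (hZ z hz).2.2.2.2.symm)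
  have hc3 : ∀ z ∈ Z, c z ∈ Kp ∧ (c z).1 = z.1 ∧ dist (c z).2 z.2 ≤ (L + 1) * η := fun z hz => by
    rcases hc1 z with h1 | h1 <;> rw [h1]
    · have h2 := (hit _ (hKN (mem_union_left _ (hK4 z hz).1)) (L + 1)).2
      rw [(hK4 z hz).2.1] at h2
      exact ⟨mem_union_left _ (hK4 z hz).1, (hZ z hz).2.2.1, by exact_mod_cast h2⟩
    · have h2 := hit _ (hZ z hz).1 (L + 1)
      exact ⟨mem_union_left _ (hK4 z hz).2.2.1, h2.1, by
        rw [dist_comm]; exact_mod_cast h2.2⟩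
  obtain ⟨N', h5, h6, h7, h8⟩ := assemble hη Kp ρ (J.disjSum Z)
    (Sum.elim (fun e => f (u e)) c) (Sum.elim (fun e => f (v e)) fun z => f (nd z).2)
    (by
      rintro (e | z) hi
      · have he : e ∈ J := by simpa using hi
        exact ⟨(hfJ e he).1, (hfJ e he).2, by simp only [Sum.elim_inl, f, hρ, hJ1 e he]⟩
      · have hz : z ∈ Z := by simpa using hi
        exact ⟨(hc3 z hz).1, (hZ z hz).2.2.2.1, by
          simp only [Sum.elim_inr, (hc3 z hz).2.1]; exact (hZ z hz).2.2.2.2⟩)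
    fun a ha a' ha' haa => eqv_lift id (fun s t hst => .rel _ _ (by
      rcases hst with (h1 | ⟨e, he, h1⟩) | ⟨z, hz, h1⟩
      · exact Or.inl h1
      · exact Or.inr ⟨Sum.inl e, by simpa using he, h1⟩
      · exact Or.inr ⟨Sum.inr z, by simpa using hz, h1⟩)) (hc2 _ _ (hcon a ha a' ha' haa))
  refine ⟨N', ⟨h5, fun x => ?_, fun a ha => ?_⟩, ?_⟩
  · obtain ⟨k, h1, h2⟩ := hcov _ (hq1 x)
    have h3 := hit _ (hq1 x) k
    have h4 := h6 _ h2
    rw [h3.1, hρ] at h4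
    refine ⟨_, h4, (dist_triangle _ (q x) _).trans ?_⟩
    have h9 : (k : ℝ) * η ≤ (3 * L + 2) * η :=
      mul_le_mul_of_nonneg_right (by exact_mod_cast h1) hη.le
    linarith [hq2 x, h3.2]
  · obtain ⟨a', ha', h9⟩ := h7 a ha
    obtain ⟨x, hx⟩ := S.tag a' (hKN ha')
    exact ⟨x, by rw [← hρ, hx, h9]⟩
  · rw [sum_disjSum] at h8
    simp only [Sum.elim_inl, Sum.elim_inr, f] at h8
    have h9 : ∑ z ∈ Z, dist (c z).2 (q (nd z).2) ≤ Z.card * ((3 * L / 2 + 1) * η) := by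
      rw [← nsmul_eq_mul]
      refine sum_le_card_nsmul _ _ _ fun z hz => ?_
      have h10 := hpd (nd z).1 _ (hnd2 z hz)
      rw [hnd3 z hz, dist_comm] at h10
      have h11 := (hI _ (mem_filter.1 (hnd1 z hz)).1).2.2
      have h12 := dist_triangle4 z.2 (pos (nd z).1) (pos (nd z).2) (q (nd z).2)
      have h13 := dist_triangle (c z).2 z.2 (q (nd z).2)
      linarith [(hc3 z hz).2.2, hq2 (nd z).2]
    have h10 : (Kp.card : ℝ) ≤ K.card + Nb.card := by exact_mod_cast card_union_le K Nb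
    have h11 : (Nr.card : ℝ) + Nb.card = N.card := by
      exact_mod_cast card_filter_add_card_filter_not (s := N) fun a => a.1 ∈ R
    have h12 : (7 : ℝ) * K.card + 7 * ((2 * L + 1) * Z.card) + b * I'.card ≤
        7 * Nr.card + (b + 6 * L) * Jr.card + (2 * L + 3) * Z.card := by exact_mod_cast hK6
    have h13 : (I.card : ℝ) ≤ 4 * I'.card := by exact_mod_cast hR
    have h14 := surg_arith hη hδ hβ hΛ hb1 hb2 hL2 hL3 (Nat.cast_nonneg _) (Nat.cast_nonneg _)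
      (Nat.cast_nonneg _) hJc h13 h12
    have h19 := mul_le_mul_of_nonneg_left h10 hη.le
    rw [← h11]
    linarith

end Vale.Agent.P061
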