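import Vale.Agent.P061.Steiner

/-!
Telescoping the Steiner tree lengths over all levels.
-/

namespace Vale.Agent.P061

open Finset Relation

set_option linter.unusedSectionVars false

variable {V E α X : Type} [Fintype V] [DecidableEq V] [DecidableEq E] [DecidableEq α]
  [NormedAddCommGroup X] [NormedSpace ℝ X]

theorem one_le_sz [Nonempty V] (p : V → α) : (1 : ℝ) ≤ sz p := by
  exact_mod_cast card_pos.2 (univ_nonempty.image p)

theorem two_le_sz {p : V → α} {x y : V} (h : p x ≠ p y) : (2 : ℝ) ≤ sz p := by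
  have : 1 < sz p := one_lt_card.2 ⟨_, mem_image_of_mem p (mem_univ x), _,
    mem_image_of_mem p (mem_univ y), h⟩
  exact_mod_cast this

theorem telescope [Nonempty α] [Nonempty V] (pos : V → X) (u v : E → V) (Y : Finset E)
    {κ Λ γ : ℝ} (hΛ : 1 ≤ Λ) (hγ : 0 < γ) (hκ : 40000 * Λ ≤ γ * κ) (G : ℕ) (π : ℕ → V → α)
    (href : ∀ g < G, Ref (π (g + 1)) (π g)) (hinj : Function.Injective (π G))
    (hc : ∀ g < G, CPC u v κ Y (π g)) (hsz : ∀ g < G, κ * (sz (π (g + 1)) - 1) ≤ 2 * 2 ^ g)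
    (β : ℕ → ℝ) (hβ : ∀ g < G, β g ≤ 0 ∨ ∃ I : Finset (V × V), γ * 2 ^ g ≤ I.card ∧
      (∀ i ∈ I, π (g + 1) i.1 ≠ π (g + 1) i.2 ∧ π g i.1 = π g i.2 ∧
        dist (pos i.1) (pos i.2) ≤ Λ * β g) ∧
      ∀ i ∈ I, ∀ j ∈ I, dist (pos i.1) (pos j.1) < β g → i = j) :
    γ * κ * ∑ g ∈ range G, 2 ^ g * β g ≤ 10 ^ 6 * Λ *
      ∑ g ∈ range G, ∑ e ∈ lev u v Y (π (g + 1)) (π g), dist (pos (u e)) (pos (v e)) := by
  classical
  have hκ0 : 0 < κ := by
    by_contra h
    push Not at h
    nlinarith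
  set cap := fun g => (∑ e ∈ lev u v Y (π (g + 1)) (π g), dist (pos (u e)) (pos (v e))) / κ
    with hcap
  obtain ⟨c, hc0, hc1⟩ : ∃ c : ℝ, 0 < c ∧ γ = 10 ^ 6 * Λ * c :=
    ⟨γ / (10 ^ 6 * Λ), by positivity, by field_simp⟩
  have hκc : 4 ≤ 100 * c * κ := by
    rw [hc1] at hκ
    have : Λ * 4 ≤ Λ * (100 * c * κ) := by linarith
    exact le_of_mul_le_mul_left this (by linarith)
  have key : ∀ η > 0, ∀ k g, g + k = G → ∃ (N : Finset (α × X)) (δ : ℝ), St pos (π g) η δ N ∧
      η ≤ δ ∧ η * N.card + 200 * c * (2 ^ g * δ) + c * ∑ j ∈ Ico g G, 2 ^ j * β j ≤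
        η * (Fintype.card V + 200 * c * 2 ^ G) + ∑ j ∈ Ico g G, cap j := by
    intro η hη k
    induction k with
    | zero =>
      rintro g rfl
      refine ⟨univ.image fun x => (π g x, pos x), η, ⟨fun a ha b hb hab => ?_,
        fun x => ⟨pos x, mem_image_of_mem _ (mem_univ x), by simpa using hη.le⟩,
        fun a ha => ?_⟩, le_rfl, ?_⟩
      · obtain ⟨x, -, rfl⟩ := mem_image.1 ha
        obtain ⟨y, -, rfl⟩ := mem_image.1 hb
        rw [hinj hab]
        exact .refl _
      · obtain ⟨x, -, rfl⟩ := mem_image.1 ha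
        exact ⟨x, rfl⟩
      · have : ((univ.image fun x => (π g x, pos x)).card : ℝ) ≤ Fintype.card V := by
          exact_mod_cast card_image_le
        simp only [add_zero, Ico_self, sum_empty, mul_zero]
        nlinarith
    | succ k ih =>
      intro g hg
      have hG : g < G := by omega
      obtain ⟨N, δ, S, h1, h2⟩ := ih (g + 1) (by omega)
      rw [sum_eq_sum_Ico_succ_bot hG, sum_eq_sum_Ico_succ_bot hG]
      have hn : (0 : ℝ) < 2 ^ g := by positivity
      have hδ : 0 < δ := by linarith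
      have h3 : (sz (π (g + 1)) : ℝ) - 1 ≤ 50 * c * 2 ^ g := by
        have h4 := hsz g hG
        have : κ * (sz (π (g + 1)) - 1) ≤ κ * (50 * c * 2 ^ g) := by nlinarith
        exact le_of_mul_le_mul_left this hκ0
      have h4 : 2 * δ * ((sz (π (g + 1)) : ℝ) - sz (π g)) ≤ 100 * c * (2 ^ g * δ) := by
        nlinarith [one_le_sz (π g)]
      rw [pow_succ] at h2
      by_cases h5 : β g < 100 * δ
      · obtain ⟨N', S', h6⟩ := step_plain hκ0 (href g hG) (hc g hG) hη hδ.le S
        refine ⟨N', δ, S', h1, ?_⟩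
        have h7 : c * (2 ^ g * β g) ≤ c * (2 ^ g * (100 * δ)) := by gcongr
        simp only [hcap] at h2 ⊢
        nlinarith
      · push Not at h5
        obtain ⟨I, h6, h7, h8⟩ := (hβ g hG).resolve_left (by linarith)
        obtain ⟨N', S', h9⟩ := step_surg hκ0 (href g hG) (hc g hG) hη h1 h5 hΛ S I h7 h8
        have hβ0 : 0 < β g := by linarith
        refine ⟨N', _, S', by nlinarith, ?_⟩
        obtain ⟨i, hi⟩ : I.Nonempty := by
          rw [← card_pos, ← Nat.cast_pos (α := ℝ)]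
          exact lt_of_lt_of_le (by positivity) h6
        have h10 := two_le_sz (h7 i hi).1
        have h11 : 9 * Λ * β g * sz (π (g + 1)) ≤ 900 * Λ * c * (2 ^ g * β g) := by
          have : (sz (π (g + 1)) : ℝ) ≤ 100 * c * 2 ^ g := by linarith
          have h12 := mul_le_mul_of_nonneg_left this (show 0 ≤ 9 * Λ * β g by positivity)
          linarith
        have h12 : 10 ^ 6 * Λ * c * (2 ^ g * β g) ≤ β g * I.card := by
          rw [← hc1]
          nlinarith
        have h13 : c * (2 ^ g * β g) ≤ Λ * c * (2 ^ g * β g) := by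
          have : 0 ≤ c * (2 ^ g * β g) := by positivity
          nlinarith
        have h14 : 0 ≤ c * (2 ^ g * δ) := by positivity
        have h15 : 0 ≤ c * (2 ^ g * β g) := by positivity
        simp only [hcap] at h2 ⊢
        nlinarith
  have h1 : c * ∑ j ∈ Ico 0 G, 2 ^ j * β j ≤ ∑ j ∈ Ico 0 G, cap j := by
    refine le_of_forall_pos_le_add fun ε hε => ?_
    have hp : (0 : ℝ) < Fintype.card V + 200 * c * 2 ^ G := by positivity
    obtain ⟨N, δ, -, h1, h2⟩ := key (ε / (Fintype.card V + 200 * c * 2 ^ G)) (by positivity) G 0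
      (zero_add G)
    rw [div_mul_cancel₀ _ hp.ne'] at h2
    have h3 : 0 < ε / (Fintype.card V + 200 * c * 2 ^ G) := by positivity
    have h4 : 0 ≤ ε / (Fintype.card V + 200 * c * 2 ^ G) * N.card := by positivity
    have h5 : 0 ≤ 200 * c * (2 ^ 0 * δ) := by
      have : 0 < δ := by linarith
      positivity
    linarith
  rw [← range_eq_Ico, hcap, ← sum_div, le_div_iff₀ hκ0] at h1
  rw [hc1]
  have := mul_le_mul_of_nonneg_left h1 (show 0 ≤ 10 ^ 6 * Λ by positivity)
  linarith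

end Vale.Agent.P061
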