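import Vale.Agent.P061.Basic

/-!
Rooted Laplacians and the edge deletion lemma for the log-determinant potential.
-/

namespace Vale.Agent.P061.W

open Finset Matrix

section Lin

variable {n : Type} [Fintype n] [DecidableEq n]

theorem det_one_add_vv (a b : n → ℝ) : det (1 + vecMulVec a b) = 1 + b ⬝ᵥ a := by
  rw [vecMulVec_eq Unit, det_one_add_replicateCol_mul_replicateRow]

theorem det_sub_vv {M : Matrix n n ℝ} (hM : IsUnit M.det) (b : n → ℝ) :
    det (M - vecMulVec b b) = det M * (1 - b ⬝ᵥ M⁻¹ *ᵥ b) := by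
  have h : M - vecMulVec b b = M * (1 + vecMulVec (-(M⁻¹ *ᵥ b)) b) := by
    rw [mul_add, mul_one, mul_vecMulVec, mulVec_neg, mulVec_mulVec, mul_nonsing_inv _ hM,
      one_mulVec, neg_vecMulVec, sub_eq_add_neg]
  rw [h, det_mul, det_one_add_vv, dotProduct_neg, sub_eq_add_neg]

theorem det_swap {M : Matrix n n ℝ} (hM : Mᵀ = M) (w g1 g2 : n → ℝ) (hw : M *ᵥ w = 0)
    (h1 : g1 ⬝ᵥ w = 1) (h2 : g2 ⬝ᵥ w = 1) :
    det (M + vecMulVec g1 g1) = det (M + vecMulVec g2 g2) := by
  set T : Matrix n n ℝ := 1 + vecMulVec w (g2 - g1) with hT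
  have hd : det T = 1 := by
    rw [hT, det_one_add_vv, sub_dotProduct, h1, h2]; ring
  have hMT : M * T = M := by
    rw [hT, mul_add, mul_one, mul_vecMulVec, hw, zero_vecMulVec, add_zero]
  have hTM : Tᵀ * M = M := by
    rw [← hM, ← transpose_mul, hM, hMT, hM]
  have hg : g1 ᵥ* T = g2 := by
    rw [hT, vecMul_add, vecMul_one, vecMul_vecMulVec, h1, one_smul]; abel
  have h : Tᵀ * (M + vecMulVec g1 g1) * T = M + vecMulVec g2 g2 := by
    rw [mul_add Tᵀ, add_mul, hTM, hMT, mul_vecMulVec, mulVec_transpose, hg, vecMulVec_mul, hg]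
  rw [← h, det_mul, det_mul, det_transpose, hd, one_mul, mul_one]

theorem log_det_le {M : Matrix n n ℝ} (hM : M.PosDef) (c : ℝ) (hc : 0 < c) :
    Real.log M.det ≤ Fintype.card n * (Real.log c - 1) + M.trace / c := by
  rw [hM.isHermitian.det_eq_prod_eigenvalues, hM.isHermitian.trace_eq_sum_eigenvalues]
  simp only [RCLike.ofReal_real_eq_id, id]
  rw [Real.log_prod fun i _ => (hM.eigenvalues_pos i).ne', sum_div, ← card_univ, ← nsmul_eq_mul,
    ← sum_const, ← sum_add_distrib]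
  refine sum_le_sum fun i _ => ?_
  have h0 := hM.eigenvalues_pos i
  have h1 := Real.log_le_sub_one_of_pos (div_pos h0 hc)
  rw [Real.log_div h0.ne' hc.ne'] at h1
  linarith

theorem vv_form (b y : n → ℝ) : y ⬝ᵥ vecMulVec b b *ᵥ y = (b ⬝ᵥ y) ^ 2 := by
  rw [vecMulVec_mulVec, op_smul_eq_smul, dotProduct_smul, smul_eq_mul, dotProduct_comm y, sq]

end Lin

variable {V E : Type} [Fintype V] [DecidableEq V]

/-- Signed incidence vector of an edge. -/
def bv (u v : E → V) (e : E) : V → ℝ := Pi.single (u e) 1 - Pi.single (v e) 1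

theorem bv_dot (u v : E → V) (e : E) (y : V → ℝ) : bv u v e ⬝ᵥ y = y (u e) - y (v e) := by
  simp [bv, sub_dotProduct]

/-- Laplacian of the edge set `F` plus the indicator of the root set. -/
noncomputable def MM (u v : E → V) (F : Finset E) (Ro : Finset V) : Matrix V V ℝ :=
  ∑ e ∈ F, vecMulVec (bv u v e) (bv u v e) +
    ∑ x ∈ Ro, vecMulVec (Pi.single x (1 : ℝ)) (Pi.single x (1 : ℝ))

theorem MM_form (u v : E → V) (F : Finset E) (Ro : Finset V) (y : V → ℝ) :
    y ⬝ᵥ MM u v F Ro *ᵥ y = ∑ e ∈ F, (y (u e) - y (v e)) ^ 2 + ∑ x ∈ Ro, y x ^ 2 := by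
  simp only [MM, add_mulVec, dotProduct_add, sum_mulVec, dotProduct_sum, vv_form, bv_dot]
  simp

theorem MM_transpose (u v : E → V) (F : Finset E) (Ro : Finset V) :
    (MM u v F Ro)ᵀ = MM u v F Ro := by
  simp only [MM, transpose_add, transpose_sum, transpose_vecMulVec]

theorem MM_herm (u v : E → V) (F : Finset E) (Ro : Finset V) : (MM u v F Ro).IsHermitian := by
  simpa [IsHermitian, conjTranspose_eq_transpose_of_trivial] using MM_transpose u v F Ro

theorem MM_psd (u v : E → V) (F : Finset E) (Ro : Finset V) : (MM u v F Ro).PosSemidef := by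
  refine PosSemidef.of_dotProduct_mulVec_nonneg (MM_herm u v F Ro) fun y => ?_
  rw [star_trivial, MM_form]
  positivity

theorem MM_posDef_iff (u v : E → V) (F : Finset E) (Ro : Finset V) :
    (MM u v F Ro).PosDef ↔
      ∀ y : V → ℝ, (∀ e ∈ F, y (u e) = y (v e)) → (∀ x ∈ Ro, y x = 0) → y = 0 := by
  constructor
  · intro h y h1 h2
    by_contra hy
    have h3 := h.dotProduct_mulVec_pos hy
    rw [star_trivial, MM_form, sum_eq_zero fun e he => by rw [h1 e he]; ring,
      sum_eq_zero fun x hx => by rw [h2 x hx]; ring] at h3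
    simp at h3
  · intro h
    refine PosDef.of_dotProduct_mulVec_pos (MM_herm u v F Ro) fun y hy => ?_
    rw [star_trivial, MM_form]
    have h1 : 0 ≤ ∑ e ∈ F, (y (u e) - y (v e)) ^ 2 := by positivity
    have h2 : 0 ≤ ∑ x ∈ Ro, y x ^ 2 := by positivity
    by_contra h3
    have h4 : ∑ e ∈ F, (y (u e) - y (v e)) ^ 2 = 0 := by linarith
    have h5 : ∑ x ∈ Ro, y x ^ 2 = 0 := by linarith
    rw [sum_eq_zero_iff_of_nonneg fun _ _ => sq_nonneg _] at h4 h5
    exact hy (h y (fun e he => sub_eq_zero.1 (pow_eq_zero_iff two_ne_zero |>.1 (h4 e he)))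
      fun x hx => pow_eq_zero_iff two_ne_zero |>.1 (h5 x hx))

theorem MM_trace (u v : E → V) (F : Finset E) (Ro : Finset V) (hF : ∀ e ∈ F, u e ≠ v e) :
    (MM u v F Ro).trace = 2 * F.card + Ro.card := by
  simp only [MM, trace_add, trace_sum, trace_vecMulVec]
  have h1 : ∀ e ∈ F, bv u v e ⬝ᵥ bv u v e = 2 := fun e he => by
    rw [bv_dot]
    have h := hF e he
    simp only [bv, Pi.sub_apply, Pi.single_eq_same, Pi.single_eq_of_ne h,
      Pi.single_eq_of_ne h.symm]
    norm_num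
  rw [sum_congr rfl h1]
  simp [mul_comm]

theorem MM_empty (u v : E → V) : MM u v ∅ univ = 1 := by
  ext i j
  simp only [MM, sum_empty, zero_add, Matrix.sum_apply, vecMulVec_apply, one_apply,
    Pi.single_apply]
  by_cases h : i = j
  · subst h; simp
  · simp only [h, if_false]
    refine sum_eq_zero fun x _ => ?_
    by_cases h1 : i = x
    · subst h1; simp [Ne.symm h]
    · simp [h1]

/-- The fixed points of a root map. -/
def rt (ρ : V → V) : Finset V := univ.filter fun x => ρ x = x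

theorem mem_rt {ρ : V → V} {x : V} : x ∈ rt ρ ↔ ρ x = x := by simp [rt]

/-- Every component of `F` has exactly one root. -/
def Good (u v : E → V) (F : Finset E) (ρ : V → V) : Prop :=
  (∀ e ∈ F, ρ (u e) = ρ (v e)) ∧ (∀ x, ρ (ρ x) = ρ x) ∧ (MM u v F (rt ρ)).PosDef

variable [DecidableEq E]

theorem MM_erase (u v : E → V) {F : Finset E} (Ro : Finset V) {e : E} (he : e ∈ F) :
    MM u v F Ro = MM u v (F.erase e) Ro + vecMulVec (bv u v e) (bv u v e) := by
  simp only [MM]
  rw [← add_sum_erase F _ he]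
  abel

/-- Deleting one edge. -/
theorem lemU {u v : E → V} {F : Finset E} {ρ : V → V} (h : Good u v F ρ) {e : E} (he : e ∈ F) :
    ∃ ρ' : V → V, Good u v (F.erase e) ρ' ∧ rt ρ ⊆ rt ρ' ∧
      ((rt ρ' = rt ρ ∧ (MM u v (F.erase e) (rt ρ')).det =
          (MM u v F (rt ρ)).det * (1 - bv u v e ⬝ᵥ (MM u v F (rt ρ))⁻¹ *ᵥ bv u v e)) ∨
        ((rt ρ').card = (rt ρ).card + 1 ∧
          (MM u v (F.erase e) (rt ρ')).det = (MM u v F (rt ρ)).det)) := by
  classical
  obtain ⟨h1, h2, h3⟩ := h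
  by_cases hp : (MM u v (F.erase e) (rt ρ)).PosDef
  · refine ⟨ρ, ⟨fun e' he' => h1 e' (mem_of_mem_erase he'), h2, hp⟩, Subset.rfl, Or.inl ⟨rfl, ?_⟩⟩
    rw [← det_sub_vv ((isUnit_iff_isUnit_det _).1 h3.isUnit), MM_erase u v _ he,
      add_sub_cancel_right]
  rw [MM_posDef_iff] at hp
  push Not at hp
  obtain ⟨y, hy1, hy2, hy3⟩ := hp
  obtain ⟨x0, hx0⟩ := Function.ne_iff.1 hy3
  let C : V → Prop := fun x => y x = y x0
  let w : V → ℝ := fun x => if C x then 1 else 0
  have hC1 : ∀ e' ∈ F.erase e, (C (u e') ↔ C (v e')) := fun e' he' => by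
    simp only [C, hy1 e' he']
  have hC2 : ∀ x ∈ rt ρ, ¬ C x := fun x hx hc => hx0 (by rw [← hc, hy2 x hx]; rfl)
  have hw1 : ∀ e' ∈ F.erase e, w (u e') = w (v e') := fun e' he' => by
    simp only [w, hC1 e' he']
  have hw2 : ∀ x ∈ rt ρ, w x = 0 := fun x hx => if_neg (hC2 x hx)
  have hw3 : w (u e) ≠ w (v e) := by
    intro hh
    have := (MM_posDef_iff u v F (rt ρ)).1 h3 w (fun e' he' => by
      by_cases h4 : e' = e
      · rw [h4]; exact hh
      · exact hw1 e' (mem_erase.2 ⟨h4, he'⟩)) hw2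
    have h5 := congrFun this x0
    simp [w, C] at h5
  obtain ⟨a, g, ha, hg, hgg⟩ : ∃ (a : V) (g : V → ℝ), C a ∧ g ⬝ᵥ w = 1 ∧
      vecMulVec g g = vecMulVec (bv u v e) (bv u v e) := by
    by_cases hu : C (u e)
    · have hv : ¬ C (v e) := fun hv => hw3 (by simp only [w, hu, hv])
      exact ⟨u e, bv u v e, hu, by rw [bv_dot]; simp [w, hu, hv], rfl⟩
    · have hv : C (v e) := by
        by_contra hv
        exact hw3 (by simp only [w, hu, hv])
      exact ⟨v e, -bv u v e, hv, by rw [neg_dotProduct, bv_dot]; simp [w, hu, hv], by simp⟩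
  let ρ' : V → V := fun x => if C x then a else ρ x
  have hrt : rt ρ' = insert a (rt ρ) := by
    ext x
    simp only [mem_insert, mem_rt, ρ']
    by_cases hx : C x
    · rw [if_pos hx]
      exact ⟨fun h => Or.inl h.symm,
        fun h => h.elim Eq.symm fun h => absurd hx (hC2 x (mem_rt.2 h))⟩
    · rw [if_neg hx]
      exact ⟨Or.inr, fun h => h.elim (fun h => absurd (h ▸ ha) hx) id⟩
  have hna : a ∉ rt ρ := fun h => hC2 a h ha
  have hM : MM u v (F.erase e) (rt ρ') = MM u v (F.erase e) (rt ρ) +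
      vecMulVec (Pi.single a (1 : ℝ)) (Pi.single a (1 : ℝ)) := by
    simp only [MM]
    rw [hrt, sum_insert hna]
    abel
  have hker : MM u v (F.erase e) (rt ρ) *ᵥ w = 0 := by
    rw [← (MM_psd u v _ _).dotProduct_mulVec_zero_iff, star_trivial, MM_form,
      sum_eq_zero fun e he => by rw [hw1 e he]; ring,
      sum_eq_zero fun x hx => by rw [hw2 x hx]; ring, add_zero]
  have hdet : (MM u v (F.erase e) (rt ρ')).det = (MM u v F (rt ρ)).det := by
    rw [hM, MM_erase u v (rt ρ) he, ← hgg]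
    exact det_swap (MM_transpose u v _ _) w _ _ hker (by simp [w, ha]) hg
  refine ⟨ρ', ⟨fun e' he' => ?_, fun x => ?_, ?_⟩, by rw [hrt]; exact subset_insert _ _,
    Or.inr ⟨by rw [hrt, card_insert_of_notMem hna], hdet⟩⟩
  · simp only [ρ', hC1 e' he', h1 e' (mem_of_mem_erase he')]
  · by_cases hx : C x
    · simp only [ρ', hx, ha, if_true]
    · simp only [ρ', hx, if_false, hC2 (ρ x) (mem_rt.2 (h2 x)), h2]
  · rw [(MM_psd u v _ _).posDef_iff_det_ne_zero, hdet]
    exact h3.det_pos.ne'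

/-- Deleting a set of edges. -/
theorem lemD {u v : E → V} {F : Finset E} {ρ : V → V} (h : Good u v F ρ) (D : Finset E) :
    ∃ ρ' : V → V, Good u v (F \ D) ρ' ∧ rt ρ ⊆ rt ρ' ∧
      (MM u v (F \ D) (rt ρ')).det ≤ (MM u v F (rt ρ)).det := by
  induction D using Finset.induction_on with
  | empty => exact ⟨ρ, by simpa using h, Subset.rfl, by simp⟩
  | insert e D _ ih =>
    obtain ⟨ρ1, g1, s1, d1⟩ := ih
    by_cases he : e ∈ F \ D
    · obtain ⟨ρ2, g2, s2, d2⟩ := lemU g1 he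
      rw [sdiff_insert]
      refine ⟨ρ2, g2, s1.trans s2, le_trans ?_ d1⟩
      rcases d2 with ⟨-, d2⟩ | ⟨-, d2⟩
      · rw [d2]
        have h1 := g1.2.2.det_pos
        have h2 : 0 ≤ bv u v e ⬝ᵥ (MM u v (F \ D) (rt ρ1))⁻¹ *ᵥ bv u v e := by
          simpa using g1.2.2.inv.posSemidef.dotProduct_mulVec_nonneg (bv u v e)
        nlinarith
      · exact d2.le
    · rw [sdiff_insert, erase_eq_of_notMem he]
      exact ⟨ρ1, g1, s1, d1⟩

end Vale.Agent.P061.W
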