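import Vale.Agent.P061.WA

/-!
The maximiser of the log-determinant potential gives a partition connected block with small
leverage scores.
-/

namespace Vale.Agent.P061.W

open Finset Matrix

variable {V E : Type} [Fintype V] [DecidableEq V] [Fintype E] [DecidableEq E]

/-- The potential. -/
noncomputable def Th (u v : E → V) (δ k : ℝ) (F : Finset E) (ρ : V → V) : ℝ :=
  δ * F.card + δ * k * (rt ρ).card - Real.log (MM u v F (rt ρ)).det

theorem exists_max (u v : E → V) (Y : Finset E) (κ η δ : ℝ) (hη : 0 < η) (hη' : η ≤ 1 / 2)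
    (hδ : 0 < δ) (hδ' : δ ≤ 1) (hκ : 24 / (δ * η) ^ 2 < κ) (hPC : PC u v κ Y univ)
    (hn : 2 ≤ Fintype.card V) :
    ∃ (F : Finset E) (ρ : V → V), F ⊆ Y ∧ (∀ e ∈ F, u e ≠ v e) ∧ F.Nonempty ∧ Good u v F ρ ∧
      ∀ F' ρ', F' ⊆ F → Good u v F' ρ' →
        Th u v δ ((1 - η) * κ) F' ρ' ≤ Th u v δ ((1 - η) * κ) F ρ := by
  classical
  obtain ⟨r⟩ : Nonempty V := Fintype.card_pos_iff.1 (by omega)
  set Y0 := Y.filter fun e => u e ≠ v e with hY0
  have ht : 0 < δ * η := by positivity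
  have ht1 : δ * η ≤ 1 / 2 := by nlinarith
  have hκ0 : 0 < κ := lt_trans (by positivity) hκ
  have hr : rt (fun _ : V => r) = {r} := by
    ext x; simp [mem_rt, eq_comm]
  have hg : Good u v Y0 fun _ => r := by
    refine ⟨fun _ _ => rfl, fun _ => rfl, ?_⟩
    rw [MM_posDef_iff, hr]
    intro y h1 h2
    have h3 := hPC.gen y
    have h4 : cr u v Y univ y = ∅ := by
      refine eq_empty_of_forall_notMem fun e he => ?_
      rw [mem_cr] at he
      refine he.2.2.2 (h1 e (mem_filter.2 ⟨he.1, fun h => he.2.2.2 (by rw [h])⟩))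
    rw [h4, card_empty, Nat.cast_zero] at h3
    have h5 : ((univ.image y).card : ℝ) ≤ 1 := by
      by_contra h6
      push Not at h6
      nlinarith
    have h6 : (univ.image y).card ≤ 1 := by exact_mod_cast h5
    funext x
    rw [card_le_one.1 h6 (y x) (mem_image_of_mem y (mem_univ x)) (y r)
      (mem_image_of_mem y (mem_univ r))]
    exact h2 r (mem_singleton_self r)
  obtain ⟨s, hs, hmax⟩ := exists_max_image
    (univ.filter fun s : Finset E × (V → V) => s.1 ⊆ Y0 ∧ Good u v s.1 s.2)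
    (fun s => Th u v δ ((1 - η) * κ) s.1 s.2) ⟨(Y0, fun _ => r), by simpa using hg⟩
  obtain ⟨F, ρ⟩ := s
  simp only [mem_filter, mem_univ, true_and] at hs hmax
  refine ⟨F, ρ, hs.1.trans (filter_subset _ _), fun e he => (mem_filter.1 (hs.1 he)).2, ?_, hs.2,
    fun F' ρ' h1 h2 => hmax (F', ρ') ⟨h1.trans hs.1, h2⟩⟩
  rw [nonempty_iff_ne_empty]
  rintro rfl
  have h1 : rt ρ = univ := by
    refine eq_univ_of_forall fun x => ?_
    by_contra hx
    have := (MM_posDef_iff u v ∅ (rt ρ)).1 hs.2.2.2 (Pi.single x 1) (by simp) fun z hz =>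
      Pi.single_eq_of_ne (fun h : z = x => hx (h ▸ hz)) _
    simpa using congrFun this x
  have h2 := hmax (Y0, fun _ => r) ⟨Subset.rfl, hg⟩
  simp only [Th, h1, MM_empty, det_one, Real.log_one, card_empty, card_univ, hr,
    card_singleton] at h2
  have h3 := log_det_le hg.2.2 (6 / (δ * η)) (by positivity)
  rw [hr, MM_trace u v Y0 _ fun e he => (mem_filter.1 he).2, card_singleton] at h3
  have h4 := hPC.gen id
  have h5 : cr u v Y univ id = Y0 := by
    ext e; simp [mem_cr, hY0]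
  rw [h5, image_id, card_univ] at h4
  have h6 := Real.log_le_sub_one_of_pos (show 0 < 6 / (δ * η) by positivity)
  have h7 : (2 : ℝ) ≤ Fintype.card V := by exact_mod_cast hn
  set n : ℝ := (Fintype.card V : ℝ)
  set N : ℝ := (Y0.card : ℝ)
  set L := Real.log (6 / (δ * η))
  have h8 : (2 * N + (1 : ℕ)) / (6 / (δ * η)) = δ * η * N / 3 + δ * η / 6 := by
    field_simp
    push_cast
    ring
  rw [h8] at h3
  have h9 : 24 / (δ * η) < δ * η * κ := by
    rw [div_lt_iff₀ (by positivity)] at hκ ⊢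
    nlinarith
  have h10 : δ * (1 - η / 3) * (κ * (n - 1)) ≤ δ * (1 - η / 3) * N :=
    mul_le_mul_of_nonneg_left h4 (mul_nonneg hδ.le (by linarith))
  have h11 : 24 / (δ * η) = 4 * (6 / (δ * η)) := by ring
  have h12 : 0 < 6 / (δ * η) := by positivity
  set c := 6 / (δ * η)
  have h13 : n * (L - 1) ≤ n * (c - 2) := mul_le_mul_of_nonneg_left (by linarith) (by linarith)
  have h14 : 4 * c * (n - 1) ≤ δ * η * κ * (n - 1) :=
    mul_le_mul_of_nonneg_right (by linarith) (by linarith)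
  have h15 : 0 ≤ c * (n - 2) := mul_nonneg h12.le (by linarith)
  push_cast at h2
  nlinarith

theorem block (u v : E → V) (Y : Finset E) (κ η δ : ℝ) (hη : 0 < η) (hη' : η ≤ 1 / 2)
    (hδ : 0 < δ) (hδ' : δ ≤ 1) (hκ : 24 / (δ * η) ^ 2 < κ) (hPC : PC u v κ Y univ)
    (hn : 2 ≤ Fintype.card V) :
    ∃ (W1 : Finset V) (F1 : Finset E) (B : Matrix E E ℝ), 2 ≤ W1.card ∧ F1 ⊆ Y ∧
      (∀ e ∈ F1, u e ∈ W1 ∧ v e ∈ W1) ∧ B.PosSemidef ∧ (1 - B).PosSemidef ∧ (∀ e, B e e ≤ δ) ∧
      (∀ e e', e ∉ F1 ∨ e' ∉ F1 → B e e' = 0) ∧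
      ∀ (T : Finset E) (x : ℝ), 0 ≤ x → x ≤ 1 → SubLe B T x →
        PC u v ((1 - x) * ((1 - η) * κ)) (F1 \ T) W1 := by
  obtain ⟨F, ρ, hFY, hloop, ⟨e0, he0⟩, hg, hmax⟩ :=
    exists_max u v Y κ η δ hη hη' hδ hδ' hκ hPC hn
  have ht : 0 < δ * η := by positivity
  have ht1 : δ * η ≤ 1 / 2 := by nlinarith
  have hκ1 : 24 < κ := by
    refine lt_of_le_of_lt ?_ hκ
    rw [le_div_iff₀ (by positivity)]
    nlinarith
  set k := (1 - η) * κ with hk
  have hk1 : 1 < k := by rw [hk]; nlinarith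
  set M := MM u v F (rt ρ) with hM
  have hMpd : M.PosDef := hg.2.2
  have hlev : ∀ e ∈ F, bv u v e ⬝ᵥ M⁻¹ *ᵥ bv u v e ≤ δ := by
    intro e he
    obtain ⟨ρ', g', -, hd⟩ := lemU hg he
    have h1 := hmax _ ρ' (erase_subset e F) g'
    have h2 : ((F.erase e).card : ℝ) = F.card - 1 := by
      rw [← card_erase_add_one he]; push_cast; ring
    have h3 := g'.2.2.det_pos
    have h4 := hMpd.det_pos
    simp only [Th, h2] at h1
    rcases hd with ⟨h5, h6⟩ | ⟨h5, h6⟩
    · rw [h6] at h1 h3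
      rw [← hM] at h1 h3
      have h7 : 0 < 1 - bv u v e ⬝ᵥ M⁻¹ *ᵥ bv u v e := (mul_pos_iff_of_pos_left h4).1 h3
      rw [Real.log_mul h4.ne' h7.ne', h5] at h1
      have h8 := Real.log_le_sub_one_of_pos h7
      linarith
    · rw [h6, h5] at h1
      push_cast at h1
      nlinarith
  set r := ρ (u e0) with hr
  set W1 := univ.filter fun x => ρ x = r with hW1
  have mW1 : ∀ x, x ∈ W1 ↔ ρ x = r := fun x => by simp [hW1]
  set F1 := F.filter fun e => u e ∈ W1 with hF1
  have hends : ∀ e ∈ F, (u e ∈ W1 ↔ v e ∈ W1) := fun e he => by rw [mW1, mW1, hg.1 e he]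
  have hrW : r ∈ W1 := (mW1 r).2 (hg.2.1 _)
  have hrt : ∀ x ∈ rt ρ, x ∈ W1 → x = r := fun x hx h => by
    rw [← (mW1 x).1 h, mem_rt.1 hx]
  have hcr : ∀ p : V → ℕ, cr u v F1 W1 p = cr u v F W1 p := fun p => by
    ext e
    simp only [mem_cr, hF1, mem_filter]
    tauto
  have hPC1 : PC u v k F1 W1 := by
    intro p
    rw [hcr]
    set D := cr u v F W1 p with hD
    obtain ⟨ρ', g', hs, hd⟩ := lemD hg D
    have h1 := hmax _ ρ' sdiff_subset g'
    have h2 : ((F \ D).card : ℝ) = F.card - D.card := by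
      have hDF : D ⊆ F := filter_subset _ _
      rw [card_sdiff_of_subset hDF, Nat.cast_sub (card_le_card hDF)]
    have h3 := Real.log_le_log g'.2.2.det_pos hd
    have h4 : W1.image p ⊆ (rt ρ' ∩ W1).image p := by
      intro a ha
      obtain ⟨x0, hx0, rfl⟩ := mem_image.1 ha
      by_contra hc
      have h5 := (MM_posDef_iff u v _ _).1 g'.2.2
        (fun x => if x ∈ W1 ∧ p x = p x0 then 1 else 0) (fun e he => by
          obtain ⟨h6, h7⟩ := mem_sdiff.1 he
          by_cases h8 : u e ∈ W1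
          · have h9 := (hends e h6).1 h8
            have h10 : p (u e) = p (v e) := by
              by_contra h10
              exact h7 (mem_cr.2 ⟨h6, h8, h9, h10⟩)
            simp only [h8, h9, h10]
          · have h9 : v e ∉ W1 := fun h => h8 ((hends e h6).2 h)
            simp only [h8, h9, false_and])
        fun x hx => if_neg fun h => hc (mem_image.2 ⟨x, mem_inter.2 ⟨hx, h.1⟩, h.2⟩)
      simpa [hx0] using congrFun h5 x0
    have h5 : (W1.image p).card ≤ (rt ρ' ∩ W1).card := (card_le_card h4).trans card_image_le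
    have h6 : (rt ρ).card ≤ (rt ρ' \ W1).card + 1 := by
      refine le_trans (card_le_card (t := insert r (rt ρ' \ W1)) fun x hx => ?_)
        (card_insert_le _ _)
      by_cases h : x ∈ W1
      · rw [hrt x hx h]; exact mem_insert_self _ _
      · exact mem_insert_of_mem (mem_sdiff.2 ⟨hs hx, h⟩)
    have h7 := card_sdiff_add_card_inter (rt ρ') W1
    have h8 : ((W1.image p).card : ℝ) - 1 ≤ (rt ρ').card - (rt ρ).card := by
      have : (W1.image p).card + (rt ρ).card ≤ (rt ρ').card + 1 := by omega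
      have : ((W1.image p).card : ℝ) + (rt ρ).card ≤ (rt ρ').card + 1 := by exact_mod_cast this
      linarith
    simp only [Th, h2] at h1
    have h9 := mul_le_mul_of_nonneg_left h8 (show 0 ≤ δ * k by positivity)
    have h10 : δ * (k * (((W1.image p).card : ℝ) - 1)) ≤ δ * D.card := by linarith
    exact le_of_mul_le_mul_left h10 hδ
  let b1 : E → V → ℝ := fun e => if e ∈ F1 then bv u v e else 0
  have hb1 : ∀ (y : V → ℝ) (T : Finset E),
      ∑ e ∈ T, (b1 e ⬝ᵥ y) ^ 2 = ∑ e ∈ T ∩ F1, (y (u e) - y (v e)) ^ 2 := fun y T => by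
    rw [← sum_ite_mem]
    refine sum_congr rfl fun e _ => ?_
    by_cases h : e ∈ F1
    · simp only [b1, h, if_true, bv_dot]
    · simp [b1, h]
  refine ⟨W1, F1, gram M b1, ?_, (filter_subset _ _).trans hFY,
    fun e he => ⟨(mem_filter.1 he).2, (hends e (mem_filter.1 he).1).1 (mem_filter.1 he).2⟩,
    gram_psd hMpd b1, gram_contr hMpd b1 fun y => ?_, fun e => ?_, fun e e' h => ?_,
    fun T x hx0 hx1 hT p => ?_⟩
  · exact one_lt_card.2 ⟨u e0, (mW1 _).2 rfl, v e0, (mW1 _).2 (hg.1 e0 he0).symm, hloop e0 he0⟩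
  · rw [hb1, hM, MM_form, univ_inter]
    have h1 : ∑ e ∈ F1, (y (u e) - y (v e)) ^ 2 ≤ ∑ e ∈ F, (y (u e) - y (v e)) ^ 2 :=
      sum_le_sum_of_subset_of_nonneg (filter_subset _ _) fun _ _ _ => sq_nonneg _
    have h2 : 0 ≤ ∑ x ∈ rt ρ, y x ^ 2 := by positivity
    linarith
  · by_cases h : e ∈ F1
    · simpa [gram, b1, h] using hlev e (mem_filter.1 h).1
    · simpa [gram, b1, h] using hδ.le
  · rcases h with h | h <;> simp [gram, b1, h]
  · let y : ℕ → V → ℝ := fun a z =>
      if z ∈ W1 then (if p z = a then 1 else 0) - (if p r = a then 1 else 0) else 0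
    have hsum : ∀ Z : Finset E, Z ⊆ F1 →
        ∑ a ∈ W1.image p, ∑ e ∈ Z, (y a (u e) - y a (v e)) ^ 2 =
          2 * ((cr u v Z W1 p).card : ℝ) := by
      intro Z hZ
      rw [sum_comm, cr, card_filter, Nat.cast_sum, mul_sum]
      refine sum_congr rfl fun e he => ?_
      have h1 : u e ∈ W1 := (mem_filter.1 (hZ he)).2
      have h2 : v e ∈ W1 := (hends e (mem_filter.1 (hZ he)).1).1 h1
      simp only [y, h1, h2, if_true, true_and, sub_sub_sub_cancel_right]
      by_cases h3 : p (u e) = p (v e)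
      · simp [h3]
      · have h4 : ∀ a, ((if p (u e) = a then (1 : ℝ) else 0) - if p (v e) = a then 1 else 0) ^ 2 =
            (if p (u e) = a then (1 : ℝ) else 0) + if p (v e) = a then 1 else 0 := by
          intro a
          by_cases h5 : p (u e) = a
          · have h6 : p (v e) ≠ a := fun h => h3 (h5.trans h.symm)
            simp [h5, h6]
          · by_cases h6 : p (v e) = a <;> simp [h5, h6]
        simp only [h4, sum_add_distrib, sum_ite_eq, mem_image_of_mem p h1, mem_image_of_mem p h2,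
          if_true, ne_eq, h3, not_false_eq_true]
        norm_num
    have h1 : ∀ a, ∑ e ∈ T ∩ F1, (y a (u e) - y a (v e)) ^ 2 ≤
        x * ∑ e ∈ F1, (y a (u e) - y a (v e)) ^ 2 := by
      intro a
      have h2 := gram_subLe hMpd b1 hx0 hT (y a)
      rw [hb1, hM, MM_form] at h2
      have h3 : ∑ z ∈ rt ρ, y a z ^ 2 = 0 := sum_eq_zero fun z hz => by
        by_cases h : z ∈ W1
        · simp [y, hrt z hz h]
        · simp [y, h]
      have h4 : ∑ e ∈ F1, (y a (u e) - y a (v e)) ^ 2 = ∑ e ∈ F, (y a (u e) - y a (v e)) ^ 2 := by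
        refine sum_subset (filter_subset _ _) fun e he h => ?_
        have h5 : u e ∉ W1 := fun h5 => h (mem_filter.2 ⟨he, h5⟩)
        have h6 : v e ∉ W1 := fun h6 => h5 ((hends e he).2 h6)
        simp [y, h5, h6]
      rw [h3, add_zero, ← h4] at h2
      exact h2
    have h2 := sum_le_sum fun a (_ : a ∈ W1.image p) => h1 a
    rw [← mul_sum, hsum _ inter_subset_right, hsum _ Subset.rfl] at h2
    have h3 : (cr u v F1 W1 p).card ≤
        (cr u v (F1 \ T) W1 p).card + (cr u v (T ∩ F1) W1 p).card := by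
      refine le_trans (card_le_card fun e he => ?_) (card_union_le _ _)
      simp only [mem_union, mem_cr, mem_sdiff, mem_inter] at he ⊢
      tauto
    have h4 : ((cr u v F1 W1 p).card : ℝ) ≤
        (cr u v (F1 \ T) W1 p).card + (cr u v (T ∩ F1) W1 p).card := by exact_mod_cast h3
    have h5 := mul_le_mul_of_nonneg_left (hPC1 p) (sub_nonneg.2 hx1)
    nlinarith

end Vale.Agent.P061.W
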